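import Vale.Agent.P078.Ultra

open scoped InnerProductSpace
open Filter Topology

set_option linter.unusedSectionVars false

namespace Vale.Agent.P078

variable {H : Type*} [NormedAddCommGroup H] [InnerProductSpace ℂ H] [CompleteSpace H]
variable {M : VonNeumannAlgebra H} {A : StarSubalgebra ℂ (H →L[ℂ] H)}

/-- Supremum of a directed family of projections of a MASA. -/
lemma exists_sup_proj (hA : IsMASA M A) (S : Set (H →L[ℂ] H))
    (hS : ∀ e ∈ S, e ∈ A ∧ IsStarProjection e) (h0 : (0 : H →L[ℂ] H) ∈ S)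
    (hsup : ∀ e ∈ S, ∀ e' ∈ S, e + e' - e * e' ∈ S) :
    ∃ z ∈ A, IsStarProjection z ∧ (∀ e ∈ S, z * e = e) ∧
      ∀ (s : Finset H) (ε : ℝ), 0 < ε → ∃ e ∈ S, ∀ v ∈ s, ‖z v - e v‖ < ε := by
  classical
  have hl : ∀ e ∈ S, ∀ e' ∈ S, (e + e' - e * e') * e = e := by
    intro e he e' he'
    rw [sub_mul, add_mul, (hS e he).2.isIdempotentElem.eq, mul_assoc,
      hA.2.1 e' (hS e' he').1 e (hS e he).1, ← mul_assoc, (hS e he).2.isIdempotentElem.eq]
    abel
  have hr : ∀ e ∈ S, ∀ e' ∈ S, (e + e' - e * e') * e' = e' := by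
    intro e he e' he'
    rw [sub_mul, add_mul, (hS e' he').2.isIdempotentElem.eq, mul_assoc,
      (hS e' he').2.isIdempotentElem.eq]
    abel
  have hfix : ∀ {e e' : H →L[ℂ] H} {u : H}, e' * e = e → e u = u → e' u = u := by
    intro e e' u h hu
    rw [← hu, ← mul_apply_eq_comp, h]
  let W : Submodule ℂ H :=
    { carrier := {u | ∃ e ∈ S, e u = u}
      zero_mem' := ⟨0, h0, rfl⟩
      add_mem' := by
        rintro u u' ⟨e, he, hu⟩ ⟨e', he', hu'⟩
        exact ⟨_, hsup e he e' he', by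
          rw [map_add, hfix (hl e he e' he') hu, hfix (hr e he e' he') hu']⟩
      smul_mem' := by
        rintro c u ⟨e, he, hu⟩
        exact ⟨e, he, by rw [map_smul, hu]⟩ }
  set K := W.topologicalClosure with hK
  have hz : IsStarProjection K.starProjection := isStarProjection_starProjection
  have hinv : ∀ y : H →L[ℂ] H, (∀ e ∈ S, Commute y e) → ∀ v ∈ K, y v ∈ K := by
    intro y hy v hv
    have hmaps : Set.MapsTo y (W : Set H) (W : Set H) := by
      rintro u ⟨e, he, hu⟩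
      refine ⟨e, he, ?_⟩
      rw [← mul_apply_eq_comp, ← (hy e he).eq, mul_apply_eq_comp, hu]
    exact hmaps.closure y.continuous hv
  have hcomm : ∀ y : H →L[ℂ] H, (∀ e ∈ S, Commute y e) → Commute y K.starProjection := by
    intro y hy
    refine commute_starProjection_of_invt K y (hinv y hy) (hinv _ fun e he => ?_)
    have := congrArg star (hy e he).eq
    simp only [star_mul, (hS e he).2.isSelfAdjoint.star_eq] at this
    exact this.symm
  have hze : ∀ e ∈ S, K.starProjection * e = e := by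
    intro e he
    ext v
    exact Submodule.starProjection_eq_self_iff.mpr
      (W.le_topologicalClosure ⟨e, he, proj_apply_apply (hS e he).2 v⟩)
  have hez : ∀ e ∈ S, e * K.starProjection = e := by
    intro e he
    have := congrArg star (hze e he)
    simpa only [star_mul, (hS e he).2.isSelfAdjoint.star_eq, hz.isSelfAdjoint.star_eq] using this
  refine ⟨K.starProjection, ?_, hz, hze, ?_⟩
  · refine hA.mem_of_commute (mem_of_commute_commutant M _ fun y hy => hcomm y fun e he => ?_) ?_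
    · exact commute_of_mem_commutant hy (hA.1 e (hS e he).1)
    · exact fun a ha => hcomm a fun e he => hA.2.1 a ha e (hS e he).1
  · intro s ε hε
    have key : ∃ e ∈ S, ∀ e' ∈ S, e' * e = e → ∀ v ∈ s, ‖K.starProjection v - e' v‖ < ε := by
      induction s using Finset.induction_on with
      | empty => exact ⟨0, h0, by simp⟩
      | insert v s _ ih =>
        obtain ⟨e, he, hes⟩ := ih
        have hv : K.starProjection v ∈ closure (W : Set H) := K.starProjection_apply_mem v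
        obtain ⟨u, ⟨e1, he1, hu⟩, hd⟩ := Metric.mem_closure_iff.mp hv ε hε
        refine ⟨_, hsup e he e1 he1, fun e' he' h w hw => ?_⟩
        rcases Finset.mem_insert.mp hw with rfl | hw
        · have h1 : e' u = u := hfix h (hfix (hr e he e1 he1) hu)
          have h2 : K.starProjection w - e' w = (1 - e') (K.starProjection w - u) := by
            rw [sub_apply, one_apply_eq_self, map_sub, h1, ← mul_apply_eq_comp, hez e' he']
            abel
          rw [h2]
          exact (norm_proj_apply_le (hS e' he').2.one_sub _).trans_lt (by rwa [← dist_eq_norm])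
        · refine hes e' he' ?_ w hw
          rw [← hl e he e1 he1, ← mul_assoc, h]
    obtain ⟨e, he, hes⟩ := key
    exact ⟨e, he, hes e he (hS e he).2.isIdempotentElem.eq⟩

/-- Normal functions on `M`: weak-operator continuous on bounded parts. -/
def NormalFn (M : VonNeumannAlgebra H) (ψ : (H →L[ℂ] H) → ℂ) : Prop :=
  ∀ (l : Filter (H →L[ℂ] H)) (y0 : H →L[ℂ] H) (C : ℝ), y0 ∈ M → ‖y0‖ ≤ C →
    (∀ᶠ y in l, y ∈ M ∧ ‖y‖ ≤ C) → WLim l id y0 → Tendsto ψ l (𝓝 (ψ y0))

lemma NormalFn.tendsto {ψ : (H →L[ℂ] H) → ℂ} (h : NormalFn M ψ) {α : Type*} {l : Filter α}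
    {y : α → H →L[ℂ] H} {y0 : H →L[ℂ] H} {C : ℝ} (h0 : y0 ∈ M) (h1 : ‖y0‖ ≤ C)
    (h2 : ∀ᶠ a in l, y a ∈ M ∧ ‖y a‖ ≤ C) (h3 : WLim l y y0) :
    Tendsto (fun a => ψ (y a)) l (𝓝 (ψ y0)) :=
  h (l.map y) y0 C h0 h1 h2 h3

lemma NormalFn.of_approx {ψ : (H →L[ℂ] H) → ℂ}
    (h : ∀ ε : ℝ, 0 < ε → ∃ ψ', NormalFn M ψ' ∧ ∀ y ∈ M, ‖ψ y - ψ' y‖ ≤ ε * ‖y‖) :
    NormalFn M ψ := by
  intro l y0 C h0 h1 h2 h3
  have hC : 0 ≤ C := (norm_nonneg _).trans h1
  rw [Metric.tendsto_nhds]
  intro ε hε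
  obtain ⟨ψ', hψ', happ⟩ := h (ε / (3 * (C + 1))) (by positivity)
  have h4 := Metric.tendsto_nhds.mp (hψ' l y0 C h0 h1 h2 h3) (ε / 3) (by positivity)
  have h5 : ∀ y ∈ M, ‖y‖ ≤ C → ‖ψ y - ψ' y‖ ≤ ε / 3 := by
    intro y hy hyC
    calc _ ≤ ε / (3 * (C + 1)) * ‖y‖ := happ y hy
      _ ≤ ε / (3 * (C + 1)) * (C + 1) := by gcongr; linarith
      _ = ε / 3 := by field_simp
  filter_upwards [h2, h4] with y hy hy'
  rw [dist_eq_norm] at hy' ⊢
  calc ‖ψ y - ψ y0‖ = ‖(ψ y - ψ' y) + (ψ' y - ψ' y0) - (ψ y0 - ψ' y0)‖ := by congr 1; ring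
    _ ≤ ‖ψ y - ψ' y‖ + ‖ψ' y - ψ' y0‖ + ‖ψ y0 - ψ' y0‖ :=
        (norm_sub_le _ _).trans (by gcongr; exact norm_add_le _ _)
    _ < ε := by linarith [h5 y hy.1 hy.2, h5 y0 h0 h1]

/-- A finite vector functional. -/
noncomputable def vecFn {κ : Type} [Fintype κ] (α β : κ → H) : (H →L[ℂ] H) →ₗ[ℂ] ℂ where
  toFun y := ∑ k, ⟪α k, y (β k)⟫_ℂ
  map_add' x y := by simp [inner_add_right, Finset.sum_add_distrib]
  map_smul' c x := by simp [inner_smul_right, Finset.mul_sum]

lemma vecFn_apply {κ : Type} [Fintype κ] (α β : κ → H) (y : H →L[ℂ] H) :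
    vecFn α β y = ∑ k, ⟪α k, y (β k)⟫_ℂ := rfl

lemma WLim.vecFn {κ : Type} [Fintype κ] (α β : κ → H) {γ : Type*} {l : Filter γ}
    {y : γ → H →L[ℂ] H} {z : H →L[ℂ] H} (h : WLim l y z) :
    Tendsto (fun a => vecFn α β (y a)) l (𝓝 (vecFn α β z)) :=
  tendsto_finset_sum _ fun k _ => h (α k) (β k)

/-- Projections of `A` under which the ultralimit expectation is normal. -/
def GoodProj (hA : IsMASA M A) (p : H →L[ℂ] H) : Prop :=
  p ∈ A ∧ IsStarProjection p ∧ ∀ w v : H, NormalFn M fun y => ⟪w, (condE hA y * p) v⟫_ℂ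

lemma exists_support (hA : IsMASA M A) {κ : Type} [Fintype κ] (α β : κ → H) :
    ∃ p ∈ A, IsStarProjection p ∧ (∀ a ∈ A, vecFn α β (a * p) = vecFn α β a) ∧
      (∀ e ∈ A, IsStarProjection e → (∀ a ∈ A, vecFn α β (a * e) = 0) → p * e = 0) ∧
      (∀ b ∈ A, b * p = b → (∀ a ∈ A, vecFn α β (a * b) = 0) → b = 0) := by
  classical
  set S : Set (H →L[ℂ] H) :=
    {e | (e ∈ A ∧ IsStarProjection e) ∧ ∀ a ∈ A, vecFn α β (a * e) = 0} with hS
  obtain ⟨z, hzA, hz, hze, happ⟩ := exists_sup_proj hA S (fun e he => he.1)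
    ⟨⟨zero_mem _, IsStarProjection.zero _⟩, by simp⟩ (by
      rintro e ⟨⟨heA, he⟩, h1⟩ e' ⟨⟨heA', he'⟩, h2⟩
      refine ⟨⟨sub_mem (add_mem heA heA') (mul_mem heA heA'),
        IsStarProjection.add_sub_mul_of_commute (hA.2.1 _ heA _ heA') he he'⟩, fun a ha => ?_⟩
      rw [mul_sub, mul_add, map_sub, map_add, ← mul_assoc, h1 a ha, h2 a ha,
        h2 _ (mul_mem ha heA)]
      simp)
  have hzS : ∀ a ∈ A, vecFn α β (a * z) = 0 := by
    intro a ha
    refine norm_le_zero_iff.mp (le_of_forall_pos_le_add fun ε hε => ?_)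
    set C : ℝ := ∑ k, ‖α k‖ * ‖a‖ + 1 with hC
    have hC0 : 0 < C := by positivity
    obtain ⟨e, he, hes⟩ := happ (Finset.univ.image β) (ε / C) (by positivity)
    have h1 : vecFn α β (a * z) = ∑ k, ⟪α k, a (z (β k) - e (β k))⟫_ℂ := by
      have := he.2 a ha
      rw [← sub_zero (vecFn α β (a * z)), ← this, vecFn_apply, vecFn_apply,
        ← Finset.sum_sub_distrib]
      simp [inner_sub_right]
    rw [h1, zero_add]
    calc _ ≤ ∑ k, ‖α k‖ * ‖a‖ * (ε / C) := by
          refine (norm_sum_le _ _).trans (Finset.sum_le_sum fun k _ => ?_)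
          calc _ ≤ ‖α k‖ * ‖a (z (β k) - e (β k))‖ := norm_inner_le_norm _ _
            _ ≤ ‖α k‖ * (‖a‖ * ‖z (β k) - e (β k)‖) := by gcongr; exact a.le_opNorm _
            _ ≤ ‖α k‖ * (‖a‖ * (ε / C)) := by
                gcongr; exact (hes _ (Finset.mem_image_of_mem β (Finset.mem_univ k))).le
            _ = _ := by ring
      _ = (∑ k, ‖α k‖ * ‖a‖) * (ε / C) := by rw [Finset.sum_mul]
      _ ≤ C * (ε / C) := by gcongr; linarith
      _ = ε := by field_simp
  have hpe : ∀ e ∈ A, IsStarProjection e → (∀ a ∈ A, vecFn α β (a * e) = 0) →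
      (1 - z) * e = 0 := by
    intro e heA he h
    rw [sub_mul, one_mul, hze e ⟨⟨heA, he⟩, h⟩, sub_self]
  refine ⟨1 - z, sub_mem (one_mem _) hzA, hz.one_sub, fun a ha => ?_, hpe, ?_⟩
  · rw [mul_sub, mul_one, map_sub, hzS a ha, sub_zero]
  · intro b hbA hbp hb
    refine norm_le_zero_iff.mp (le_of_forall_pos_le_add fun t ht => ?_)
    obtain ⟨q, hqM, hq, hqc, hq1, hq2⟩ := exists_cut_proj M (hA.1 b hbA) ht
    have hcA : star b * b ∈ A := mul_mem (star_mem hbA) hbA
    have hqA : q ∈ A := hA.mem_of_commute hqM fun a ha => hqc a (hA.2.1 a ha _ hcA)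
    set e := 1 - q with he
    have heA : e ∈ A := sub_mem (one_mem _) hqA
    have hep : IsStarProjection e := hq.one_sub
    set h := star b * b * e + q with hh
    have hhA : h ∈ A := add_mem (mul_mem hcA heA) hqA
    have hunit : IsUnit h := by
      refine ContinuousLinearMap.isUnit_of_forall_le_norm_inner_map h
        (c := ⟨min (t ^ 2) 1, by positivity⟩) (by
          show (0 : ℝ) < min (t ^ 2) 1
          positivity) fun v => ?_
      have h1 : star b * b * e = star (b * e) * (b * e) := by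
        rw [star_mul, hep.isSelfAdjoint.star_eq]
        calc star b * b * e = star b * b * (e * e) := by rw [hep.isIdempotentElem.eq]
          _ = (star b * b * e) * e := by simp only [mul_assoc]
          _ = (e * (star b * b)) * e := by rw [hA.2.1 _ hcA _ heA]
          _ = _ := by simp only [mul_assoc]
      have h2 : q = star q * q := by rw [hq.isSelfAdjoint.star_eq, hq.isIdempotentElem.eq]
      have h3 : (⟪v, h v⟫_ℂ).re = ‖b (e v)‖ ^ 2 + ‖q v‖ ^ 2 := by
        rw [hh, add_apply, inner_add_right, Complex.add_re, h1, re_inner_star_mul_self]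
        conv_lhs => rw [h2, re_inner_star_mul_self]
        rfl
      have h4 : t * ‖e v‖ ≤ ‖b (e v)‖ := by
        have := hq2 (e v)
        rwa [proj_apply_apply hep] at this
      have h5 : ‖v‖ ^ 2 = ‖e v‖ ^ 2 + ‖q v‖ ^ 2 := by
        have h6 : v = e v + q v := by simp [he]
        have h7 : ⟪e v, q v⟫_ℂ = 0 := by
          rw [inner_sa hep.isSelfAdjoint, ← mul_apply_eq_comp, hq.one_sub_mul_self, zero_apply,
            inner_zero_right]
        conv_lhs => rw [h6]
        rw [sq, sq, sq]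
        exact norm_add_sq_eq_norm_sq_add_norm_sq_of_inner_eq_zero _ _ h7
      rw [norm_inner_symm]
      refine le_trans ?_ (Complex.re_le_norm _)
      rw [h3, h5]
      show _ * min (t ^ 2) 1 ≤ _
      have h8 : (t * ‖e v‖) ^ 2 ≤ ‖b (e v)‖ ^ 2 := by gcongr
      nlinarith [min_le_left (t ^ 2) 1, min_le_right (t ^ 2) 1, sq_nonneg ‖e v‖, sq_nonneg ‖q v‖]
    obtain ⟨u, hu⟩ := hunit
    have hgA : (↑u⁻¹ : H →L[ℂ] H) ∈ A := by
      refine hA.mem_of_commute (mem_of_commute_commutant M _ fun y hy => ?_) fun a ha => ?_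
      · exact Commute.units_inv_right (hu ▸ commute_of_mem_commutant hy (hA.1 _ hhA))
      · exact Commute.units_inv_right (hu ▸ hA.2.1 a ha _ hhA)
    have heq : e = (↑u⁻¹ * e * star b) * b := by
      have h1 : h * e = e * star b * b := by
        rw [hh, add_mul, hq.mul_one_sub_self, add_zero, mul_assoc, hep.isIdempotentElem.eq,
          hA.2.1 _ hcA _ heA, mul_assoc]
      calc e = ↑u⁻¹ * (h * e) := by rw [← hu, ← mul_assoc, Units.inv_mul, one_mul]
        _ = _ := by rw [h1]; simp only [mul_assoc]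
    have hg2 : (↑u⁻¹ * e * star b : H →L[ℂ] H) ∈ A := mul_mem (mul_mem hgA heA) (star_mem hbA)
    have h1 : (1 - z) * e = 0 := hpe e heA hep fun a ha => by
      rw [heq, ← mul_assoc]; exact hb _ (mul_mem ha hg2)
    have h2 : e * (1 - z) = e := by
      conv_lhs => rw [heq, mul_assoc, hbp, ← heq]
    have h3 : e = 0 := by
      rw [← h2, hA.2.1 _ heA _ (sub_mem (one_mem _) hzA), h1]
    have h4 : q = 1 := (sub_eq_zero.mp h3).symm
    rw [h4, mul_one] at hq1
    linarith

lemma goodProj_of_normal (hA : IsMASA M A) {κ : Type} [Fintype κ] (α β : κ → H)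
    (hn : ∀ a ∈ A, NormalFn M fun y => vecFn α β (a * condE hA y)) {p : H →L[ℂ] H} (hpA : p ∈ A)
    (hp : IsStarProjection p)
    (hf : ∀ b ∈ A, b * p = b → (∀ a ∈ A, vecFn α β (a * b) = 0) → b = 0) : GoodProj hA p := by
  refine ⟨hpA, hp, fun w v l y0 C h0 h1 h2 h3 => ?_⟩
  rw [tendsto_iff_ultrafilter]
  intro U hU
  have h2' : ∀ᶠ y in (U : Filter _), y ∈ M ∧ ‖y‖ ≤ C := hU h2
  obtain ⟨b, hb⟩ := exists_wlim U (fun y => condE hA y * p) C (h2'.mono fun y hy => by
    calc ‖condE hA y * p‖ ≤ ‖condE hA y‖ * ‖p‖ := norm_mul_le _ _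
      _ ≤ C * 1 := by
        gcongr
        · exact (norm_nonneg _).trans h1
        · exact (norm_condE_le hA y).trans hy.2
        · exact hp.norm_le
      _ = C := mul_one C)
  have hmem : ∀ᶠ y in (U : Filter _), condE hA y * p ∈ A :=
    h2'.mono fun y hy => mul_mem (condE_mem hA hy.1) hpA
  have hbA : b ∈ A := hA.mem_of_commute (hb.mem (hmem.mono fun y hy => hA.1 _ hy))
    fun a ha => hb.commute (hmem.mono fun y hy => hA.2.1 a ha _ hy)
  have hbp : b * p = b := ((hb.mul_right p).congr' (Eventually.of_forall fun y => by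
    simp only [mul_assoc, hp.isIdempotentElem.eq])).unique hb
  have hE0 := condE_mem hA h0
  have heq : b - condE hA y0 * p = 0 := by
    refine hf _ (sub_mem hbA (mul_mem hE0 hpA)) ?_ fun a ha => ?_
    · rw [sub_mul, hbp, mul_assoc, hp.isIdempotentElem.eq]
    · have t1 := (hb.mul_left a).vecFn α β
      have t2 := hn (a * p) (mul_mem ha hpA) U y0 C h0 h1 h2' (h3.mono hU)
      have t3 : vecFn α β (a * b) = vecFn α β (a * p * condE hA y0) := by
        refine tendsto_nhds_unique_of_eventuallyEq t1 t2 (h2'.mono fun y hy => ?_)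
        simp only [mul_assoc]
        rw [hA.2.1 _ hpA _ (condE_mem hA hy.1)]
      rw [mul_sub, map_sub, t3, mul_assoc, hA.2.1 _ hpA _ hE0, sub_self]
  have hfin := hb w v
  rw [sub_eq_zero.mp heq] at hfin
  exact hfin

/-- The largest projection under which the ultralimit expectation is normal. -/
lemma exists_max_good (hA : IsMASA M A) :
    ∃ z, GoodProj hA z ∧ ∀ p, GoodProj hA p → z * p = p := by
  classical
  obtain ⟨z, hzA, hz, hze, happ⟩ := exists_sup_proj hA {p | GoodProj hA p}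
    (fun e he => ⟨he.1, he.2.1⟩)
    ⟨zero_mem _, IsStarProjection.zero _, fun w v l y0 C _ _ _ _ => by simpa using tendsto_const_nhds⟩ (by
      rintro e ⟨heA, he, h1⟩ e' ⟨heA', he', h2⟩
      refine ⟨sub_mem (add_mem heA heA') (mul_mem heA heA'),
        IsStarProjection.add_sub_mul_of_commute (hA.2.1 _ heA _ heA') he he', fun w v l y0 C a1 a2 a3 a4 => ?_⟩
      have := ((h1 w v l y0 C a1 a2 a3 a4).add (h2 w v l y0 C a1 a2 a3 a4)).sub
        (h1 w (e' v) l y0 C a1 a2 a3 a4)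
      simpa [mul_sub, mul_add, inner_add_right, inner_sub_right] using this)
  refine ⟨z, ⟨hzA, hz, fun w v => NormalFn.of_approx fun ε hε => ?_⟩, hze⟩
  obtain ⟨e, he, hes⟩ := happ {v} (ε / (‖w‖ + 1)) (by positivity)
  refine ⟨_, he.2.2 w v, fun y _ => ?_⟩
  rw [← inner_sub_right, mul_apply_eq_comp, mul_apply_eq_comp, ← map_sub]
  calc _ ≤ ‖w‖ * ‖condE hA y (z v - e v)‖ := norm_inner_le_norm _ _
    _ ≤ ‖w‖ * (‖condE hA y‖ * ‖z v - e v‖) := by gcongr; exact (condE hA y).le_opNorm _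
    _ ≤ (‖w‖ + 1) * (‖y‖ * (ε / (‖w‖ + 1))) := by
        gcongr
        · linarith
        · exact norm_condE_le hA y
        · exact (hes v (Finset.mem_singleton_self v)).le
    _ = ε * ‖y‖ := by field_simp

lemma GoodProj.isNormalCondExp (hA : IsMASA M A) {p : H →L[ℂ] H} (hp : GoodProj hA p) :
    IsNormalCondExp M A p (condE hA) := by
  obtain ⟨hpA, hpp, hn⟩ := hp
  have hcorner : ∀ y ∈ M, p * y * p = y → condE hA y * p = condE hA y := by
    intro y _ hy
    conv_lhs => rw [← hy, condE_bimod hA hpA hpA, mul_assoc, hpp.isIdempotentElem.eq,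
      ← condE_bimod hA hpA hpA, hy]
  refine ⟨fun y hy h => ⟨condE_mem hA hy, ?_⟩, fun a ha _ => condE_of_mem hA ha,
    fun y _ _ h => condE_pos hA h, fun a ha b hb y _ _ => condE_bimod hA ha hb y, ?_⟩
  · rw [hA.2.1 _ hpA _ (condE_mem hA hy), hcorner y hy h]
  · rw [ContinuousLinearMapWOT.continuousOn_iff]
    intro v w y0 hy0
    have h1 : WLim (𝓝[{y : H →WOT[ℂ] H | y.toCLM ∈ M ∧ p * y.toCLM * p = y.toCLM ∧ ‖y.toCLM‖ ≤ 1}] y0)
        (fun y => y.toCLM) y0.toCLM := fun w v =>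
      (ContinuousLinearMapWOT.tendsto_iff_forall_inner_apply_tendsto.mp
        (tendsto_nhdsWithin_of_tendsto_nhds tendsto_id) v w)
    have h2 := (hn w v).tendsto hy0.1 hy0.2.2
      (eventually_mem_nhdsWithin.mono fun y hy => ⟨hy.1, hy.2.2⟩) h1
    rw [hcorner _ hy0.1 hy0.2.1] at h2
    refine h2.congr' (eventually_mem_nhdsWithin.mono fun y hy => ?_)
    simp only
    rw [hcorner _ hy.1 hy.2.1]
    rfl

end Vale.Agent.P078
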