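import Mathlib

namespace Vale.Agent.P078

variable {H : Type*} [NormedAddCommGroup H] [InnerProductSpace ℂ H] [CompleteSpace H]

/-- `A` is a maximal abelian self-adjoint subalgebra (MASA) of the von Neumann algebra `M`. -/
def IsMASA (M : VonNeumannAlgebra H) (A : StarSubalgebra ℂ (H →L[ℂ] H)) : Prop :=
  (∀ a ∈ A, a ∈ M) ∧ (∀ a ∈ A, ∀ b ∈ A, a * b = b * a) ∧
    ∀ B : StarSubalgebra ℂ (H →L[ℂ] H), (∀ b ∈ B, b ∈ M) → (∀ a ∈ B, ∀ b ∈ B, a * b = b * a) →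
      A ≤ B → B = A

/-- A finite family of mutually orthogonal projections of `A` with sum `1` (zeros allowed). -/
def IsPartition (A : StarSubalgebra ℂ (H →L[ℂ] H)) {ι : Type} [Fintype ι]
    (p : ι → H →L[ℂ] H) : Prop :=
  (∀ i, p i ∈ A ∧ IsStarProjection (p i)) ∧ (∀ i j, i ≠ j → p i * p j = 0) ∧ ∑ i, p i = 1

/-- The pinching `S_P(x) = ∑ p_i x p_i`. -/
noncomputable def pinch {ι : Type} [Fintype ι] (p : ι → H →L[ℂ] H) (x : H →L[ℂ] H) :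
    H →L[ℂ] H :=
  ∑ i, p i * x * p i

/-- `x` is `(ε, r)` so-pavable over `A` in `M`. -/
def SoPavable (M : VonNeumannAlgebra H) (A : StarSubalgebra ℂ (H →L[ℂ] H)) (x : H →L[ℂ] H)
    (ε : ℝ) (r : ℕ) : Prop :=
  ∀ (F : Finset H) (δ : ℝ), 0 < δ →
    ∃ p : Fin r → H →L[ℂ] H, IsPartition A p ∧
      ∃ a ∈ A, IsSelfAdjoint a ∧ ‖a‖ ≤ ‖x‖ ∧
        ∃ q ∈ M, IsStarProjection q ∧ (∀ ξ ∈ F, ‖(1 - q) ξ‖ < δ) ∧
          ‖q * (pinch p x - a) * q‖ ≤ ε * ‖x‖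

/-- `n_{A ⊆ M}(ε)`: the least `r ≥ 1` such that every self-adjoint `x ∈ M` is `(ε, r)`
so-pavable over `A`, and `⊤` if there is none. -/
noncomputable def pavingNumber (M : VonNeumannAlgebra H) (A : StarSubalgebra ℂ (H →L[ℂ] H))
    (ε : ℝ) : ℕ∞ :=
  ⨅ (r : ℕ) (_ : 1 ≤ r ∧ ∀ x ∈ M, IsSelfAdjoint x → SoPavable M A x ε r), (r : ℕ∞)

/-- `E` restricts to a normal conditional expectation of the corner `p M p` onto `A p`:
it is linear, maps `p M p` into `A p`, fixes `A p`, is positive, is an `A`-bimodule map, and is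
normal (continuous for the weak operator topology on the unit ball of `p M p`). -/
def IsNormalCondExp (M : VonNeumannAlgebra H) (A : StarSubalgebra ℂ (H →L[ℂ] H))
    (p : H →L[ℂ] H) (E : (H →L[ℂ] H) →ₗ[ℂ] (H →L[ℂ] H)) : Prop :=
  (∀ y ∈ M, p * y * p = y → E y ∈ A ∧ p * E y = E y) ∧
  (∀ a ∈ A, p * a = a → E a = a) ∧
  (∀ y ∈ M, p * y * p = y → y.IsPositive → (E y).IsPositive) ∧
  (∀ a ∈ A, ∀ b ∈ A, ∀ y ∈ M, p * y * p = y → E (a * y * b) = a * E y * b) ∧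
  ContinuousOn (fun y : H →WOT[ℂ] H => ContinuousLinearMapWOT.ofCLM (E y.toCLM))
    {y | y.toCLM ∈ M ∧ p * y.toCLM * p = y.toCLM ∧ ‖y.toCLM‖ ≤ 1}

end Vale.Agent.P078
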