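import Vale.Agent.P078.Random

open scoped InnerProductSpace
open Filter Topology

set_option linter.unusedSectionVars false

namespace Vale.Agent.P078

variable {H : Type*} [NormedAddCommGroup H] [InnerProductSpace ℂ H] [CompleteSpace H]
variable {M : VonNeumannAlgebra H} {A : StarSubalgebra ℂ (H →L[ℂ] H)}

lemma norm_block_le {z s t : H →L[ℂ] H} (hz : IsStarProjection z) {c : ℝ} (hc : 0 ≤ c)
    (hs : z * s * z = s) (ht : (1 - z) * t * (1 - z) = t) (hs' : ‖s‖ ≤ c) (ht' : ‖t‖ ≤ c) :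
    ‖s + t‖ ≤ c := by
  refine ContinuousLinearMap.opNorm_le_bound _ hc fun v => ?_
  have horth : ∀ a b : H, ‖z a + (1 - z) b‖ ^ 2 = ‖z a‖ ^ 2 + ‖(1 - z) b‖ ^ 2 := by
    intro a b
    have h7 : ⟪z a, (1 - z) b⟫_ℂ = 0 := by
      rw [inner_sa hz.isSelfAdjoint, ← mul_apply_eq_comp, hz.mul_one_sub_self, zero_apply,
        inner_zero_right]
    rw [sq, sq, sq]
    exact norm_add_sq_eq_norm_sq_add_norm_sq_of_inner_eq_zero _ _ h7
  have h1 : (s + t) v = z (s (z v)) + (1 - z) (t ((1 - z) v)) := by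
    conv_lhs => rw [← hs, ← ht]
    rfl
  have h2 : ‖v‖ ^ 2 = ‖z v‖ ^ 2 + ‖(1 - z) v‖ ^ 2 := by
    rw [← horth]; simp
  have h3 : ‖z (s (z v))‖ ≤ c * ‖z v‖ :=
    (norm_proj_apply_le hz _).trans ((s.le_opNorm _).trans (by gcongr))
  have h4 : ‖(1 - z) (t ((1 - z) v))‖ ≤ c * ‖(1 - z) v‖ :=
    (norm_proj_apply_le hz.one_sub _).trans ((t.le_opNorm _).trans (by gcongr))
  apply abs_le_of_sq_le_sq' _ (by positivity) |>.2
  rw [h1, horth, mul_pow, h2, mul_add, ← mul_pow, ← mul_pow]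
  gcongr

lemma IsPartition.reindex {ι κ : Type} [Fintype ι] [Fintype κ] {p : ι → H →L[ℂ] H}
    (hp : IsPartition A p) (e : κ ≃ ι) : IsPartition A (p ∘ e) :=
  ⟨fun i => hp.1 (e i), fun i j h => hp.2.1 _ _ (e.injective.ne h),
    (e.sum_comp p).trans hp.2.2⟩

lemma pinch_reindex {ι κ : Type} [Fintype ι] [Fintype κ] (p : ι → H →L[ℂ] H) (e : κ ≃ ι)
    (x : H →L[ℂ] H) : pinch (p ∘ e) x = pinch p x :=
  e.sum_comp fun i => p i * x * p i

lemma soPavable_zero (M : VonNeumannAlgebra H) (A : StarSubalgebra ℂ (H →L[ℂ] H)) (ε : ℝ) {r : ℕ}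
    (hr : 0 < r) : SoPavable M A 0 ε r := by
  intro F δ hδ
  refine ⟨trivPart ⟨0, hr⟩, isPartition_trivPart _, 0, zero_mem _, IsSelfAdjoint.zero _, le_rfl,
    1, one_mem _, IsStarProjection.one _, by simpa using fun _ _ => hδ, ?_⟩
  simp [pinch_trivPart]

/-- Gluing a paving of the expected corner with the random paving of its complement. -/
lemma soPavable_glue (hA : IsMASA M A) {z : H →L[ℂ] H} (hzA : z ∈ A)
    (hzp : IsStarProjection z) (hz : ∀ p, GoodProj hA p → z * p = p) {x : H →L[ℂ] H}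
    (hxM : x ∈ M) (hx : IsSelfAdjoint x) {ε : ℝ} {r₁ r₂ : ℕ} (hr : 1 < ε * r₂)
    (h : ∀ (F : Finset H) (δ : ℝ), 0 < δ → ∃ p : Fin r₁ → H →L[ℂ] H,
      (∀ i, p i ∈ A ∧ IsStarProjection (p i)) ∧ (∀ i j, i ≠ j → p i * p j = 0) ∧ ∑ i, p i = z ∧
      ∃ a ∈ A, IsSelfAdjoint a ∧ z * a = a ∧ ‖a‖ ≤ ‖x‖ ∧
        ∃ q ∈ M, IsStarProjection q ∧ z * q = q ∧ (∀ ξ ∈ F, ‖(z - q) ξ‖ < δ) ∧
          ‖q * (pinch p x - a) * q‖ ≤ ε * ‖x‖) :
    SoPavable M A x ε (r₁ + r₂) := by
  have hr0 : 0 < r₂ := by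
    rcases Nat.eq_zero_or_pos r₂ with h0 | h0
    · rw [h0] at hr; norm_num at hr
    · exact h0
  have hr0' : (0 : ℝ) < r₂ := by exact_mod_cast hr0
  have hε : (r₂ : ℝ)⁻¹ < ε := by
    rw [inv_lt_iff_one_lt_mul₀ hr0']; exact hr
  have hε0 : 0 < ε := lt_trans (by positivity) hε
  by_cases hx0 : x = 0
  · rw [hx0]; exact soPavable_zero M A ε (by omega)
  have hxn : 0 < ‖x‖ := norm_pos_iff.mpr hx0
  intro F δ hδ
  obtain ⟨p1, hp1, hp1o, hp1s, a1, ha1A, ha1s, hza1, ha1n, q1, hq1M, hq1, hzq1, hq1F, hq1n⟩ :=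
    h F (δ / 2) (by positivity)
  set w := 1 - z with hw
  have hwp : IsStarProjection w := hzp.one_sub
  have hwA : w ∈ A := sub_mem (one_mem _) hzA
  have hwM : w ∈ M := hA.1 w hwA
  have hww : w * w = w := hwp.isIdempotentElem.eq
  have hzw : z * w = 0 := hzp.mul_one_sub_self
  have hwz : w * z = 0 := hzp.one_sub_mul_self
  set s : ℝ := (ε - (r₂ : ℝ)⁻¹) * ‖x‖ / 2 with hs
  have hs0 : 0 < s := by
    have : 0 < ε - (r₂ : ℝ)⁻¹ := sub_pos.mpr hε
    positivity
  obtain ⟨p2, hp2, d, hdM, hdec, hdξ⟩ := exists_pinch_decomp hA hr0 hzA hzp hz hxM hx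
    (κ := Fin F.card) (fun k => w (F.equivFin.symm k))
    (fun k => by rw [← mul_apply_eq_comp, hzw, zero_apply]) (t := s * (δ / 4)) (by positivity)
  obtain ⟨q2, hq2M, hq2, hq2c, hq2n, hq2v⟩ := exists_cut_proj M
    (d := w * d * w) (mul_mem (mul_mem hwM hdM) hwM) hs0
  have hwq2 : Commute w q2 := by
    refine hq2c w ?_
    rw [star_mul, star_mul, hwp.isSelfAdjoint.star_eq, Commute, SemiconjBy]
    have e1 : ∀ y : H →L[ℂ] H, y * w * w = y * w := fun y => by rw [mul_assoc, hww]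
    simp only [← mul_assoc, hww, e1]
  have hstar : ∀ {a b : H →L[ℂ] H}, IsSelfAdjoint a → IsSelfAdjoint b → a * b = b → b * a = b := by
    intro a b ha hb hab
    have := congrArg star hab
    rwa [star_mul, ha.star_eq, hb.star_eq] at this
  have hzp1 : ∀ i, z * p1 i = p1 i := by
    intro i
    rw [← hp1s, Finset.sum_mul, Finset.sum_eq_single i, (hp1 i).2.isIdempotentElem.eq]
    · exact fun j _ hj => hp1o j i hj
    · simp
  have hp1z : ∀ i, p1 i * z = p1 i := fun i =>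
    hstar hzp.isSelfAdjoint (hp1 i).2.isSelfAdjoint (hzp1 i)
  have hc2 : ∀ c, Commute w (p2 c) := fun c => hA.2.1 _ hwA _ (hp2.mem c)
  let P : Fin r₁ ⊕ Fin r₂ → H →L[ℂ] H := Sum.elim p1 fun c => w * p2 c
  have hP : IsPartition A P := by
    refine ⟨?_, ?_, ?_⟩
    · rintro (i | c)
      · exact hp1 i
      · exact ⟨mul_mem hwA (hp2.mem c), hwp.mul (hp2.proj c) (hc2 c)⟩
    · rintro (i | c) (j | c') hij
      · exact hp1o i j fun h => hij (by rw [h])
      · show p1 i * (w * p2 c') = 0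
        rw [← hp1z i, mul_assoc, ← mul_assoc z, hzw, zero_mul, mul_zero]
      · show w * p2 c * p1 j = 0
        rw [(hc2 c).eq, ← hzp1 j, mul_assoc, ← mul_assoc w, hwz, zero_mul, mul_zero]
      · show w * p2 c * (w * p2 c') = 0
        rw [mul_assoc, ← mul_assoc (p2 c), ← (hc2 c).eq, mul_assoc,
          hp2.2.1 c c' fun h => hij (by rw [h]), mul_zero, mul_zero]
    · rw [Fintype.sum_sum_type]
      simp only [P, Sum.elim_inl, Sum.elim_inr, hp1s, ← Finset.mul_sum, hp2.2.2, hw]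
      simp
  have hpinch : pinch P x = pinch p1 x + w * pinch p2 x * w := by
    simp only [pinch, Fintype.sum_sum_type, P, Sum.elim_inl, Sum.elim_inr, Finset.mul_sum,
      Finset.sum_mul]
    congr 1
    refine Finset.sum_congr rfl fun c _ => ?_
    simp only [mul_assoc]
    rw [(hc2 c).eq]
  have hEA := condE_mem hA hxM
  have hEsa : IsSelfAdjoint (condE hA x) := by rw [IsSelfAdjoint, condE_star, hx.star_eq]
  set a2 := w * ((1 - (r₂ : ℝ)⁻¹) • condE hA x) * w with ha2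
  have ha2A : a2 ∈ A := mul_mem (mul_mem hwA (rsmul_mem_sub _ hEA)) hwA
  have ha2s : IsSelfAdjoint a2 := by
    have := (sa_rsmul (1 - (r₂ : ℝ)⁻¹) hEsa).conjugate w
    rwa [hwp.isSelfAdjoint.star_eq] at this
  have hconj : ∀ {e : H →L[ℂ] H}, IsStarProjection e → ∀ y : H →L[ℂ] H, ‖e * y * e‖ ≤ ‖y‖ := by
    intro e he y
    calc ‖e * y * e‖ ≤ ‖e‖ * ‖y‖ * ‖e‖ := norm_mul₃_le
      _ ≤ 1 * ‖y‖ * 1 := by gcongr <;> exact he.norm_le
      _ = ‖y‖ := by ring
  have hinv1 : (r₂ : ℝ)⁻¹ ≤ 1 := inv_le_one_of_one_le₀ (by exact_mod_cast hr0)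
  have ha2n : ‖a2‖ ≤ ‖x‖ := by
    refine (hconj hwp _).trans ?_
    rw [norm_smul, Real.norm_of_nonneg (by linarith)]
    have := norm_condE_le hA x
    have h2 : 0 ≤ (r₂ : ℝ)⁻¹ := by positivity
    nlinarith [norm_nonneg (condE hA x)]
  have hq1z : q1 * z = q1 := hstar hzp.isSelfAdjoint hq1.isSelfAdjoint hzq1
  have ha1z : a1 * z = a1 := hstar hzp.isSelfAdjoint ha1s hza1
  set u := w * q2 with hu
  have hup : IsStarProjection u := hwp.mul hq2 hwq2
  have hwu : w * u = u := by rw [hu, ← mul_assoc, hww]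
  have huw : u * w = u := hstar hwp.isSelfAdjoint hup.isSelfAdjoint hwu
  have hq1w : q1 * w = 0 := by rw [← hq1z, mul_assoc, hzw, mul_zero]
  have hwq1 : w * q1 = 0 := by rw [← hzq1, ← mul_assoc, hwz, zero_mul]
  have huz : u * z = 0 := by rw [← huw, mul_assoc, hwz, mul_zero]
  have hzu : z * u = 0 := by rw [← hwu, ← mul_assoc, hzw, zero_mul]
  refine ⟨P ∘ finSumFinEquiv.symm, hP.reindex _, a1 + a2, add_mem ha1A ha2A, ha1s.add ha2s,
    norm_block_le hzp (norm_nonneg _) (by rw [hza1, ha1z]) ?_ ha1n ha2n,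
    q1 + u, add_mem hq1M (mul_mem hwM hq2M), hq1.add hup ?_, fun ξ hξ => ?_, ?_⟩
  · rw [ha2, ← hw]
    simp only [← mul_assoc, hww]
    rw [mul_assoc _ w w, hww]
  · rw [hu, ← mul_assoc, hq1w, zero_mul]
  · have h1 : 1 - (q1 + u) = (z - q1) + (1 - q2) * w := by
      rw [sub_mul, one_mul, ← hwq2.eq, ← hu, hw]; abel
    have h2 := hq2v (w ξ)
    have h3 := hdξ (F.equivFin ⟨ξ, hξ⟩)
    simp only [Equiv.symm_apply_apply] at h3
    have h4 : ‖(w * d * w) (w ξ)‖ ≤ s * (δ / 4) := by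
      rw [mul_apply_eq_comp, mul_apply_eq_comp, proj_apply_apply hwp]
      exact (norm_proj_apply_le hwp _).trans h3
    have h5 : ‖(1 - q2) (w ξ)‖ ≤ δ / 4 := le_of_mul_le_mul_left (h2.trans h4) hs0
    rw [h1, add_apply, mul_apply_eq_comp]
    linarith [norm_add_le ((z - q1) ξ) ((1 - q2) (w ξ)), hq1F ξ hξ]
  · rw [pinch_reindex, hpinch]
    set b1 := pinch p1 x - a1 with hb1
    set b2 := w * pinch p2 x * w - a2 with hb2
    have hb1z : z * b1 = b1 ∧ b1 * z = b1 := by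
      constructor
      · rw [hb1, mul_sub, hza1, pinch, Finset.mul_sum]
        simp only [← mul_assoc, hzp1]
      · rw [hb1, sub_mul, ha1z, pinch, Finset.sum_mul]
        simp only [mul_assoc, hp1z]
    have hb2w : w * b2 = b2 ∧ b2 * w = b2 := by
      constructor
      · rw [hb2, ha2, mul_sub]
        simp only [← mul_assoc, hww]
      · rw [hb2, ha2, sub_mul]
        simp only [mul_assoc, hww]
    have h1 : pinch p1 x + w * pinch p2 x * w - (a1 + a2) = b1 + b2 := by rw [hb1, hb2]; abel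
    have h2 : (q1 + u) * (b1 + b2) * (q1 + u) = q1 * b1 * q1 + u * b2 * u := by
      have e1 : q1 * b2 = 0 := by rw [← hb2w.1, ← mul_assoc, hq1w, zero_mul]
      have e2 : u * b1 = 0 := by rw [← hb1z.1, ← mul_assoc, huz, zero_mul]
      have e3 : b1 * u = 0 := by rw [← hb1z.2, mul_assoc, hzu, mul_zero]
      have e4 : b2 * q1 = 0 := by rw [← hb2w.2, mul_assoc, hwq1, mul_zero]
      simp only [add_mul, mul_add, e1, e2, mul_assoc, e3, e4, zero_mul, mul_zero, add_zero,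
        zero_add]
    rw [h1, h2]
    refine norm_block_le hzp (by positivity) ?_ ?_ hq1n ?_
    · simp only [← mul_assoc, hzq1]
      rw [mul_assoc _ q1 z, hq1z]
    · rw [← hw]
      simp only [← mul_assoc, hwu]
      rw [mul_assoc _ u w, huw]
    · have h3 : u * b2 * u = u * ((r₂ : ℝ)⁻¹ • x) * u + (u * (w * d * w * q2) * w +
          star (u * (w * d * w * q2) * w)) := by
        have e1 : q2 * w = u := hwq2.eq.symm
        have e2 : b2 = w * ((r₂ : ℝ)⁻¹ • x + (d + star d)) * w := by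
          rw [hb2, ha2, hdec]
          simp only [mul_add, add_mul]
          abel
        have e3 : u * (w * d * w * q2) * w = u * d * u := by
          simp only [← mul_assoc, huw]
          rw [mul_assoc _ q2 w, e1, mul_assoc _ w u, hwu]
        rw [e3, star_mul (u * d) u, star_mul u d, hup.isSelfAdjoint.star_eq, e2]
        simp only [← mul_assoc, huw]
        rw [mul_assoc _ w u, hwu]
        simp only [mul_add, add_mul]
      have h4 : ‖u * (w * d * w * q2) * w‖ ≤ s := by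
        calc _ ≤ ‖u‖ * ‖w * d * w * q2‖ * ‖w‖ := norm_mul₃_le
          _ ≤ 1 * s * 1 := by gcongr; exacts [hup.norm_le, hwp.norm_le]
          _ = s := by ring
      have h5 : ‖u * ((r₂ : ℝ)⁻¹ • x) * u‖ ≤ (r₂ : ℝ)⁻¹ * ‖x‖ := by
        refine (hconj hup _).trans ?_
        rw [norm_smul, Real.norm_of_nonneg (by positivity)]
      rw [h3]
      refine (norm_add_le _ _).trans ?_
      have h6 := norm_add_le (u * (w * d * w * q2) * w) (star (u * (w * d * w * q2) * w))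
      rw [norm_star] at h6
      rw [hs] at h4
      linarith

/-- Upper bound when no corner is expected. -/
lemma soPavable_of_no_expectation (hA : IsMASA M A)
    (hno : ∀ p ∈ A, IsStarProjection p → p ≠ 0 → ¬ ∃ E, IsNormalCondExp M A p E)
    {x : H →L[ℂ] H} (hxM : x ∈ M) (hx : IsSelfAdjoint x) {ε : ℝ} {r : ℕ} (hr : 1 < ε * r) :
    SoPavable M A x ε r := by
  have hz : ∀ p, GoodProj hA p → (0 : H →L[ℂ] H) * p = p := by
    intro p hp
    by_contra h
    refine hno p hp.1 hp.2.1 (fun h0 => h (by rw [h0, mul_zero])) ⟨_, hp.isNormalCondExp hA⟩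
  have hε : 0 ≤ ε := by
    by_contra h
    have : ε * r ≤ 0 := mul_nonpos_of_nonpos_of_nonneg (not_le.mp h).le (Nat.cast_nonneg r)
    linarith
  have := soPavable_glue hA (zero_mem A) (IsStarProjection.zero _) hz hxM hx (r₁ := 0) hr
    fun F δ hδ => ⟨fun i => i.elim0, fun i => i.elim0, fun i => i.elim0, by simp, 0, zero_mem _,
      IsSelfAdjoint.zero _, by simp, by simp, 0, zero_mem _, IsStarProjection.zero _, by simp,
      by simpa using fun _ _ => hδ, by simp; positivity⟩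
  rwa [Nat.zero_add] at this

end Vale.Agent.P078
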