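import Vale.Agent.P078.Reduce

open scoped InnerProductSpace
open Filter Topology

set_option linter.unusedSectionVars false

namespace Vale.Agent.P078

variable {H : Type*} [NormedAddCommGroup H] [InnerProductSpace ℂ H] [CompleteSpace H]
variable {M : VonNeumannAlgebra H} {A : StarSubalgebra ℂ (H →L[ℂ] H)}

/-- A finite family of vectors of total mass at most one, each in a block of `P`. -/
structure Fam (P : Part A) where
  K : Type
  [fin : Fintype K]
  v : K → H
  blocked : ∀ k, ∃ i, P.q i (v k) = v k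
  mass : ∑ k, ‖v k‖ ^ 2 ≤ 1

attribute [instance] Fam.fin

/-- The quadratic form of a family. -/
noncomputable def Fam.val {P : Part A} (V : Fam P) (f : H →L[ℂ] H) : ℝ := ∑ k, ‖f (V.v k)‖ ^ 2

/-- Mixture of two families. -/
noncomputable def Fam.mix {P : Part A} (V W : Fam P) {a b : ℝ} (ha : 0 ≤ a) (hb : 0 ≤ b)
    (hab : a + b = 1) : Fam P where
  K := V.K ⊕ W.K
  v := Sum.elim (fun k => √a • V.v k) (fun k => √b • W.v k)
  blocked := by
    rintro (k | k)
    · obtain ⟨i, hi⟩ := V.blocked k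
      exact ⟨i, by simp [hi]⟩
    · obtain ⟨i, hi⟩ := W.blocked k
      exact ⟨i, by simp [hi]⟩
  mass := by
    simp only [Fintype.sum_sum_type, Sum.elim_inl, Sum.elim_inr, norm_smul, mul_pow,
      Real.norm_eq_abs, sq_abs, Real.sq_sqrt ha, Real.sq_sqrt hb, ← Finset.mul_sum]
    nlinarith [V.mass, W.mass]

lemma Fam.val_mix {P : Part A} (V W : Fam P) {a b : ℝ} (ha : 0 ≤ a) (hb : 0 ≤ b)
    (hab : a + b = 1) (f : H →L[ℂ] H) : (V.mix W ha hb hab).val f = a * V.val f + b * W.val f := by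
  have : (V.mix W ha hb hab).val f = ∑ k : V.K ⊕ W.K,
    ‖f (Sum.elim (fun k => √a • V.v k) (fun k => √b • W.v k) k)‖ ^ 2 := rfl
  rw [this]
  simp only [Fintype.sum_sum_type, Sum.elim_inl, Sum.elim_inr,
    ContinuousLinearMap.map_smul_of_tower, norm_smul, mul_pow,
    Real.norm_eq_abs, sq_abs, Real.sq_sqrt ha, Real.sq_sqrt hb, ← Finset.mul_sum, Fam.val]

lemma finite_minimax {P : Part A} {𝓕 : Set (H →L[ℂ] H)} (hconv : Convex ℝ 𝓕) {η : ℝ} (hη : 0 < η)
    (h : ∀ f ∈ 𝓕, ∃ V : Fam P, η ≤ V.val f) (S : Finset (H →L[ℂ] H)) :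
    ∃ V : Fam P, ∀ f ∈ S, f ∈ 𝓕 → η / 2 < V.val f := by
  classical
  set S' := S.filter (· ∈ 𝓕) with hS'
  by_contra hcon
  let O : Set (S' → ℝ) := {y | ∀ f, η / 2 < y f}
  let D : Set (S' → ℝ) := Set.range fun V : Fam P => fun f : S' => V.val f
  have hO : IsOpen O := by
    have : O = ⋂ f, {y | η / 2 < y f} := by ext; simp [O]
    rw [this]
    exact isOpen_iInter_of_finite fun f => isOpen_lt continuous_const (continuous_apply f)
  have hOc : Convex ℝ O := by
    intro x hx y hy a b ha hb hab f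
    exact convex_Ioi (η / 2) (hx f) (hy f) ha hb hab
  have hDc : Convex ℝ D := by
    rintro _ ⟨V, rfl⟩ _ ⟨W, rfl⟩ a b ha hb hab
    exact ⟨V.mix W ha hb hab, by ext f; simp [Fam.val_mix]⟩
  have hdisj : Disjoint O D := by
    rw [Set.disjoint_left]
    rintro _ hy ⟨V, rfl⟩
    exact hcon ⟨V, fun f hf hf' => hy ⟨f, Finset.mem_filter.mpr ⟨hf, hf'⟩⟩⟩
  obtain ⟨L, u, hL1, hL2⟩ := geometric_hahn_banach_open hOc hO hDc hdisj
  set lam : S' → ℝ := fun f => -L (Pi.single f 1) with hlam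
  have hL : ∀ y : S' → ℝ, L y = -∑ f, lam f * y f := by
    intro y
    conv_lhs => rw [← Finset.univ_sum_single y, map_sum]
    rw [← Finset.sum_neg_distrib]
    refine Finset.sum_congr rfl fun f _ => ?_
    have : (Pi.single f (y f) : S' → ℝ) = y f • Pi.single f 1 := by
      rw [← Pi.single_smul, smul_eq_mul, mul_one]
    rw [this, map_smul, hlam, smul_eq_mul]
    ring
  have hlam0 : ∀ f, 0 ≤ lam f := by
    intro f
    by_contra hneg
    have hneg' : 0 < -lam f := by linarith [not_le.mp hneg]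
    set c : S' → ℝ := fun _ => η with hc
    have h1 := hL1 (c + ((|u - L c| / (-lam f)) • (Pi.single f 1 : S' → ℝ))) (fun g => by
      have : 0 ≤ ((|u - L c| / (-lam f)) • (Pi.single f 1 : S' → ℝ)) g := by
        rw [Pi.smul_apply, smul_eq_mul]
        refine mul_nonneg (by positivity) ?_
        rw [Pi.single_apply]
        split_ifs <;> norm_num
      rw [Pi.add_apply]
      simp only [hc]
      linarith)
    rw [map_add, map_smul, smul_eq_mul] at h1
    have h2 : L (Pi.single f 1) = -lam f := by simp [hlam]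
    rw [h2, div_mul_cancel₀ _ hneg'.ne'] at h1
    linarith [le_abs_self (u - L c)]
  set Λ := ∑ f, lam f with hΛ
  have h3 := hL1 (fun _ => 3 * η / 4) (fun _ => by linarith)
  rw [hL, ← Finset.sum_mul, ← hΛ] at h3
  have h4 := hL2 _ ⟨⟨Empty, fun k => k.elim, fun k => k.elim, by simp⟩, rfl⟩
  have h5 : u ≤ 0 := by simpa [hL, Fam.val] using h4
  have hΛ0 : 0 < Λ := by
    by_contra h0
    nlinarith [not_lt.mp h0]
  have hsum : ∑ f, lam f / Λ = 1 := by rw [← Finset.sum_div, div_self hΛ0.ne']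
  have hw0 : ∀ f, 0 ≤ lam f / Λ := fun f => div_nonneg (hlam0 f) hΛ0.le
  obtain ⟨V, hV⟩ := h (∑ f : S', (lam f / Λ) • (f : H →L[ℂ] H))
    (hconv.sum_mem (fun f _ => hw0 f) hsum fun f _ => (Finset.mem_filter.mp f.2).2)
  have h6 := hL2 _ ⟨V, rfl⟩
  rw [hL] at h6
  have h7 : V.val (∑ f : S', (lam f / Λ) • (f : H →L[ℂ] H)) ≤ ∑ f : S', lam f / Λ * V.val f := by
    simp only [Fam.val, Finset.mul_sum]
    rw [Finset.sum_comm]
    refine Finset.sum_le_sum fun k _ => ?_
    refine le_trans ?_ (Real.pow_arith_mean_le_arith_mean_pow Finset.univ _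
      (fun f : S' => ‖(f : H →L[ℂ] H) (V.v k)‖) (fun f _ => hw0 f) hsum
      (fun f _ => norm_nonneg _) 2)
    gcongr
    rw [sum_apply]
    refine (norm_sum_le _ _).trans (le_of_eq (Finset.sum_congr rfl fun f _ => ?_))
    rw [smul_apply, norm_smul, Real.norm_of_nonneg (hw0 f)]
  have h8 : ∑ f : S', lam f / Λ * V.val f = (∑ f : S', lam f * V.val f) / Λ := by
    rw [Finset.sum_div]
    exact Finset.sum_congr rfl fun f _ => by ring
  rw [h8, le_div_iff₀ hΛ0] at h7
  nlinarith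

lemma singular_uniform (hA : IsMASA M A) (hz : ∀ p, GoodProj hA p → (0 : H →L[ℂ] H) * p = p)
    (ξ : H) {η : ℝ} (hη : 0 < η) :
    ∃ f ∈ M, IsSelfAdjoint f ∧ ‖ξ - f ξ‖ ≤ η ∧ ∃ P : Part A, ∀ V : Fam P, V.val f < η := by
  classical
  by_contra hcon
  push Not at hcon
  set 𝓕 : Set (H →L[ℂ] H) := {f | f ∈ M ∧ IsSelfAdjoint f ∧ ‖ξ - f ξ‖ ≤ η} with h𝓕
  have hconv : Convex ℝ 𝓕 := by
    rintro f hf g hg a b ha hb hab
    refine ⟨add_mem (rsmul_mem_vN _ hf.1) (rsmul_mem_vN _ hg.1),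
      (sa_rsmul a hf.2.1).add (sa_rsmul b hg.2.1), ?_⟩
    have : ξ - (a • f + b • g) ξ = a • (ξ - f ξ) + b • (ξ - g ξ) := by
      rw [add_apply, smul_apply, smul_apply, smul_sub, smul_sub]
      conv_lhs => rw [← one_smul ℝ ξ, ← hab, add_smul]
      simp only [← add_smul, hab, one_smul]
      rw [show a • ξ - a • f ξ + (b • ξ - b • g ξ) = (a + b) • ξ - (a • f ξ + b • g ξ) by module,
        hab, one_smul]
    rw [this]
    refine (norm_add_le _ _).trans ?_
    rw [norm_smul, norm_smul, Real.norm_of_nonneg ha, Real.norm_of_nonneg hb]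
    nlinarith [hf.2.2, hg.2.2]
  choose V hV using fun a : Finset (ProjIn A) × Finset (H →L[ℂ] H) =>
    finite_minimax (P := netPart hA a.1) hconv hη
      (fun f hf => hcon f hf.1 hf.2.1 hf.2.2 _) a.2
  let U : Ultrafilter (Finset (ProjIn A) × Finset (H →L[ℂ] H)) := Ultrafilter.of atTop
  obtain ⟨f, hfM, hfs, hf1, hf2⟩ := singular_core hA (zero_mem A) (IsStarProjection.zero _) hz
    (fun _ : Unit => ξ) (fun _ => rfl) (half_pos hη) zero_le_one U (fun a => (V a).K)
    (fun a => (V a).v) (fun e heA he => by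
      refine (Ultrafilter.of_le _) ?_
      filter_upwards [eventually_ge_atTop
        (({⟨e, heA, he⟩}, ∅) : Finset (ProjIn A) × Finset (H →L[ℂ] H))] with a ha k
      exact ((exists_adapted hA a.1).choose_spec ⟨e, heA, he⟩
        (ha.1 (Finset.mem_singleton_self _))).apply_blocked ((V a).blocked k))
    (fun a => (V a).mass)
  have h3 : ∀ᶠ a in (U : Filter (Finset (ProjIn A) × Finset (H →L[ℂ] H))), f ∈ a.2 := by
    refine (Ultrafilter.of_le _) ?_
    filter_upwards [eventually_ge_atTop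
      ((∅, {f}) : Finset (ProjIn A) × Finset (H →L[ℂ] H))] with a ha
    exact ha.2 (Finset.mem_singleton_self _)
  obtain ⟨a, ha1, ha2⟩ := (hf2.and h3).exists
  have := hV a f ha2 ⟨hfM, hfs, by linarith [hf1 ()]⟩
  exact lt_asymm this ha1

lemma abs_re_inner_le_of_cut {y q : H →L[ℂ] H} (hq : IsStarProjection q) {c δ : ℝ}
    (hy : ‖y‖ ≤ 2) (hc : ‖q * y * q‖ ≤ c) {ζ : H} (hζ : ‖ζ‖ = 1) (hδ : ‖(1 - q) ζ‖ < δ) :
    |(⟪ζ, y ζ⟫_ℂ).re| ≤ c + 4 * δ := by
  have h1 : ⟪ζ, y ζ⟫_ℂ = ⟪ζ, (q * y * q) ζ⟫_ℂ + ⟪(1 - q) ζ, y ζ⟫_ℂ + ⟪q ζ, y ((1 - q) ζ)⟫_ℂ := by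
    simp only [mul_apply_eq_comp, sub_apply, one_apply_eq_self, map_sub, inner_sub_left,
      inner_sub_right, ← inner_sa hq.isSelfAdjoint]
    ring
  have h2 : ‖⟪ζ, (q * y * q) ζ⟫_ℂ‖ ≤ c := by
    refine (norm_inner_le_norm _ _).trans ?_
    have := (q * y * q).le_opNorm ζ
    rw [hζ] at this ⊢
    linarith
  have h3 : ‖⟪(1 - q) ζ, y ζ⟫_ℂ‖ ≤ δ * 2 := by
    refine (norm_inner_le_norm _ _).trans ?_
    have := y.le_opNorm ζ
    rw [hζ] at this
    gcongr
    · exact (norm_nonneg _).trans hδ.le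
    · linarith
  have h4 : ‖⟪q ζ, y ((1 - q) ζ)⟫_ℂ‖ ≤ 1 * (2 * δ) := by
    refine (norm_inner_le_norm _ _).trans ?_
    gcongr
    · exact hζ ▸ norm_proj_apply_le hq ζ
    · exact (y.le_opNorm _).trans (by gcongr)
  refine (Complex.abs_re_le_norm _).trans ?_
  rw [h1]
  linarith [norm_add₃_le (a := ⟪ζ, (q * y * q) ζ⟫_ℂ) (b := ⟪(1 - q) ζ, y ζ⟫_ℂ)
    (c := ⟪q ζ, y ((1 - q) ζ)⟫_ℂ)]

lemma re_inner_pinch_symm {ι : Type} [Fintype ι] {p : ι → H →L[ℂ] H} (hp : IsPartition A p)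
    {e : H →L[ℂ] H} (he : IsStarProjection e) (ζ : H) :
    (⟪ζ, pinch p (e - (1 - e)) ζ⟫_ℂ).re = 2 * ∑ c, ‖e (p c ζ)‖ ^ 2 - ‖ζ‖ ^ 2 := by
  have h1 : (⟪ζ, pinch p e ζ⟫_ℂ).re = ∑ c, ‖e (p c ζ)‖ ^ 2 := by
    rw [pinch_apply, inner_sum, Complex.re_sum]
    refine Finset.sum_congr rfl fun c _ => ?_
    rw [← inner_sa (hp.sa c), ← re_inner_star_mul_self, he.isSelfAdjoint.star_eq,
      he.isIdempotentElem.eq]
  rw [pinch_sub, pinch_sub, hp.pinch_one]
  simp only [sub_apply, one_apply_eq_self, inner_sub_right, Complex.sub_re, h1, re_inner_self]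
  ring

/-- Lower bound when no corner is expected. -/
lemma one_le_of_soPavable [Nontrivial H] (hA : IsMASA M A)
    (hno : ∀ p ∈ A, IsStarProjection p → p ≠ 0 → ¬ ∃ E, IsNormalCondExp M A p E)
    {ε : ℝ} (hε : 0 < ε) {r : ℕ} (hr : 1 ≤ r)
    (h : ∀ x ∈ M, IsSelfAdjoint x → SoPavable M A x ε r) : 1 ≤ ε * r := by
  classical
  have hz : ∀ p, GoodProj hA p → (0 : H →L[ℂ] H) * p = p := by
    intro p hp
    by_contra h
    refine hno p hp.1 hp.2.1 (fun h0 => h (by rw [h0, mul_zero])) ⟨_, hp.isNormalCondExp hA⟩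
  obtain ⟨ξ, hξ⟩ := exists_norm_eq H zero_le_one
  have hr' : (1 : ℝ) ≤ r := by exact_mod_cast hr
  have key : ∀ η : ℝ, 0 < η → η ≤ 1 / 2 → 1 ≤ ε * r + 16 * r * η := by
    intro η hη hη2
    obtain ⟨f, hfM, hfs, hf1, Q, hQ⟩ := singular_uniform hA hz ξ hη
    obtain ⟨k, hkM, hk, hkc, hk1, hk2⟩ := exists_cut_proj M hfM (t := 1 / 2) (by norm_num)
    set e := 1 - k with he
    have hep : IsStarProjection e := hk.one_sub
    have hfk : Commute f k := hkc f (by rw [hfs.star_eq]; exact (Commute.refl f).mul_right (Commute.refl f))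
    have hkξ : ‖k ξ‖ ≤ 2 * η := by
      have h1 : k ξ = k (ξ - f ξ) + (f * k) (k ξ) := by
        rw [mul_apply_eq_comp, proj_apply_apply hk, ← mul_apply_eq_comp f k, hfk.eq,
          mul_apply_eq_comp, ← map_add, sub_add_cancel]
      have h2 := norm_proj_apply_le hk (ξ - f ξ)
      have h3 : ‖(f * k) (k ξ)‖ ≤ 1 / 2 * ‖k ξ‖ := ((f * k).le_opNorm _).trans (by gcongr)
      have h4 := norm_add_le (k (ξ - f ξ)) ((f * k) (k ξ))
      rw [← h1] at h4
      linarith
    have heξ : 1 - 2 * η ≤ ‖e ξ‖ := by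
      have := norm_sub_norm_le ξ (k ξ)
      have h2 : e ξ = ξ - k ξ := rfl
      rw [h2]; linarith
    have hxn : ‖e - (1 - e)‖ ≤ 1 := by
      rw [sub_eq_add_neg]
      refine norm_block_le hep zero_le_one ?_ ?_ hep.norm_le (by rw [norm_neg]; exact hep.one_sub.norm_le)
      · rw [hep.isIdempotentElem.eq, hep.isIdempotentElem.eq]
      · rw [mul_neg, neg_mul, hep.one_sub.isIdempotentElem.eq, hep.one_sub.isIdempotentElem.eq]
    set q := Q.q with hq'
    have hq : IsPartition A q := Q.hq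
    let sg : Bool → ℝ := fun b => if b then 1 else -1
    have hsg : ∀ b, sg b * sg b = 1 := by rintro (_ | _) <;> simp [sg]
    let u : (Q.ι → Bool) → H →L[ℂ] H := fun s => ∑ i, sg (s i) • q i
    have huA : ∀ s, u s ∈ A := fun s => sum_mem fun i _ => rsmul_mem_sub _ (hq.mem i)
    have husa : ∀ s, IsSelfAdjoint (u s) := by
      intro s
      rw [IsSelfAdjoint, star_sum]
      exact Finset.sum_congr rfl fun i _ => (sa_rsmul _ (hq.sa i)).star_eq
    have huu : ∀ s, u s * u s = 1 := by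
      intro s
      rw [← hq.2.2, Finset.sum_mul]
      refine Finset.sum_congr rfl fun i _ => ?_
      rw [Finset.mul_sum, Finset.sum_eq_single i]
      · rw [smul_mul_smul_comm, hsg, one_smul, hq.mul_self]
      · intro j _ hj
        rw [smul_mul_smul_comm, hq.2.1 i j hj.symm, smul_zero]
      · simp
    have hun : ∀ s, ‖u s ξ‖ = 1 := by
      intro s
      have h1 := re_inner_star_mul_self (u s) ξ
      rw [(husa s).star_eq, huu, one_apply_eq_self, re_inner_self, hξ] at h1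
      exact (sq_eq_sq₀ (norm_nonneg _) zero_le_one).mp h1.symm
    obtain ⟨p, hp, a, haA, has, han, q', hq'M, hq'p, hq'F, hq'n⟩ := h (e - (1 - e))
      (sub_mem (sub_mem (one_mem _) hkM) (sub_mem (one_mem _) (sub_mem (one_mem _) hkM)))
      (hep.isSelfAdjoint.sub hep.one_sub.isSelfAdjoint)
      (insert ξ (Finset.univ.image fun s => u s ξ)) η hη
    have hyn : ‖pinch p (e - (1 - e)) - a‖ ≤ 2 :=
      (norm_sub_le _ _).trans (by linarith [hp.norm_pinch_le (e - (1 - e))])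
    have hcn : ‖q' * (pinch p (e - (1 - e)) - a) * q'‖ ≤ ε := hq'n.trans (by nlinarith)
    -- a good sign pattern
    let V : Fam Q := ⟨Fin r × Q.ι, fun s => q s.2 (p s.1 ξ),
      fun s => ⟨s.2, proj_apply_apply (hq.proj _) _⟩, by
        rw [Fintype.sum_prod_type]
        simp only [hq.sum_norm_sq, hp.sum_norm_sq, hξ, one_pow, le_refl]⟩
    have hV : ∑ c, ∑ i, ‖e (q i (p c ξ))‖ ^ 2 < 4 * η := by
      have h1 := hQ V
      have h2 : V.val f = ∑ c, ∑ i, ‖f (q i (p c ξ))‖ ^ 2 := Fintype.sum_prod_type _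
      rw [h2] at h1
      refine lt_of_le_of_lt ?_ (mul_lt_mul_of_pos_left h1 (by norm_num : (0 : ℝ) < 4))
      simp only [Finset.mul_sum]
      refine Finset.sum_le_sum fun c _ => Finset.sum_le_sum fun i _ => ?_
      have := hk2 (q i (p c ξ))
      nlinarith [norm_nonneg (e (q i (p c ξ))), norm_nonneg (f (q i (p c ξ)))]
    have hw1 : ∑ _b : Bool, (1 / 2 : ℝ) = 1 := by simp
    have hvar : ∑ s : Q.ι → Bool, prodW (fun _ => (1 / 2 : ℝ)) s * ∑ c, ‖e (p c (u s ξ))‖ ^ 2 <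
        ∑ s : Q.ι → Bool, prodW (fun _ => (1 / 2 : ℝ)) s * (8 * η) := by
      rw [← Finset.sum_mul, sum_prodW hw1, one_mul]
      have h1 : ∀ c, ∑ s : Q.ι → Bool, prodW (fun _ => (1 / 2 : ℝ)) s * ‖e (p c (u s ξ))‖ ^ 2 ≤
          2 * ∑ i, ‖e (q i (p c ξ))‖ ^ 2 := by
        intro c
        have h2 := variance_le (w := fun _ : Bool => (1 / 2 : ℝ)) (fun _ => by norm_num) hw1
          (fun (i j : Q.ι) (a _ : Bool) => if i = j then sg a • e (q i (p c ξ)) else 0)
          (fun i j h b => by simp [h]) (fun i j h b => by simp [h])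
          (fun i => by simp [sg])
        have h3 : ∀ s : Q.ι → Bool, ∑ t : Q.ι × Q.ι,
            (if t.1 = t.2 then sg (s t.1) • e (q t.1 (p c ξ)) else 0) = e (p c (u s ξ)) := by
          intro s
          rw [Fintype.sum_prod_type]
          simp only [Finset.sum_ite_eq, Finset.mem_univ, if_true, u, sum_apply, map_sum,
            smul_apply, ContinuousLinearMap.map_smul_of_tower]
          refine Finset.sum_congr rfl fun i _ => ?_
          rw [← mul_apply_eq_comp (q i), hA.2.1 _ (hq.mem i) _ (hp.mem c), mul_apply_eq_comp]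
        have h4 : ∀ s : Q.ι → Bool, ∑ t : Q.ι × Q.ι,
            ‖(if t.1 = t.2 then sg (s t.1) • e (q t.1 (p c ξ)) else 0)‖ ^ 2 =
              ∑ i, ‖e (q i (p c ξ))‖ ^ 2 := by
          intro s
          rw [Fintype.sum_prod_type]
          refine Finset.sum_congr rfl fun i _ => ?_
          rw [Finset.sum_eq_single i]
          · rw [if_pos rfl, norm_smul, mul_pow, Real.norm_eq_abs, sq_abs, sq, hsg, one_mul]
          · intro j _ hj
            rw [if_neg hj.symm]; simp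
          · simp
        simp only [h3, h4] at h2
        rwa [← Finset.sum_mul, sum_prodW hw1, one_mul] at h2
      simp only [Finset.mul_sum]
      rw [Finset.sum_comm]
      have h5 := Finset.sum_le_sum fun c (_ : c ∈ Finset.univ) => h1 c
      rw [← Finset.mul_sum] at h5
      linarith
    obtain ⟨s, _, hs⟩ := Finset.exists_lt_of_sum_lt hvar
    have hs' : ∑ c, ‖e (p c (u s ξ))‖ ^ 2 < 8 * η :=
      lt_of_mul_lt_mul_left hs (prodW_nonneg (fun _ => by norm_num) s)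
    have b1 := abs_re_inner_le_of_cut hq'p hyn hcn hξ (hq'F ξ (Finset.mem_insert_self _ _))
    have b2 := abs_re_inner_le_of_cut hq'p hyn hcn (hun s) (hq'F _ (Finset.mem_insert_of_mem
      (Finset.mem_image_of_mem _ (Finset.mem_univ s))))
    have haa : ⟪u s ξ, a (u s ξ)⟫_ℂ = ⟪ξ, a ξ⟫_ℂ := by
      rw [inner_sa (husa s), ← mul_apply_eq_comp a, ← mul_apply_eq_comp, ← mul_assoc,
        hA.2.1 _ (huA s) _ haA, mul_assoc, huu, mul_one]
    rw [sub_apply, inner_sub_right, Complex.sub_re, re_inner_pinch_symm hp hep] at b1 b2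
    rw [haa, hun] at b2
    rw [hξ] at b1
    have hcs : ‖e ξ‖ ^ 2 ≤ r * ∑ c, ‖e (p c ξ)‖ ^ 2 := by
      have h1 : ‖e ξ‖ ≤ ∑ c, ‖e (p c ξ)‖ := by
        conv_lhs => rw [← hp.sum_apply ξ, map_sum]
        exact norm_sum_le _ _
      have h2 := sq_sum_le_card_mul_sum_sq (s := Finset.univ) (f := fun c => ‖e (p c ξ)‖)
      simp only [Finset.card_univ, Fintype.card_fin] at h2
      exact le_trans (by gcongr) h2
    have h6 : (1 - 2 * η) ^ 2 ≤ ‖e ξ‖ ^ 2 := by gcongr; linarith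
    have h7 : ∑ c, ‖e (p c ξ)‖ ^ 2 ≤ ε + 12 * η := by
      linarith [(abs_le.mp b1).2, (abs_le.mp b2).1]
    have h8 : r * ∑ c, ‖e (p c ξ)‖ ^ 2 ≤ r * (ε + 12 * η) := by gcongr
    nlinarith [sq_nonneg η]
  refine le_of_forall_pos_le_add fun t ht => ?_
  have := key (min (1 / 2) (t / (16 * r))) (by positivity) (min_le_left _ _)
  have h2 : 16 * r * min (1 / 2) (t / (16 * r)) ≤ t := by
    calc _ ≤ 16 * r * (t / (16 * r)) := by gcongr; exact min_le_right _ _
      _ = t := by field_simp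
  linarith

end Vale.Agent.P078
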