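import Vale.Agent.P078.Spectral

open scoped InnerProductSpace
open Filter Topology

set_option linter.unusedSectionVars false

namespace Vale.Agent.P078

variable {H : Type*} [NormedAddCommGroup H] [InnerProductSpace ℂ H] [CompleteSpace H]
variable {M : VonNeumannAlgebra H} {A : StarSubalgebra ℂ (H →L[ℂ] H)}
variable {ι : Type} [Fintype ι] {p : ι → H →L[ℂ] H}

lemma IsPartition.mem (hp : IsPartition A p) (i : ι) : p i ∈ A := (hp.1 i).1
lemma IsPartition.proj (hp : IsPartition A p) (i : ι) : IsStarProjection (p i) := (hp.1 i).2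
lemma IsPartition.sa (hp : IsPartition A p) (i : ι) : IsSelfAdjoint (p i) :=
  (hp.proj i).isSelfAdjoint
lemma IsPartition.mul_self (hp : IsPartition A p) (i : ι) : p i * p i = p i :=
  (hp.proj i).isIdempotentElem.eq

lemma IsPartition.inner_eq_zero (hp : IsPartition A p) {i j : ι} (hij : i ≠ j) (v w : H) :
    ⟪p i v, p j w⟫_ℂ = 0 := by
  rw [inner_sa (hp.sa i), ← mul_apply_eq_comp, hp.2.1 i j hij, zero_apply, inner_zero_right]

lemma IsPartition.norm_sq_sum (hp : IsPartition A p) (w : ι → H) :
    ‖∑ i, p i (w i)‖ ^ 2 = ∑ i, ‖p i (w i)‖ ^ 2 := by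
  classical
  rw [← re_inner_self, sum_inner, Complex.re_sum]
  refine Finset.sum_congr rfl fun i _ => ?_
  rw [inner_sum, Finset.sum_eq_single i, re_inner_self]
  · intro j _ hj
    exact hp.inner_eq_zero hj.symm _ _
  · simp

lemma IsPartition.sum_apply (hp : IsPartition A p) (v : H) : ∑ i, p i v = v := by
  have := congrArg (fun T : H →L[ℂ] H => T v) hp.2.2
  simpa using this

lemma IsPartition.sum_norm_sq (hp : IsPartition A p) (v : H) : ∑ i, ‖p i v‖ ^ 2 = ‖v‖ ^ 2 := by
  rw [← hp.norm_sq_sum fun _ => v, hp.sum_apply]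

lemma pinch_apply (x : H →L[ℂ] H) (v : H) : pinch p x v = ∑ i, p i (x (p i v)) := by
  simp [pinch]

lemma IsPartition.norm_sq_pinch_apply_le (hp : IsPartition A p) (x : H →L[ℂ] H) (v : H) :
    ‖pinch p x v‖ ^ 2 ≤ ∑ i, ‖x (p i v)‖ ^ 2 := by
  rw [pinch_apply, hp.norm_sq_sum]
  refine Finset.sum_le_sum fun i _ => ?_
  gcongr
  exact norm_proj_apply_le (hp.proj i) _

lemma IsPartition.norm_pinch_le (hp : IsPartition A p) (x : H →L[ℂ] H) : ‖pinch p x‖ ≤ ‖x‖ := by
  refine ContinuousLinearMap.opNorm_le_bound _ (norm_nonneg _) fun v => ?_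
  apply abs_le_of_sq_le_sq' _ (by positivity) |>.2
  calc ‖pinch p x v‖ ^ 2 ≤ ∑ i, ‖x (p i v)‖ ^ 2 := hp.norm_sq_pinch_apply_le x v
    _ ≤ ∑ i, ‖x‖ ^ 2 * ‖p i v‖ ^ 2 := by
        refine Finset.sum_le_sum fun i _ => ?_
        rw [← mul_pow]
        gcongr
        exact x.le_opNorm _
    _ = (‖x‖ * ‖v‖) ^ 2 := by rw [← Finset.mul_sum, hp.sum_norm_sq, mul_pow]

lemma pinch_add (x y : H →L[ℂ] H) : pinch p (x + y) = pinch p x + pinch p y := by
  simp [pinch, mul_add, add_mul, Finset.sum_add_distrib]

lemma pinch_sub (x y : H →L[ℂ] H) : pinch p (x - y) = pinch p x - pinch p y := by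
  simp [pinch, mul_sub, sub_mul, Finset.sum_sub_distrib]

lemma pinch_smul (c : ℂ) (x : H →L[ℂ] H) : pinch p (c • x) = c • pinch p x := by
  simp [pinch, Finset.smul_sum]

lemma pinch_rsmul (c : ℝ) (x : H →L[ℂ] H) : pinch p (c • x) = c • pinch p x := by
  rw [← Complex.coe_smul, pinch_smul, Complex.coe_smul]

lemma IsPartition.star_pinch (hp : IsPartition A p) (x : H →L[ℂ] H) :
    star (pinch p x) = pinch p (star x) := by
  simp only [pinch, star_sum, star_mul, (hp.sa _).star_eq, mul_assoc]

lemma IsPartition.pinch_sa (hp : IsPartition A p) {x : H →L[ℂ] H} (hx : IsSelfAdjoint x) :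
    IsSelfAdjoint (pinch p x) := by
  rw [IsSelfAdjoint, hp.star_pinch, hx.star_eq]

lemma IsPartition.pinch_mem (hA : IsMASA M A) (hp : IsPartition A p) {x : H →L[ℂ] H}
    (hx : x ∈ M) : pinch p x ∈ M :=
  sum_mem fun i _ => mul_mem (mul_mem (hA.1 _ (hp.mem i)) hx) (hA.1 _ (hp.mem i))

lemma IsPartition.pinch_bimod (hA : IsMASA M A) (hp : IsPartition A p) {a b : H →L[ℂ] H}
    (ha : a ∈ A) (hb : b ∈ A) (y : H →L[ℂ] H) : pinch p (a * y * b) = a * pinch p y * b := by
  simp only [pinch, Finset.mul_sum, Finset.sum_mul]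
  refine Finset.sum_congr rfl fun i _ => ?_
  have h1 := hA.2.1 a ha _ (hp.mem i)
  have h2 := hA.2.1 b hb _ (hp.mem i)
  calc p i * (a * y * b) * p i = (p i * a) * y * (b * p i) := by simp only [mul_assoc]
    _ = (a * p i) * y * (p i * b) := by rw [← h1, h2]
    _ = _ := by simp only [mul_assoc]

lemma IsPartition.pinch_one (hp : IsPartition A p) : pinch p 1 = 1 := by
  simp only [pinch, mul_one, hp.mul_self, hp.2.2]

lemma IsPartition.pinch_of_mem (hA : IsMASA M A) (hp : IsPartition A p) {a : H →L[ℂ] H}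
    (ha : a ∈ A) : pinch p a = a := by
  have := hp.pinch_bimod hA ha (one_mem A) 1
  simpa [hp.pinch_one] using this

lemma IsPartition.pinch_pos (hp : IsPartition A p) {y : H →L[ℂ] H} (hy : y.IsPositive) :
    (pinch p y).IsPositive := by
  refine ContinuousLinearMap.isPositive_sum _ fun i _ => ?_
  have := hy.conj_adjoint (p i)
  rwa [← ContinuousLinearMap.star_eq_adjoint, (hp.sa i).star_eq] at this

/-- The partition `q` is adapted to the projection `e`. -/
def Adapted (q : ι → H →L[ℂ] H) (e : H →L[ℂ] H) : Prop := ∀ i, e * q i = q i ∨ e * q i = 0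

lemma Adapted.right (hp : IsPartition A p) {e : H →L[ℂ] H} (he : IsSelfAdjoint e)
    (h : Adapted p e) (i : ι) : p i * e = e * p i := by
  have h1 : p i * e = star (e * p i) := by rw [star_mul, he.star_eq, (hp.sa i).star_eq]
  rcases h i with h | h
  · rw [h1, h, (hp.sa i).star_eq]
  · rw [h1, h, star_zero]

lemma Adapted.block (hp : IsPartition A p) {e : H →L[ℂ] H} (he : IsSelfAdjoint e)
    (h : Adapted p e) (i : ι) (y : H →L[ℂ] H) : p i * (e * y) * p i = p i * (y * e) * p i := by
  have h1 := h.right hp he i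
  calc p i * (e * y) * p i = (p i * e) * y * p i := by simp only [mul_assoc]
    _ = p i * y * (e * p i) := by
        rw [h1]
        rcases h i with h | h <;> simp [h]
    _ = _ := by simp only [mul_assoc]

lemma Adapted.commute_pinch (hp : IsPartition A p) {e : H →L[ℂ] H} (he : IsSelfAdjoint e)
    (h : Adapted p e) (y : H →L[ℂ] H) : Commute e (pinch p y) := by
  rw [Commute, SemiconjBy]
  simp only [pinch, Finset.mul_sum, Finset.sum_mul]
  refine Finset.sum_congr rfl fun i _ => ?_
  have h1 := h.right hp he i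
  calc e * (p i * y * p i) = (e * p i) * y * p i := by simp only [mul_assoc]
    _ = p i * y * (p i * e) := by
        rw [h1]
        rcases h i with h | h <;> simp [h]
    _ = _ := by simp only [mul_assoc]

lemma pinch_pinch_of_adapted {κ : Type} [Fintype κ] {q : κ → H →L[ℂ] H} (hp : IsPartition A p)
    (hq : IsPartition A q) (h : ∀ j, Adapted q (p j)) (y : H →L[ℂ] H) :
    pinch q (pinch p y) = pinch q y := by
  simp only [pinch]
  refine Finset.sum_congr rfl fun i _ => ?_
  calc q i * (∑ j, p j * y * p j) * q i = ∑ j, q i * (p j * (y * p j)) * q i := by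
        simp only [Finset.mul_sum, Finset.sum_mul, mul_assoc]
    _ = ∑ j, q i * (y * p j) * q i := by
        refine Finset.sum_congr rfl fun j _ => ?_
        rw [(h j).block hq (hp.sa j), mul_assoc y, hp.mul_self]
    _ = q i * y * q i := by
        rw [← Finset.sum_mul, ← Finset.mul_sum, ← Finset.mul_sum, hp.2.2, mul_one]

/-- A bundled finite partition of unity by projections of `A`. -/
structure Part (A : StarSubalgebra ℂ (H →L[ℂ] H)) where
  ι : Type
  [fin : Fintype ι]
  q : ι → H →L[ℂ] H
  hq : IsPartition A q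

attribute [instance] Part.fin

/-- The projections of `A`. -/
def ProjIn (A : StarSubalgebra ℂ (H →L[ℂ] H)) : Type _ :=
  {e : H →L[ℂ] H // e ∈ A ∧ IsStarProjection e}

lemma exists_adapted (hA : IsMASA M A) (T : Finset (ProjIn A)) :
    ∃ P : Part A, ∀ e ∈ T, Adapted P.q e.1 := by
  classical
  induction T using Finset.induction_on with
  | empty =>
    refine ⟨⟨Unit, fun _ => 1, ⟨fun _ => ⟨one_mem _, IsStarProjection.one _⟩, ?_, by simp⟩⟩, by simp⟩
    intro i j hij
    exact absurd (Subsingleton.elim i j) hij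
  | insert e T _ ih =>
    obtain ⟨P, hP⟩ := ih
    obtain ⟨e, heA, he⟩ := e
    set f : Bool → H →L[ℂ] H := fun b => if b then e else 1 - e with hf
    have hfA : ∀ b, f b ∈ A := by
      rintro (_ | _)
      · exact sub_mem (one_mem _) heA
      · exact heA
    have hfp : ∀ b, IsStarProjection (f b) := by
      rintro (_ | _)
      · exact he.one_sub
      · exact he
    have hc : ∀ i b, Commute (P.q i) (f b) := fun i b => hA.2.1 _ (P.hq.mem i) _ (hfA b)
    refine ⟨⟨P.ι × Bool, fun k => P.q k.1 * f k.2, ⟨fun k => ⟨mul_mem (P.hq.mem _) (hfA _),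
      (P.hq.proj _).mul (hfp _) (hc _ _)⟩, ?_, ?_⟩⟩, ?_⟩
    · rintro ⟨i, b⟩ ⟨j, c⟩ hij
      by_cases h : i = j
      · subst h
        have hbc : b ≠ c := fun h => hij (by rw [h])
        have h0 : f b * f c = 0 := by
          revert hbc
          rcases b with _ | _ <;> rcases c with _ | _ <;>
            simp [hf, he.mul_one_sub_self, he.one_sub_mul_self]
        calc P.q i * f b * (P.q i * f c) = P.q i * (f b * P.q i) * f c := by simp only [mul_assoc]
          _ = P.q i * (P.q i * f b) * f c := by rw [(hc i b).eq]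
          _ = P.q i * P.q i * (f b * f c) := by simp only [mul_assoc]
          _ = 0 := by rw [h0, mul_zero]
      · calc P.q i * f b * (P.q j * f c) = P.q i * (f b * P.q j) * f c := by simp only [mul_assoc]
          _ = P.q i * (P.q j * f b) * f c := by rw [(hc j b).eq]
          _ = (P.q i * P.q j) * (f b * f c) := by simp only [mul_assoc]
          _ = 0 := by rw [P.hq.2.1 i j h, zero_mul]
    · rw [Fintype.sum_prod_type]
      simp only [← Finset.mul_sum, Fintype.sum_bool, hf]
      simpa using P.hq.2.2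
    · intro e' he'
      rcases Finset.mem_insert.mp he' with rfl | he'
      · rintro ⟨i, b⟩
        have h1 : e * (P.q i * f b) = P.q i * (e * f b) := by
          rw [← mul_assoc, ← mul_assoc, hA.2.1 _ heA _ (P.hq.mem i)]
        simp only [h1]
        rcases b with _ | _
        · right; simp [hf, he.mul_one_sub_self]
        · left; simp [hf, he.isIdempotentElem.eq]
      · rintro ⟨i, b⟩
        simp only [← mul_assoc]
        rcases hP e' he' i with h | h
        · left; rw [h]
        · right; rw [h, zero_mul]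

/-- A net of finer and finer partitions. -/
noncomputable def netPart (hA : IsMASA M A) (T : Finset (ProjIn A)) : Part A :=
  (exists_adapted hA T).choose

/-- An ultrafilter on the finite sets of projections of `A` finer than inclusion order. -/
noncomputable def netU (A : StarSubalgebra ℂ (H →L[ℂ] H)) : Ultrafilter (Finset (ProjIn A)) :=
  Ultrafilter.of atTop

lemma eventually_adapted (hA : IsMASA M A) {e : H →L[ℂ] H} (heA : e ∈ A)
    (he : IsStarProjection e) : ∀ᶠ T in (netU A : Filter _), Adapted (netPart hA T).q e := by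
  classical
  have : ∀ᶠ T : Finset (ProjIn A) in atTop, Adapted (netPart hA T).q e := by
    filter_upwards [eventually_ge_atTop ({⟨e, heA, he⟩} : Finset (ProjIn A))] with T hT
    exact (exists_adapted hA T).choose_spec ⟨e, heA, he⟩ (hT (Finset.mem_singleton_self _))
  exact (Ultrafilter.of_le _) this

lemma eventually_refines (hA : IsMASA M A) (hp : IsPartition A p) :
    ∀ᶠ T in (netU A : Filter _), ∀ j, Adapted (netPart hA T).q (p j) :=
  Filter.eventually_all.mpr fun j => eventually_adapted hA (hp.mem j) (hp.proj j)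

end Vale.Agent.P078
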