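import Mathlib

open scoped InnerProductSpace

namespace Vale.Agent.P078

variable {I D : Type} [Fintype I] [DecidableEq I] [Fintype D]

/-- Product weight. -/
noncomputable def prodW (w : D → ℝ) (ω : I → D) : ℝ := ∏ i, w (ω i)

lemma prodW_nonneg {w : D → ℝ} (hw0 : ∀ a, 0 ≤ w a) (ω : I → D) : 0 ≤ prodW w ω :=
  Finset.prod_nonneg fun _ _ => hw0 _

lemma sum_prodW {w : D → ℝ} (hw1 : ∑ a, w a = 1) : ∑ ω : I → D, prodW w ω = 1 := by
  classical
  have := Finset.prod_univ_sum (fun _ : I => (Finset.univ : Finset D)) (fun _ a => w a)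
  rw [Fintype.piFinset_univ] at this
  simp only [prodW, ← this, hw1, Finset.prod_const_one]

lemma prodW_update (w : D → ℝ) (ω : I → D) (k : I) (a : D) :
    prodW w ω * w a = prodW w (Function.update ω k a) * w (ω k) := by
  simp only [prodW]
  rw [← Finset.mul_prod_erase Finset.univ _ (Finset.mem_univ k),
    ← Finset.mul_prod_erase Finset.univ (fun i => w (Function.update ω k a i)) (Finset.mem_univ k),
    Function.update_self]
  have : ∏ i ∈ Finset.univ.erase k, w (Function.update ω k a i) =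
      ∏ i ∈ Finset.univ.erase k, w (ω i) :=
    Finset.prod_congr rfl fun i hi => by rw [Function.update_of_ne (Finset.ne_of_mem_erase hi)]
  rw [this]
  ring

lemma resample {V : Type*} [AddCommGroup V] [Module ℝ V] {w : D → ℝ} (hw1 : ∑ a, w a = 1)
    (G : (I → D) → V) (k : I) :
    ∑ ω, prodW w ω • G ω = ∑ ω, prodW w ω • ∑ a, w a • G (Function.update ω k a) := by
  let e : (I → D) × D ≃ (I → D) × D :=
    Function.Involutive.toPerm (fun s => (Function.update s.1 k s.2, s.1 k)) (by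
      rintro ⟨ω, a⟩
      simp)
  have h1 : ∑ ω, prodW w ω • G ω = ∑ s : (I → D) × D, (prodW w s.1 * w s.2) • G s.1 := by
    rw [Fintype.sum_prod_type]
    refine Finset.sum_congr rfl fun ω _ => ?_
    simp only
    rw [← Finset.sum_smul, ← Finset.mul_sum, hw1, mul_one]
  rw [h1, ← e.sum_comp, Fintype.sum_prod_type]
  refine Finset.sum_congr rfl fun ω _ => ?_
  rw [Finset.smul_sum]
  refine Finset.sum_congr rfl fun a _ => ?_
  rw [smul_smul, prodW_update w ω k a]
  rfl

lemma sum_prodW_eq_zero {V : Type*} [AddCommGroup V] [Module ℝ V] {w : D → ℝ}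
    (hw1 : ∑ a, w a = 1) (G : (I → D) → V) (k : I)
    (h : ∀ ω, ∑ a, w a • G (Function.update ω k a) = 0) : ∑ ω, prodW w ω • G ω = 0 := by
  rw [resample hw1 G k]
  simp [h]

lemma centered_update {V : Type*} [AddCommGroup V] [Module ℝ V] {w : D → ℝ}
    (F : I → I → D → D → V)
    (h1 : ∀ i j, i ≠ j → ∀ b, ∑ a, w a • F i j a b = 0)
    (h2 : ∀ i j, i ≠ j → ∀ a, ∑ b, w b • F i j a b = 0)
    (h3 : ∀ i, ∑ a, w a • F i i a a = 0) (i j m : I) (hm : m = i ∨ m = j) (ω : I → D) :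
    ∑ a, w a • F i j (Function.update ω m a i) (Function.update ω m a j) = 0 := by
  by_cases hij : i = j
  · subst hij
    have : m = i := by tauto
    subst this
    simpa using h3 m
  · rcases hm with rfl | rfl
    · simpa [Function.update_of_ne (Ne.symm hij)] using h1 m j hij (ω j)
    · simpa [Function.update_of_ne hij] using h2 i m hij (ω i)

lemma variance_le {V : Type*} [NormedAddCommGroup V] [InnerProductSpace ℂ V] {w : D → ℝ}
    (hw0 : ∀ a, 0 ≤ w a) (hw1 : ∑ a, w a = 1) (F : I → I → D → D → V)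
    (h1 : ∀ i j, i ≠ j → ∀ b, ∑ a, w a • F i j a b = 0)
    (h2 : ∀ i j, i ≠ j → ∀ a, ∑ b, w b • F i j a b = 0)
    (h3 : ∀ i, ∑ a, w a • F i i a a = 0) :
    ∑ ω : I → D, prodW w ω * ‖∑ s : I × I, F s.1 s.2 (ω s.1) (ω s.2)‖ ^ 2 ≤
      2 * ∑ ω : I → D, prodW w ω * ∑ s : I × I, ‖F s.1 s.2 (ω s.1) (ω s.2)‖ ^ 2 := by
  set X : I × I → (I → D) → V := fun s ω => F s.1 s.2 (ω s.1) (ω s.2) with hX
  set c : I × I → I × I → ℝ := fun s t => ∑ ω, prodW w ω * (⟪X s ω, X t ω⟫_ℂ).re with hc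
  set n : I × I → ℝ := fun s => ∑ ω, prodW w ω * ‖X s ω‖ ^ 2 with hn
  have hn0 : ∀ s, 0 ≤ n s := fun s =>
    Finset.sum_nonneg fun ω _ => mul_nonneg (prodW_nonneg hw0 ω) (by positivity)
  have hL : ∑ ω : I → D, prodW w ω * ‖∑ s : I × I, X s ω‖ ^ 2 = ∑ s, ∑ t, c s t := by
    have : ∀ ω, ‖∑ s : I × I, X s ω‖ ^ 2 = ∑ s, ∑ t, (⟪X s ω, X t ω⟫_ℂ).re := by
      intro ω
      have h : ‖∑ s : I × I, X s ω‖ ^ 2 = (⟪∑ s : I × I, X s ω, ∑ s : I × I, X s ω⟫_ℂ).re := by
        rw [inner_self_eq_norm_sq_to_K]; norm_cast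
      rw [h, sum_inner, Complex.re_sum]
      exact Finset.sum_congr rfl fun s _ => by rw [inner_sum, Complex.re_sum]
    simp only [this, Finset.mul_sum, hc]
    rw [Finset.sum_comm]
    exact Finset.sum_congr rfl fun s _ => Finset.sum_comm
  have hR : ∑ ω : I → D, prodW w ω * ∑ s : I × I, ‖X s ω‖ ^ 2 = ∑ s, n s := by
    simp only [Finset.mul_sum, hn]
    exact Finset.sum_comm
  have hzero1 : ∀ (s t : I × I) (m : I), (m = s.1 ∨ m = s.2) → m ≠ t.1 → m ≠ t.2 → c s t = 0 := by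
    intro s t m hm hm1 hm2
    refine sum_prodW_eq_zero hw1 (fun ω => (⟪X s ω, X t ω⟫_ℂ).re) m fun ω => ?_
    have h4 := centered_update F h1 h2 h3 s.1 s.2 m hm ω
    have h5 : ∀ a, X t (Function.update ω m a) = X t ω := fun a => by
      simp only [hX, Function.update_of_ne hm1.symm, Function.update_of_ne hm2.symm]
    simp only [h5]
    have h6 := congrArg (fun v => (⟪v, X t ω⟫_ℂ).re) h4
    simp only [sum_inner, Complex.re_sum, inner_zero_left, Complex.zero_re] at h6
    rw [← h6]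
    refine Finset.sum_congr rfl fun a _ => ?_
    rw [← Complex.coe_smul, inner_smul_left, Complex.conj_ofReal, Complex.re_ofReal_mul]
    rfl
  have hsymm : ∀ s t, c s t = c t s := by
    intro s t
    refine Finset.sum_congr rfl fun ω _ => ?_
    rw [← inner_conj_symm, Complex.conj_re]
  have hzero : ∀ s t : I × I, t ≠ s → t ≠ s.swap → c s t = 0 := by
    rintro ⟨i, j⟩ ⟨k, l⟩ h4 h5
    simp only [ne_eq, Prod.mk.injEq, Prod.swap_prod_mk] at h4 h5
    by_cases hi : i ≠ k ∧ i ≠ l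
    · exact hzero1 _ _ i (Or.inl rfl) hi.1 hi.2
    by_cases hj : j ≠ k ∧ j ≠ l
    · exact hzero1 _ _ j (Or.inr rfl) hj.1 hj.2
    rw [hsymm]
    by_cases hk : k ≠ i ∧ k ≠ j
    · exact hzero1 _ _ k (Or.inl rfl) hk.1 hk.2
    by_cases hl : l ≠ i ∧ l ≠ j
    · exact hzero1 _ _ l (Or.inr rfl) hl.1 hl.2
    exfalso
    grind
  have hle : ∀ s t, c s t ≤ (n s + n t) / 2 := by
    intro s t
    simp only [hc, hn]
    rw [← Finset.sum_add_distrib, Finset.sum_div]
    refine Finset.sum_le_sum fun ω _ => ?_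
    have h4 : (⟪X s ω, X t ω⟫_ℂ).re ≤ ‖X s ω‖ * ‖X t ω‖ :=
      (Complex.re_le_norm _).trans (norm_inner_le_norm _ _)
    have h5 := prodW_nonneg hw0 ω
    nlinarith [mul_nonneg h5 (sq_nonneg (‖X s ω‖ - ‖X t ω‖))]
  have hrow : ∀ s, ∑ t, c s t ≤ n s + (n s + n s.swap) / 2 := by
    intro s
    rw [← Finset.sum_subset (Finset.subset_univ ({s, s.swap} : Finset (I × I))) (by
      intro t _ ht
      simp only [Finset.mem_insert, Finset.mem_singleton, not_or] at ht
      exact hzero s t ht.1 ht.2)]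
    by_cases h : s = s.swap
    · rw [← h]
      simp only [Finset.mem_singleton, Finset.insert_eq_of_mem, Finset.sum_singleton]
      linarith [hle s s, hn0 s]
    · rw [Finset.sum_pair h]
      linarith [hle s s, hle s s.swap]
  rw [hL, hR]
  refine (Finset.sum_le_sum fun s _ => hrow s).trans (le_of_eq ?_)
  have : ∑ s : I × I, n s.swap = ∑ s, n s := (Equiv.prodComm I I).sum_comp n
  rw [Finset.sum_add_distrib, ← Finset.sum_div, Finset.sum_add_distrib, this]
  ring

end Vale.Agent.P078
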