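import Vale.Agent.P078.Singular
import Vale.Agent.P078.Variance

open scoped InnerProductSpace
open Filter Topology

set_option linter.unusedSectionVars false

namespace Vale.Agent.P078

variable {H : Type*} [NormedAddCommGroup H] [InnerProductSpace ℂ H] [CompleteSpace H]
variable {M : VonNeumannAlgebra H} {A : StarSubalgebra ℂ (H →L[ℂ] H)}

/-- A finitely supported random `r`-partition whose pieces have mean `1/r`. -/
structure Dist (A : StarSubalgebra ℂ (H →L[ℂ] H)) (r : ℕ) where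
  D : Type
  [fin : Fintype D]
  w : D → ℝ
  hw0 : ∀ d, 0 ≤ w d
  hw1 : ∑ d, w d = 1
  p : D → Fin r → H →L[ℂ] H
  hp : ∀ d, IsPartition A (p d)
  hmean : ∀ c, ∑ d, w d • p d c = (r : ℝ)⁻¹ • (1 : H →L[ℂ] H)

attribute [instance] Dist.fin

variable {r : ℕ}

/-- The mean pinching. -/
noncomputable def Dist.mean (𝒟 : Dist A r) (x : H →L[ℂ] H) : H →L[ℂ] H :=
  ∑ d, 𝒟.w d • pinch (𝒟.p d) x

lemma Dist.norm_mean_le (𝒟 : Dist A r) (x : H →L[ℂ] H) : ‖𝒟.mean x‖ ≤ ‖x‖ := by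
  calc ‖𝒟.mean x‖ ≤ ∑ d, 𝒟.w d * ‖x‖ := by
        refine (norm_sum_le _ _).trans (Finset.sum_le_sum fun d _ => ?_)
        rw [norm_smul, Real.norm_of_nonneg (𝒟.hw0 d)]
        exact mul_le_mul_of_nonneg_left ((𝒟.hp d).norm_pinch_le x) (𝒟.hw0 d)
    _ = ‖x‖ := by rw [← Finset.sum_mul, 𝒟.hw1, one_mul]

lemma sa_rsmul (c : ℝ) {f : H →L[ℂ] H} (hf : IsSelfAdjoint f) : IsSelfAdjoint (c • f) := by
  rw [IsSelfAdjoint, star_smul, hf.star_eq, star_trivial]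

lemma Dist.mean_sa (𝒟 : Dist A r) {x : H →L[ℂ] H} (hx : IsSelfAdjoint x) :
    IsSelfAdjoint (𝒟.mean x) := by
  rw [IsSelfAdjoint, Dist.mean, star_sum]
  exact Finset.sum_congr rfl fun d _ => (sa_rsmul _ ((𝒟.hp d).pinch_sa hx)).star_eq

lemma Dist.mean_mem (hA : IsMASA M A) (𝒟 : Dist A r) {x : H →L[ℂ] H} (hx : x ∈ M) :
    𝒟.mean x ∈ M :=
  sum_mem fun d _ => rsmul_mem_vN _ ((𝒟.hp d).pinch_mem hA hx)

/-- The trivial partitions. -/
noncomputable def trivPart (a c : Fin r) : H →L[ℂ] H := if a = c then 1 else 0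

lemma isPartition_trivPart (a : Fin r) : IsPartition A (trivPart a : Fin r → H →L[ℂ] H) := by
  refine ⟨fun c => ?_, fun c c' h => ?_, by simp [trivPart]⟩
  · unfold trivPart
    split_ifs
    · exact ⟨one_mem _, IsStarProjection.one _⟩
    · exact ⟨zero_mem _, IsStarProjection.zero _⟩
  · unfold trivPart
    split_ifs with h1 h2
    · exact absurd (h1.symm.trans h2) h
    all_goals simp

lemma pinch_trivPart (a : Fin r) (x : H →L[ℂ] H) : pinch (trivPart a) x = x := by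
  simp [pinch, trivPart]

/-- The uniform distribution on trivial partitions. -/
noncomputable def Dist.triv (A : StarSubalgebra ℂ (H →L[ℂ] H)) (hr : 0 < r) : Dist A r where
  D := Fin r
  w := fun _ => (r : ℝ)⁻¹
  hw0 := fun _ => by positivity
  hw1 := by
    have : (r : ℝ) ≠ 0 := by positivity
    simp [this]
  p := trivPart
  hp := isPartition_trivPart
  hmean := fun c => by simp [trivPart]

lemma Dist.mean_triv (hr : 0 < r) (x : H →L[ℂ] H) : (Dist.triv A hr).mean x = x := by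
  have h := (Dist.triv A hr).hw1
  simp only [Dist.mean, Dist.triv, pinch_trivPart] at h ⊢
  rw [← Finset.sum_smul, h, one_smul]

/-- Mixture of two random partitions. -/
noncomputable def Dist.mix (𝒟 𝒟' : Dist A r) {a b : ℝ} (ha : 0 ≤ a) (hb : 0 ≤ b)
    (hab : a + b = 1) : Dist A r where
  D := 𝒟.D ⊕ 𝒟'.D
  w := Sum.elim (fun d => a * 𝒟.w d) (fun d => b * 𝒟'.w d)
  hw0 := by
    rintro (d | d)
    · exact mul_nonneg ha (𝒟.hw0 d)
    · exact mul_nonneg hb (𝒟'.hw0 d)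
  hw1 := by simp [Fintype.sum_sum_type, ← Finset.mul_sum, 𝒟.hw1, 𝒟'.hw1, hab]
  p := Sum.elim 𝒟.p 𝒟'.p
  hp := by
    rintro (d | d)
    · exact 𝒟.hp d
    · exact 𝒟'.hp d
  hmean := fun c => by
    simp only [Fintype.sum_sum_type, Sum.elim_inl, Sum.elim_inr, mul_smul, ← Finset.smul_sum,
      𝒟.hmean, 𝒟'.hmean]
    rw [← add_smul, hab, one_smul]

lemma Dist.mean_mix (𝒟 𝒟' : Dist A r) {a b : ℝ} (ha : 0 ≤ a) (hb : 0 ≤ b) (hab : a + b = 1)
    (x : H →L[ℂ] H) : (𝒟.mix 𝒟' ha hb hab).mean x = a • 𝒟.mean x + b • 𝒟'.mean x := by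
  have : (𝒟.mix 𝒟' ha hb hab).mean x = ∑ d : 𝒟.D ⊕ 𝒟'.D,
      Sum.elim (fun d => a * 𝒟.w d) (fun d => b * 𝒟'.w d) d • pinch (Sum.elim 𝒟.p 𝒟'.p d) x := rfl
  rw [this]
  simp only [Dist.mean, Fintype.sum_sum_type, Sum.elim_inl, Sum.elim_inr, mul_smul,
    Finset.smul_sum]

section assemble
variable {ι : Type} [Fintype ι] [DecidableEq ι] {q : ι → H →L[ℂ] H}

lemma IsPartition.block_sum (hq : IsPartition A q) (G : ι → ι → H →L[ℂ] H) (i j : ι) :
    q i * (∑ s : ι × ι, q s.1 * G s.1 s.2 * q s.2) * q j = q i * G i j * q j := by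
  rw [Finset.mul_sum, Finset.sum_mul, Finset.sum_eq_single (i, j)]
  · simp only [← mul_assoc, hq.mul_self]
    rw [mul_assoc, hq.mul_self]
  · rintro ⟨k, l⟩ _ h
    by_cases hk : i = k
    · have hl : l ≠ j := fun h' => h (by rw [hk, h'])
      simp only [mul_assoc, hq.2.1 l j hl, mul_zero]
    · simp only [← mul_assoc, hq.2.1 i k hk, zero_mul]
  · simp

lemma isPartition_assemble (hA : IsMASA M A) (hq : IsPartition A q)
    {p : ι → Fin r → H →L[ℂ] H} (hp : ∀ i, IsPartition A (p i)) :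
    IsPartition A fun c => ∑ i, q i * p i c := by
  have hc : ∀ i j c, Commute (q i) (p j c) := fun i j c => hA.2.1 _ (hq.mem i) _ ((hp j).mem c)
  have hmul : ∀ c c', (∑ i, q i * p i c) * (∑ i, q i * p i c') = ∑ i, q i * (p i c * p i c') := by
    intro c c'
    rw [Finset.sum_mul]
    refine Finset.sum_congr rfl fun i _ => ?_
    rw [Finset.mul_sum, Finset.sum_eq_single i]
    · calc q i * p i c * (q i * p i c') = q i * (p i c * q i) * p i c' := by simp only [mul_assoc]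
        _ = q i * (q i * p i c) * p i c' := by rw [(hc i i c).eq]
        _ = _ := by rw [← mul_assoc, hq.mul_self, mul_assoc]
    · intro j _ hj
      calc q i * p i c * (q j * p j c') = q i * (p i c * q j) * p j c' := by simp only [mul_assoc]
        _ = q i * (q j * p i c) * p j c' := by rw [(hc j i c).eq]
        _ = 0 := by rw [← mul_assoc, hq.2.1 i j hj.symm, zero_mul, zero_mul]
    · simp
  refine ⟨fun c => ⟨sum_mem fun i _ => mul_mem (hq.mem i) ((hp i).mem c), ?_, ?_⟩,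
    fun c c' h => ?_, ?_⟩
  · rw [IsIdempotentElem, hmul]
    simp only [(hp _).mul_self]
  · rw [IsSelfAdjoint, star_sum]
    refine Finset.sum_congr rfl fun i _ => ?_
    rw [star_mul, (hq.sa i).star_eq, ((hp i).sa c).star_eq, (hc i i c).eq]
  · rw [hmul]
    simp only [(hp _).2.1 c c' h, mul_zero, Finset.sum_const_zero]
  · rw [Finset.sum_comm]
    simp only [← Finset.mul_sum, (hp _).2.2, mul_one, hq.2.2]

lemma pinch_assemble (hA : IsMASA M A) (hq : IsPartition A q)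
    {p : ι → Fin r → H →L[ℂ] H} (hp : ∀ i, IsPartition A (p i)) (x : H →L[ℂ] H) :
    pinch (fun c => ∑ i, q i * p i c) x =
      ∑ s : ι × ι, q s.1 * (∑ c, p s.1 c * x * p s.2 c) * q s.2 := by
  simp only [pinch, Finset.sum_mul, Finset.mul_sum]
  rw [Finset.sum_comm (s := Finset.univ (α := ι × ι))]
  refine Finset.sum_congr rfl fun c _ => ?_
  rw [Fintype.sum_prod_type_right]
  refine Finset.sum_congr rfl fun j _ => Finset.sum_congr rfl fun i _ => ?_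
  simp only [mul_assoc]
  rw [hA.2.1 _ (hq.mem j) _ ((hp j).mem c)]

/-- The centred block kernel. -/
noncomputable def Dist.ker (𝒟 : Dist A r) (x : H →L[ℂ] H) (i j : ι) (a b : 𝒟.D) : H →L[ℂ] H :=
  ∑ c, 𝒟.p a c * x * 𝒟.p b c - if i = j then 𝒟.mean x else (r : ℝ)⁻¹ • x

lemma Dist.ker_left (𝒟 : Dist A r) (x : H →L[ℂ] H) (i j : ι) (h : i ≠ j) (b : 𝒟.D) :
    ∑ a, 𝒟.w a • 𝒟.ker x i j a b = 0 := by
  simp only [Dist.ker, if_neg h, smul_sub, Finset.sum_sub_distrib, Finset.smul_sum]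
  rw [← Finset.sum_smul, 𝒟.hw1, one_smul, Finset.sum_comm]
  simp only [← smul_mul_assoc, ← Finset.sum_mul, 𝒟.hmean, ← Finset.mul_sum, (𝒟.hp b).2.2]
  simp

lemma Dist.ker_right (𝒟 : Dist A r) (x : H →L[ℂ] H) (i j : ι) (h : i ≠ j) (a : 𝒟.D) :
    ∑ b, 𝒟.w b • 𝒟.ker x i j a b = 0 := by
  simp only [Dist.ker, if_neg h, smul_sub, Finset.sum_sub_distrib, Finset.smul_sum]
  rw [← Finset.sum_smul, 𝒟.hw1, one_smul, Finset.sum_comm]
  simp only [← mul_smul_comm, ← Finset.mul_sum, 𝒟.hmean, ← Finset.sum_mul, (𝒟.hp a).2.2]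
  simp

lemma Dist.ker_diag (𝒟 : Dist A r) (x : H →L[ℂ] H) (i : ι) :
    ∑ a, 𝒟.w a • 𝒟.ker x i i a a = 0 := by
  simp only [Dist.ker, if_true, smul_sub, Finset.sum_sub_distrib]
  rw [← Finset.sum_smul, 𝒟.hw1, one_smul, sub_eq_zero]
  rfl

lemma Dist.pinch_assemble_sub (hA : IsMASA M A) (hq : IsPartition A q) (𝒟 : Dist A r)
    (x : H →L[ℂ] H) (ω : ι → 𝒟.D) :
    pinch (fun c => ∑ i, q i * 𝒟.p (ω i) c) x -
        ((r : ℝ)⁻¹ • x + pinch q (𝒟.mean x - (r : ℝ)⁻¹ • x)) =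
      ∑ s : ι × ι, q s.1 * 𝒟.ker x s.1 s.2 (ω s.1) (ω s.2) * q s.2 := by
  rw [pinch_assemble hA hq fun i => 𝒟.hp (ω i)]
  simp only [Dist.ker, mul_sub, sub_mul, Finset.sum_sub_distrib]
  congr 1
  have h1 : ∀ s : ι × ι, q s.1 * (if s.1 = s.2 then 𝒟.mean x else (r : ℝ)⁻¹ • x) * q s.2 =
      q s.1 * ((r : ℝ)⁻¹ • x) * q s.2 +
        if s.1 = s.2 then q s.1 * (𝒟.mean x - (r : ℝ)⁻¹ • x) * q s.1 else 0 := by
    rintro ⟨i, j⟩
    by_cases h : i = j
    · subst h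
      simp [mul_sub, sub_mul]
    · simp [h]
  simp only [h1, Finset.sum_add_distrib, Fintype.sum_prod_type]
  congr 1
  · simp only [← Finset.mul_sum, ← Finset.sum_mul, hq.2.2, one_mul, mul_one]
  · simp [pinch]

/-- Each block draws an independent random partition. -/
noncomputable def Dist.assemble (hA : IsMASA M A) (hq : IsPartition A q) (𝒟 : Dist A r) :
    Dist A r where
  D := ι → 𝒟.D
  w := prodW 𝒟.w
  hw0 := prodW_nonneg 𝒟.hw0
  hw1 := sum_prodW 𝒟.hw1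
  p := fun ω c => ∑ i, q i * 𝒟.p (ω i) c
  hp := fun ω => isPartition_assemble hA hq fun i => 𝒟.hp (ω i)
  hmean := fun c => by
    simp only [Finset.smul_sum]
    rw [Finset.sum_comm]
    have : ∀ i, ∑ ω : ι → 𝒟.D, prodW 𝒟.w ω • (q i * 𝒟.p (ω i) c) = (r : ℝ)⁻¹ • q i := by
      intro i
      rw [resample 𝒟.hw1 (fun ω => q i * 𝒟.p (ω i) c) i]
      simp only [Function.update_self, ← mul_smul_comm, ← Finset.mul_sum, 𝒟.hmean]
      rw [← Finset.sum_smul, sum_prodW 𝒟.hw1]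
      simp
    simp only [this, ← Finset.smul_sum, hq.2.2]

lemma Dist.mean_assemble (hA : IsMASA M A) (hq : IsPartition A q) (𝒟 : Dist A r)
    (x : H →L[ℂ] H) :
    (𝒟.assemble hA hq).mean x = (r : ℝ)⁻¹ • x + pinch q (𝒟.mean x - (r : ℝ)⁻¹ • x) := by
  have h1 : ∑ ω : ι → 𝒟.D, prodW 𝒟.w ω •
      ∑ s : ι × ι, q s.1 * 𝒟.ker x s.1 s.2 (ω s.1) (ω s.2) * q s.2 = 0 := by
    simp only [Finset.smul_sum]
    rw [Finset.sum_comm]
    refine Finset.sum_eq_zero fun s _ => ?_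
    refine sum_prodW_eq_zero 𝒟.hw1 (fun ω => q s.1 * 𝒟.ker x s.1 s.2 (ω s.1) (ω s.2) * q s.2) s.1
      fun ω => ?_
    have := centered_update (𝒟.ker x) (𝒟.ker_left x) (𝒟.ker_right x) (𝒟.ker_diag x) s.1 s.2 s.1
      (Or.inl rfl) ω
    have h2 := congrArg (fun y => q s.1 * y * q s.2) this
    simpa only [smul_mul_assoc, mul_smul_comm, Finset.sum_mul, Finset.mul_sum,
      mul_zero, zero_mul] using h2
  simp only [← 𝒟.pinch_assemble_sub hA hq, smul_sub, Finset.sum_sub_distrib] at h1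
  rw [← Finset.sum_smul, sum_prodW 𝒟.hw1, one_smul, sub_eq_zero] at h1
  exact h1

end assemble

lemma exists_dist_close (hA : IsMASA M A) (hr : 0 < r) (x : H →L[ℂ] H) {κ : Type} [Fintype κ]
    (ζ : κ → H) {ε : ℝ} (hε : 0 < ε) :
    ∃ 𝒟 : Dist A r, ∀ k,
      ‖(𝒟.mean x - ((r : ℝ)⁻¹ • x + (1 - (r : ℝ)⁻¹) • condE hA x)) (ζ k)‖ < ε := by
  classical
  by_contra hcon
  set y0 := (r : ℝ)⁻¹ • x + (1 - (r : ℝ)⁻¹) • condE hA x with hy0
  let Φ : (H →L[ℂ] H) → (κ → H) := fun f k => f (ζ k)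
  let s : Set (κ → H) := Set.range fun 𝒟 : Dist A r => Φ (𝒟.mean x)
  have hconv : Convex ℝ s := by
    rintro _ ⟨𝒟, rfl⟩ _ ⟨𝒟', rfl⟩ a b ha hb hab
    refine ⟨𝒟.mix 𝒟' ha hb hab, ?_⟩
    simp only [Dist.mean_mix]
    rfl
  have hnot : Φ y0 ∉ closure s := by
    intro h
    obtain ⟨_, ⟨𝒟, rfl⟩, hd⟩ := Metric.mem_closure_iff.mp h ε hε
    refine hcon ⟨𝒟, fun k => ?_⟩
    rw [sub_apply, ← dist_eq_norm, dist_comm]
    exact (dist_le_pi_dist (Φ y0) (Φ (𝒟.mean x)) k).trans_lt hd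
  obtain ⟨Λ, u, hu1, hu2⟩ := RCLike.geometric_hahn_banach_point_closed (𝕜 := ℂ)
    hconv.closure isClosed_closure hnot
  set α : κ → H := fun k => (InnerProductSpace.toDual ℂ H).symm
    (Λ.comp (ContinuousLinearMap.single ℂ (fun _ : κ => H) k)) with hα
  have hΛ : ∀ y, Λ (Φ y) = vecFn α ζ y := by
    intro y
    simp only [hα, vecFn_apply, InnerProductSpace.toDual_symm_apply,
      ContinuousLinearMap.comp_apply, ← map_sum]
    congr 1
    simp [Finset.univ_sum_single, Φ]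
  have hlim : WLim (netU A : Filter _)
      (fun T => (r : ℝ)⁻¹ • x + (1 - (r : ℝ)⁻¹) • pinch (netPart hA T).q x) y0 := by
    have := (WLim.const ((r : ℝ)⁻¹ • x)).add
      ((wlim_condE hA x).smul ((1 - (r : ℝ)⁻¹ : ℝ) : ℂ))
    simpa only [Complex.coe_smul] using this
  have h1 := (Complex.continuous_re.tendsto _).comp (hlim.vecFn α ζ)
  have h2 : u ≤ (vecFn α ζ y0).re := by
    refine ge_of_tendsto' h1 fun T => ?_
    have := hu2 _ (subset_closure ⟨(Dist.triv A hr).assemble hA (netPart hA T).hq, rfl⟩)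
    simp only [Dist.mean_assemble, Dist.mean_triv] at this
    rw [hΛ, RCLike.re_to_complex, pinch_sub, pinch_rsmul] at this
    simp only [Function.comp_apply, sub_smul, one_smul]
    exact this.le
  rw [hΛ, RCLike.re_to_complex] at hu1
  linarith

/-- Key step: outside the expected part, a pinching is `x / r + (1 - 1/r) E x` up to `d + d*`
with `d` small on the given vectors. -/
lemma exists_pinch_decomp (hA : IsMASA M A) (hr : 0 < r) {z : H →L[ℂ] H} (hzA : z ∈ A)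
    (hzp : IsStarProjection z) (hz : ∀ p, GoodProj hA p → z * p = p) {x : H →L[ℂ] H}
    (hxM : x ∈ M) (hx : IsSelfAdjoint x) {κ : Type} [Fintype κ] (ξ : κ → H)
    (hξ : ∀ k, z (ξ k) = 0) {t : ℝ} (ht : 0 < t) :
    ∃ p : Fin r → H →L[ℂ] H, IsPartition A p ∧ ∃ d ∈ M,
      pinch p x = (r : ℝ)⁻¹ • x + (1 - (r : ℝ)⁻¹) • condE hA x + (d + star d) ∧
        ∀ k, ‖d (ξ k)‖ ≤ t := by
  classical
  set η : ℝ := min (t ^ 2 / 8) (t / (4 * (‖x‖ + 1))) with hη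
  have hη0 : 0 < η := by positivity
  obtain ⟨Q, hQ⟩ := singular hA hzA hzp hz ξ hξ hη0
    (C := 4 * ‖x‖ ^ 2 * ∑ k, ‖ξ k‖ ^ 2) (by positivity)
  set q := Q.q with hq'
  have hq : IsPartition A q := Q.hq
  set N : ℝ := (Fintype.card Q.ι : ℝ) with hN
  have hN0 : 0 ≤ N := by positivity
  obtain ⟨𝒟, h𝒟⟩ := exists_dist_close hA hr x (fun s : κ × Q.ι => q s.2 (ξ s.1))
    (ε := t / (N + 1)) (by positivity)
  set y0 := (r : ℝ)⁻¹ • x + (1 - (r : ℝ)⁻¹) • condE hA x with hy0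
  set m := (r : ℝ)⁻¹ • x + pinch q (𝒟.mean x - (r : ℝ)⁻¹ • x) with hm
  set g := pinch q (𝒟.mean x - y0) with hg
  have hEA := condE_mem hA hxM
  have hEsa : IsSelfAdjoint (condE hA x) := by rw [IsSelfAdjoint, condE_star, hx.star_eq]
  have hmg : m = y0 + g := by
    have h1 : pinch q ((1 - (r : ℝ)⁻¹) • condE hA x) = (1 - (r : ℝ)⁻¹) • condE hA x :=
      hq.pinch_of_mem hA (rsmul_mem_sub _ hEA)
    rw [hm, hg, hy0, ← sub_sub, pinch_sub _ ((1 - (r : ℝ)⁻¹) • condE hA x), h1]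
    abel
  have hy0M : y0 ∈ M := add_mem (rsmul_mem_vN _ hxM) (rsmul_mem_vN _ (hA.1 _ hEA))
  have hy0sa : IsSelfAdjoint y0 := (sa_rsmul _ hx).add (sa_rsmul _ hEsa)
  have hgM : g ∈ M := hq.pinch_mem hA (sub_mem (𝒟.mean_mem hA hxM) hy0M)
  have hgsa : IsSelfAdjoint g := hq.pinch_sa ((𝒟.mean_sa hx).sub hy0sa)
  have hgξ : ∀ k, ‖g (ξ k)‖ ≤ t := by
    intro k
    apply abs_le_of_sq_le_sq' _ ht.le |>.2
    calc ‖g (ξ k)‖ ^ 2 ≤ ∑ i, ‖(𝒟.mean x - y0) (q i (ξ k))‖ ^ 2 := hq.norm_sq_pinch_apply_le _ _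
      _ ≤ ∑ _i : Q.ι, (t / (N + 1)) ^ 2 := by
          refine Finset.sum_le_sum fun i _ => ?_
          gcongr
          exact (h𝒟 (k, i)).le
      _ = N * (t / (N + 1)) ^ 2 := by simp [hN]
      _ ≤ t ^ 2 := by
          rw [div_pow, ← mul_div_assoc, div_le_iff₀ (by positivity)]
          nlinarith [sq_nonneg t, mul_nonneg hN0 (sq_nonneg t), mul_nonneg (mul_nonneg hN0 hN0) (sq_nonneg t)]
  set 𝒜 := 𝒟.assemble hA hq with h𝒜
  have hmn : ‖m‖ ≤ ‖x‖ := by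
    rw [hm, ← Dist.mean_assemble hA hq]
    exact Dist.norm_mean_le _ _
  set Y : (Q.ι → 𝒟.D) → H →L[ℂ] H := fun ω => pinch (𝒜.p ω) x - m with hY
  have hYs : ∀ ω, Y ω = ∑ s : Q.ι × Q.ι, q s.1 * 𝒟.ker x s.1 s.2 (ω s.1) (ω s.2) * q s.2 :=
    fun ω => 𝒟.pinch_assemble_sub hA hq x ω
  have hYb : ∀ ω i j, q i * 𝒟.ker x i j (ω i) (ω j) * q j = q i * Y ω * q j := by
    intro ω i j
    rw [hYs, hq.block_sum fun i j => 𝒟.ker x i j (ω i) (ω j)]
  have hYn : ∀ ω, ‖Y ω‖ ≤ 2 * ‖x‖ := fun ω =>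
    (norm_sub_le _ _).trans (by linarith [(𝒜.hp ω).norm_pinch_le x])
  have hYsa : ∀ ω, IsSelfAdjoint (Y ω) := fun ω =>
    ((𝒜.hp ω).pinch_sa hx).sub (hmg ▸ hy0sa.add hgsa)
  have hYM : ∀ ω, Y ω ∈ M := fun ω =>
    sub_mem ((𝒜.hp ω).pinch_mem hA hxM) (hmg ▸ add_mem hy0M hgM)
  set v : (Q.ι → 𝒟.D) × κ × Q.ι × Q.ι → H := fun s =>
    √(prodW 𝒟.w s.1) • (q s.2.2.1 * Y s.1 * q s.2.2.2) (ξ s.2.1) with hv
  have hvn : ∀ (f : H →L[ℂ] H), ∑ s, ‖f (v s)‖ ^ 2 = ∑ ω, prodW 𝒟.w ω *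
      ∑ k, ∑ s : Q.ι × Q.ι, ‖f ((q s.1 * Y ω * q s.2) (ξ k))‖ ^ 2 := by
    intro f
    simp only [Fintype.sum_prod_type (α₁ := Q.ι → 𝒟.D), Fintype.sum_prod_type (α₁ := κ),
      Finset.mul_sum, hv]
    refine Finset.sum_congr rfl fun ω _ => Finset.sum_congr rfl fun k _ =>
      Finset.sum_congr rfl fun s _ => ?_
    rw [ContinuousLinearMap.map_smul_of_tower, norm_smul, mul_pow, Real.norm_eq_abs, sq_abs,
      Real.sq_sqrt (prodW_nonneg 𝒟.hw0 ω)]
  obtain ⟨f, hfM, hfs, hf1, hf2⟩ := hQ _ v (by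
      rintro ⟨ω, k, i, j⟩
      refine ⟨i, ?_⟩
      simp only [hv, ContinuousLinearMap.map_smul_of_tower, mul_apply_eq_comp]
      rw [proj_apply_apply (hq.proj i)]) (by
      have h1 := hvn 1
      simp only [one_apply_eq_self] at h1
      rw [h1]
      calc _ ≤ ∑ ω, prodW 𝒟.w ω * (4 * ‖x‖ ^ 2 * ∑ k, ‖ξ k‖ ^ 2) := by
            refine Finset.sum_le_sum fun ω _ => mul_le_mul_of_nonneg_left ?_
              (prodW_nonneg 𝒟.hw0 ω)
            rw [Finset.mul_sum]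
            refine Finset.sum_le_sum fun k _ => ?_
            rw [Fintype.sum_prod_type_right]
            simp only [mul_apply_eq_comp, hq.sum_norm_sq]
            rw [← hq.sum_norm_sq (ξ k), Finset.mul_sum]
            refine Finset.sum_le_sum fun j _ => ?_
            calc ‖Y ω (q j (ξ k))‖ ^ 2 ≤ (‖Y ω‖ * ‖q j (ξ k)‖) ^ 2 := by
                  gcongr; exact (Y ω).le_opNorm _
              _ ≤ (2 * ‖x‖ * ‖q j (ξ k)‖) ^ 2 := by gcongr; exact hYn ω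
              _ = _ := by ring
        _ = _ := by rw [← Finset.sum_mul, sum_prodW 𝒟.hw1, one_mul])
  have hvar : ∑ ω, prodW 𝒟.w ω * ∑ k, ‖f (Y ω (ξ k))‖ ^ 2 <
      ∑ ω : Q.ι → 𝒟.D, prodW 𝒟.w ω * (2 * η) := by
    rw [← Finset.sum_mul, sum_prodW 𝒟.hw1, one_mul]
    have h1 : ∀ k, ∑ ω, prodW 𝒟.w ω * ‖f (Y ω (ξ k))‖ ^ 2 ≤
        2 * ∑ ω, prodW 𝒟.w ω * ∑ s : Q.ι × Q.ι, ‖f ((q s.1 * Y ω * q s.2) (ξ k))‖ ^ 2 := by
      intro k
      let L : Q.ι → Q.ι → (H →L[ℂ] H) →ₗ[ℝ] H := fun i j =>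
        { toFun := fun y => f ((q i * y * q j) (ξ k))
          map_add' := fun a b => by simp [mul_add, add_mul]
          map_smul' := fun c a => by simp }
      have h2 := variance_le 𝒟.hw0 𝒟.hw1 (fun i j a b => L i j (𝒟.ker x i j a b))
        (fun i j h b => by simp only [← map_smul, ← map_sum, 𝒟.ker_left x i j h b, map_zero])
        (fun i j h a => by simp only [← map_smul, ← map_sum, 𝒟.ker_right x i j h a, map_zero])
        (fun i => by simp only [← map_smul, ← map_sum, 𝒟.ker_diag x i, map_zero])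
      simp only [L, LinearMap.coe_mk, AddHom.coe_mk] at h2
      simp only [← map_sum, ← sum_apply, ← hYs] at h2
      simpa only [hYb] using h2
    rw [hvn f] at hf2
    simp only [Finset.mul_sum] at hf2 h1 ⊢
    rw [Finset.sum_comm] at hf2 ⊢
    have h3 := Finset.sum_le_sum fun k (_ : k ∈ Finset.univ) => h1 k
    simp only [← Finset.mul_sum] at h3 hf2 ⊢
    linarith
  obtain ⟨ω, _, hω⟩ := Finset.exists_lt_of_sum_lt hvar
  have hω' : ∑ k, ‖f (Y ω (ξ k))‖ ^ 2 < 2 * η :=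
    lt_of_mul_lt_mul_left hω (prodW_nonneg 𝒟.hw0 ω)
  have h0 : pinch (𝒜.p ω) x = y0 + g + Y ω := by rw [← hmg, hY]; simp
  clear_value Y g
  refine ⟨𝒜.p ω, 𝒜.hp ω, (2 : ℝ)⁻¹ • (f * Y ω + Y ω * (1 - f) + g),
    rsmul_mem_vN _ (add_mem (add_mem (mul_mem hfM (hYM ω))
      (mul_mem (hYM ω) (sub_mem (one_mem _) hfM))) hgM), ?_, fun k => ?_⟩
  · rw [h0, star_smul, star_trivial, star_add, star_add, star_mul, star_mul, star_sub, star_one,
      hfs.star_eq, (hYsa ω).star_eq, hgsa.star_eq, mul_sub, sub_mul, mul_one, one_mul]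
    module
  · have h1 : ‖f (Y ω (ξ k))‖ ≤ t / 2 := by
      apply abs_le_of_sq_le_sq' _ (by positivity) |>.2
      have h2 := Finset.single_le_sum (f := fun k => ‖f (Y ω (ξ k))‖ ^ 2)
        (fun k _ => by positivity) (Finset.mem_univ k)
      have h3 : η ≤ t ^ 2 / 8 := min_le_left _ _
      linarith
    have h2 : ‖Y ω (ξ k - f (ξ k))‖ ≤ t / 2 := by
      calc _ ≤ ‖Y ω‖ * ‖ξ k - f (ξ k)‖ := (Y ω).le_opNorm _
        _ ≤ (2 * (‖x‖ + 1)) * (t / (4 * (‖x‖ + 1))) := by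
            gcongr
            · linarith [hYn ω]
            · exact (hf1 k).le.trans (min_le_right _ _)
        _ = t / 2 := by field_simp; ring
    rw [smul_apply, norm_smul, add_apply, add_apply, mul_apply_eq_comp, mul_apply_eq_comp,
      sub_apply, one_apply_eq_self, Real.norm_of_nonneg (by positivity)]
    have h3 := norm_add₃_le (a := f (Y ω (ξ k))) (b := Y ω (ξ k - f (ξ k))) (c := g (ξ k))
    linarith [hgξ k]

end Vale.Agent.P078
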