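import Vale.Agent.P078.Glue

open scoped InnerProductSpace
open Filter Topology

set_option linter.unusedSectionVars false

namespace Vale.Agent.P078

variable {H : Type*} [NormedAddCommGroup H] [InnerProductSpace ℂ H] [CompleteSpace H]
variable {M : VonNeumannAlgebra H} {A : StarSubalgebra ℂ (H →L[ℂ] H)}

section corner
variable (U : Submodule ℂ H) [CompleteSpace U]

/-- Compression to `U`. -/
noncomputable def cmp (y : H →L[ℂ] H) : U →L[ℂ] U :=
  U.orthogonalProjectionOnto ∘L y ∘L U.subtypeL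

/-- Extension by zero. -/
noncomputable def ext0 (t : U →L[ℂ] U) : H →L[ℂ] H :=
  U.subtypeL ∘L t ∘L U.orthogonalProjectionOnto

variable {U}

lemma ext0_apply (t : U →L[ℂ] U) (v : H) : ext0 U t v = t (U.orthogonalProjectionOnto v) := rfl

lemma cmp_ext0 (t : U →L[ℂ] U) : cmp U (ext0 U t) = t := by
  ext v; simp [cmp, ext0]

lemma ext0_cmp (y : H →L[ℂ] H) : ext0 U (cmp U y) = U.starProjection * y * U.starProjection := by
  ext v; rfl

lemma ext0_injective : Function.Injective (ext0 U) := fun s t h => by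
  rw [← cmp_ext0 s, h, cmp_ext0]

lemma ext0_mul (s t : U →L[ℂ] U) : ext0 U (s * t) = ext0 U s * ext0 U t := by
  ext v; simp [ext0]

lemma ext0_add (s t : U →L[ℂ] U) : ext0 U (s + t) = ext0 U s + ext0 U t := by
  ext v; simp [ext0]

lemma ext0_sub (s t : U →L[ℂ] U) : ext0 U (s - t) = ext0 U s - ext0 U t := by
  ext v; simp [ext0]

lemma ext0_smul (c : ℂ) (s : U →L[ℂ] U) : ext0 U (c • s) = c • ext0 U s := by
  ext v; simp [ext0]

lemma ext0_zero : ext0 U 0 = 0 := by
  ext v; simp [ext0]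

lemma ext0_sum {ι : Type*} (s : Finset ι) (t : ι → U →L[ℂ] U) :
    ext0 U (∑ i ∈ s, t i) = ∑ i ∈ s, ext0 U (t i) := by
  ext v; simp [ext0]

lemma ext0_one : ext0 U 1 = U.starProjection := by
  ext v; rfl

lemma ext0_star (t : U →L[ℂ] U) : ext0 U (star t) = star (ext0 U t) := by
  simp only [ext0, ContinuousLinearMap.star_eq_adjoint, ContinuousLinearMap.adjoint_comp,
    Submodule.adjoint_subtypeL, Submodule.adjoint_orthogonalProjectionOnto,
    ContinuousLinearMap.comp_assoc]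

lemma cmp_star (y : H →L[ℂ] H) : cmp U (star y) = star (cmp U y) := by
  simp only [cmp, ContinuousLinearMap.star_eq_adjoint, ContinuousLinearMap.adjoint_comp,
    Submodule.adjoint_subtypeL, Submodule.adjoint_orthogonalProjectionOnto,
    ContinuousLinearMap.comp_assoc]

lemma proj_mul_ext0 (t : U →L[ℂ] U) : U.starProjection * ext0 U t = ext0 U t := by
  rw [← ext0_one, ← ext0_mul, one_mul]

lemma ext0_mul_proj (t : U →L[ℂ] U) : ext0 U t * U.starProjection = ext0 U t := by
  rw [← ext0_one, ← ext0_mul, mul_one]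

lemma norm_ext0_le (t : U →L[ℂ] U) : ‖ext0 U t‖ ≤ ‖t‖ := by
  refine ContinuousLinearMap.opNorm_le_bound _ t.opNorm_nonneg fun v => ?_
  rw [ext0_apply, Submodule.norm_coe]
  exact (t.le_opNorm _).trans (by gcongr; exact U.norm_orthogonalProjectionOnto_apply_le v)

lemma norm_cmp_le (y : H →L[ℂ] H) : ‖cmp U y‖ ≤ ‖y‖ := by
  refine ContinuousLinearMap.opNorm_le_bound _ (norm_nonneg _) fun v => ?_
  exact (U.norm_orthogonalProjectionOnto_apply_le _).trans (y.le_opNorm _)

lemma isStarProjection_ext0 {t : U →L[ℂ] U} (ht : IsStarProjection t) :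
    IsStarProjection (ext0 U t) :=
  ⟨by rw [IsIdempotentElem, ← ext0_mul, ht.isIdempotentElem.eq],
    by rw [IsSelfAdjoint, ← ext0_star, ht.isSelfAdjoint.star_eq]⟩

/-- The corner of a star subalgebra. -/
def cornerAlg (S : StarSubalgebra ℂ (H →L[ℂ] H)) (hU : U.starProjection ∈ S) :
    StarSubalgebra ℂ (U →L[ℂ] U) where
  carrier := {t | ext0 U t ∈ S}
  mul_mem' := fun {s t} hs ht => by
    show ext0 U (s * t) ∈ S
    rw [ext0_mul]; exact mul_mem hs ht
  add_mem' := fun {s t} hs ht => by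
    show ext0 U (s + t) ∈ S
    rw [ext0_add]; exact add_mem hs ht
  algebraMap_mem' := fun c => by
    show ext0 U (algebraMap ℂ _ c) ∈ S
    rw [Algebra.algebraMap_eq_smul_one, ext0_smul, ext0_one]; exact S.smul_mem hU c
  star_mem' := fun {t} ht => by
    show ext0 U (star t) ∈ S
    rw [ext0_star]; exact star_mem ht

lemma commute_cmp_iff {b : H →L[ℂ] H} (hb : Commute b U.starProjection) (t : U →L[ℂ] U) :
    Commute (cmp U b) t ↔ Commute b (ext0 U t) := by
  have h1 : ext0 U (cmp U b * t) = b * ext0 U t := by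
    rw [ext0_mul, ext0_cmp, ← hb.eq, mul_assoc, mul_assoc, proj_mul_ext0, proj_mul_ext0]
  have h2 : ext0 U (t * cmp U b) = ext0 U t * b := by
    rw [ext0_mul, ext0_cmp, mul_assoc U.starProjection, hb.eq, ← mul_assoc, ← mul_assoc,
      ext0_mul_proj, ext0_mul_proj]
  constructor
  · intro h
    rw [Commute, SemiconjBy, ← h1, ← h2, h.eq]
  · intro h
    apply ext0_injective
    rw [h1, h2, h.eq]

/-- The corner von Neumann algebra. -/
def cornerVN (M : VonNeumannAlgebra H) (hU : U.starProjection ∈ M) : VonNeumannAlgebra U where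
  toStarSubalgebra := cornerAlg M.toStarSubalgebra hU
  centralizer_centralizer' := by
    refine Set.Subset.antisymm (fun t ht => ?_) Set.subset_centralizer_centralizer
    refine mem_of_commute_commutant M (ext0 U t) fun b hb => ?_
    have hbU := commute_of_mem_commutant hb hU
    rw [← commute_cmp_iff hbU]
    refine ht (cmp U b) fun s hs => ?_
    exact ((commute_cmp_iff hbU s).mpr (commute_of_mem_commutant hb hs)).symm.eq

lemma mem_cornerVN {hU : U.starProjection ∈ M} {t : U →L[ℂ] U} :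
    t ∈ cornerVN M hU ↔ ext0 U t ∈ M := Iff.rfl

lemma mem_cornerAlg {hU : U.starProjection ∈ A} {t : U →L[ℂ] U} :
    t ∈ cornerAlg A hU ↔ ext0 U t ∈ A := Iff.rfl

lemma isMASA_corner (hA : IsMASA M A) (hU : U.starProjection ∈ A) :
    IsMASA (cornerVN M (hA.1 _ hU)) (cornerAlg A hU) := by
  refine ⟨fun a ha => hA.1 _ ha, fun a ha b hb => ?_, fun B hB1 hB2 hB3 => ?_⟩
  · apply ext0_injective
    rw [ext0_mul, ext0_mul]
    exact hA.2.1 _ ha _ hb
  · refine le_antisymm (fun t ht => ?_) hB3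
    refine hA.mem_of_commute (hB1 t ht) fun a ha => ?_
    rw [← commute_cmp_iff (hA.2.1 a ha _ hU)]
    refine hB2 _ (hB3 ?_) t ht
    rw [mem_cornerAlg, ext0_cmp]
    exact mul_mem (mul_mem hU ha) hU

lemma isNormalCondExp_corner (hA : IsMASA M A) (hU : GoodProj hA U.starProjection) :
    ∃ E, IsNormalCondExp (cornerVN M (hA.1 _ hU.1)) (cornerAlg A hU.1) 1 E := by
  let E : (U →L[ℂ] U) →ₗ[ℂ] (U →L[ℂ] U) :=
    { toFun := fun t => cmp U (condE hA (ext0 U t))
      map_add' := fun s t => by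
        rw [ext0_add, map_add]; ext v; simp [cmp]
      map_smul' := fun c s => by
        rw [ext0_smul, map_smul]; ext v; simp [cmp] }
  have hE : ∀ t, ext0 U (E t) = condE hA (ext0 U t) := by
    intro t
    show ext0 U (cmp U (condE hA (ext0 U t))) = _
    rw [ext0_cmp, ← condE_bimod hA hU.1 hU.1, proj_mul_ext0, ext0_mul_proj]
  refine ⟨E, fun y hy _ => ⟨?_, one_mul _⟩, fun a ha _ => ?_, fun y _ _ hy => ?_,
    fun a ha b hb y _ _ => ?_, ?_⟩
  · rw [mem_cornerAlg, hE]; exact condE_mem hA hy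
  · apply ext0_injective
    rw [hE, condE_of_mem hA ha]
  · have h1 : (ext0 U y).IsPositive := by
      have := hy.conj_adjoint U.subtypeL
      rwa [Submodule.adjoint_subtypeL] at this
    have := (condE_pos hA h1).adjoint_conj U.subtypeL
    rwa [Submodule.adjoint_subtypeL] at this
  · apply ext0_injective
    rw [hE, ext0_mul, ext0_mul, condE_bimod hA ha hb, ext0_mul, ext0_mul, hE]
  · rw [ContinuousLinearMapWOT.continuousOn_iff]
    intro v w y0 hy0
    have h1 : WLim (𝓝[{y : U →WOT[ℂ] U | y.toCLM ∈ cornerVN M (hA.1 _ hU.1) ∧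
        1 * y.toCLM * 1 = y.toCLM ∧ ‖y.toCLM‖ ≤ 1}] y0)
        (fun y => ext0 U y.toCLM) (ext0 U y0.toCLM) := by
      intro w v
      have := (ContinuousLinearMapWOT.tendsto_iff_forall_inner_apply_tendsto.mp
        (tendsto_nhdsWithin_of_tendsto_nhds (s := {y : U →WOT[ℂ] U |
          y.toCLM ∈ cornerVN M (hA.1 _ hU.1) ∧ 1 * y.toCLM * 1 = y.toCLM ∧ ‖y.toCLM‖ ≤ 1})
          (tendsto_id (x := 𝓝 y0))) (U.orthogonalProjectionOnto v) (U.orthogonalProjectionOnto w))
      simp only [Submodule.inner_orthogonalProjectionOnto_eq_of_mem_right] at this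
      exact this
    have h2 := (hU.2.2 (w : H) (v : H)).tendsto (C := 1) hy0.1 ((norm_ext0_le _).trans hy0.2.2)
      (eventually_mem_nhdsWithin.mono fun y hy => ⟨hy.1, (norm_ext0_le _).trans hy.2.2⟩) h1
    have h3 : ∀ t : U →L[ℂ] U,
        ⟪(w : H), (condE hA (ext0 U t) * U.starProjection) v⟫_ℂ = ⟪w, E t v⟫_ℂ := by
      intro t
      rw [← hE, ext0_mul_proj, ext0_apply]
      simp
    simp only [h3] at h2
    exact h2

end corner

lemma exists_pavable_of_le {ε : ℝ} {n : ℕ} (h : pavingNumber M A ε ≤ n) :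
    ∃ r ≤ n, ∀ x ∈ M, IsSelfAdjoint x → SoPavable M A x ε r := by
  by_contra hcon
  push Not at hcon
  have : ((n + 1 : ℕ) : ℕ∞) ≤ pavingNumber M A ε := by
    refine le_iInf₂ fun r hr => ?_
    by_contra hlt
    have h1 : r ≤ n := by
      have := not_le.mp hlt
      have := Nat.cast_lt.mp this
      omega
    obtain ⟨x, hx, hx', hx''⟩ := hcon r h1
    exact hx'' (hr.2 x hx hx')
  have := Nat.cast_le.mp (this.trans h)
  omega

lemma pavingNumber_le {ε : ℝ} {r : ℕ} (hr : 1 ≤ r)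
    (h : ∀ x ∈ M, IsSelfAdjoint x → SoPavable M A x ε r) : pavingNumber M A ε ≤ r :=
  iInf₂_le r ⟨hr, h⟩

lemma one_lt_mul_floor {ε : ℝ} (hε : 0 < ε) : 1 < ε * ((⌊1 / ε⌋₊ + 1 : ℕ) : ℝ) := by
  have := Nat.lt_floor_add_one (1 / ε)
  rw [div_lt_iff₀ hε] at this
  push_cast
  linarith

theorem reduction (hA : IsMASA M A) :
    ∃ (U : Submodule ℂ H) (_ : CompleteSpace U) (N : VonNeumannAlgebra U)
      (B : StarSubalgebra ℂ (U →L[ℂ] U)), U.starProjection ∈ A ∧
      (∀ t, t ∈ N ↔ U.subtypeL ∘L t ∘L U.orthogonalProjectionOnto ∈ M) ∧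
      (∀ t, t ∈ B ↔ U.subtypeL ∘L t ∘L U.orthogonalProjectionOnto ∈ A) ∧
      IsMASA N B ∧ (∃ E, IsNormalCondExp N B 1 E) ∧
      ∀ ε : ℝ, 0 < ε →
        pavingNumber M A ε ≤ pavingNumber N B ε + ((⌊1 / ε⌋₊ + 1 : ℕ) : ℕ∞) := by
  classical
  obtain ⟨z, hz, hzmax⟩ := exists_max_good hA
  let U : Submodule ℂ H := (1 - z : H →L[ℂ] H).ker
  have : CompleteSpace U := ContinuousLinearMap.completeSpace_ker _
  have hUz : U.starProjection = z := by
    ext v
    refine Submodule.eq_starProjection_of_mem_of_inner_eq_zero ?_ fun w hw => ?_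
    · show (1 - z) (z v) = 0
      rw [← mul_apply_eq_comp, hz.2.1.one_sub_mul_self, zero_apply]
    · have hw' : (1 - z) w = 0 := hw
      have : v - z v = (1 - z) v := by simp
      rw [this, inner_sa hz.2.1.one_sub.isSelfAdjoint, hw', inner_zero_right]
  have hU : GoodProj hA U.starProjection := hUz ▸ hz
  refine ⟨U, this, cornerVN M (hA.1 _ hU.1), cornerAlg A hU.1, hU.1, fun t => Iff.rfl,
    fun t => Iff.rfl, isMASA_corner hA hU.1, isNormalCondExp_corner hA hU, fun ε hε => ?_⟩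
  generalize hn : pavingNumber (cornerVN M (hA.1 _ hU.1)) (cornerAlg A hU.1) ε = n
  induction n using ENat.recTopCoe with
  | top => simp
  | coe n =>
  obtain ⟨r, hr, hpav⟩ := exists_pavable_of_le hn.le
  refine (pavingNumber_le (r := r + (⌊1 / ε⌋₊ + 1)) (by omega) fun x hxM hx => ?_).trans
    (by rw [Nat.cast_add]; gcongr)
  refine soPavable_glue hA hz.1 hz.2.1 hzmax hxM hx (one_lt_mul_floor hε) fun F δ hδ => ?_
  have hzM := hA.1 _ hU.1
  obtain ⟨p, hp, a, haB, has, han, q, hqN, hq, hqF, hqn⟩ := hpav (cmp U x)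
    (by rw [mem_cornerVN, ext0_cmp]; exact mul_mem (mul_mem hzM hxM) hzM)
    (by rw [IsSelfAdjoint, ← cmp_star, hx.star_eq]) (F.image U.orthogonalProjectionOnto) δ hδ
  refine ⟨fun i => ext0 U (p i), fun i => ⟨hp.mem i, isStarProjection_ext0 (hp.proj i)⟩,
    fun i j hij => by rw [← ext0_mul, hp.2.1 i j hij, ext0_zero],
    by rw [← ext0_sum, hp.2.2, ext0_one, hUz], ext0 U a, haB,
    by rw [IsSelfAdjoint, ← ext0_star, has.star_eq], by rw [← hUz, proj_mul_ext0],
    (norm_ext0_le a).trans (han.trans (norm_cmp_le x)), ext0 U q, hqN, isStarProjection_ext0 hq,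
    by rw [← hUz, proj_mul_ext0], fun ξ hξ => ?_, ?_⟩
  · rw [← hUz, ← ext0_one, ← ext0_sub, ext0_apply, Submodule.norm_coe]
    exact hqF _ (Finset.mem_image_of_mem _ hξ)
  · have h1 : pinch (fun i => ext0 U (p i)) x = ext0 U (pinch p (cmp U x)) := by
      simp only [pinch, ext0_sum, ext0_mul, ext0_cmp]
      refine Finset.sum_congr rfl fun i _ => ?_
      rw [← mul_assoc, ← mul_assoc, ext0_mul_proj, mul_assoc _ U.starProjection, proj_mul_ext0]
    rw [h1, ← ext0_sub, ← ext0_mul, ← ext0_mul]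
    refine (norm_ext0_le _).trans (hqn.trans ?_)
    gcongr
    exact norm_cmp_le x

end Vale.Agent.P078
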