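import Vale.Agent.P078.Corner

open scoped InnerProductSpace ComplexOrder
open Filter Topology

set_option linter.unusedSectionVars false

namespace Vale.Agent.P078

variable {H : Type*} [NormedAddCommGroup H] [InnerProductSpace ℂ H] [CompleteSpace H]
variable {M : VonNeumannAlgebra H} {A : StarSubalgebra ℂ (H →L[ℂ] H)}

lemma WLim.pinch {ι : Type} [Fintype ι] (p : ι → H →L[ℂ] H) {α : Type*} {l : Filter α}
    {y : α → H →L[ℂ] H} {z : H →L[ℂ] H} (h : WLim l y z) :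
    WLim l (fun a => pinch p (y a)) (pinch p z) := by
  intro w v
  simp only [pinch_apply, inner_sum]
  exact tendsto_finset_sum _ fun i _ => ((h.mul_left (p i)).mul_right (p i)) w v

lemma IsPartition.adapted_self {ι : Type} [Fintype ι] {p : ι → H →L[ℂ] H}
    (hp : IsPartition A p) (j : ι) : Adapted p (p j) := by
  intro i
  by_cases h : j = i
  · left; rw [h, hp.mul_self]
  · right; exact hp.2.1 j i h

lemma re_vecFn_star_mul_self {κ : Type} [Fintype κ] (v : κ → H) (g : H →L[ℂ] H) :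
    (vecFn v v (star g * g)).re = ∑ k, ‖g (v k)‖ ^ 2 := by
  rw [vecFn_apply, Complex.re_sum]
  exact Finset.sum_congr rfl fun k _ => re_inner_star_mul_self g (v k)

/-- A bounded, `A`-central GNS-like map: either the vectors `ξ` are singular to it, or there is
a vector functional under which the ultralimit expectation is normal. -/
lemma singular_of_gns (hA : IsMASA M A) {K : Type*} [NormedAddCommGroup K] [InnerProductSpace ℂ K]
    [CompleteSpace K] (J : (H →L[ℂ] H) →ₗ[ℂ] K) (hJd : DenseRange J) {C : ℝ} (hC : 0 ≤ C)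
    (hJC : ∀ g, ‖J g‖ ≤ C * ‖g‖)
    (hJp : ∀ (P : Part A) (g y : H →L[ℂ] H), ⟪J (pinch P.q g), J y⟫_ℂ = ⟪J g, J (pinch P.q y)⟫_ℂ)
    {z : H →L[ℂ] H} (hzA : z ∈ A) (hzp : IsStarProjection z)
    (hz : ∀ p, GoodProj hA p → z * p = p) {κ : Type} [Fintype κ] (ξ : κ → H)
    (hξ : ∀ k, z (ξ k) = 0) {η : ℝ} (hη : 0 < η) :
    ∃ f ∈ M, IsSelfAdjoint f ∧ (∀ k, ‖ξ k - f (ξ k)‖ < η) ∧ ‖J f‖ < η := by
  classical
  by_contra hcon
  let Φ : (H →L[ℂ] H) → (κ → H) × K := fun f => (fun k => f (ξ k), J f)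
  let s : Set ((κ → H) × K) := Φ '' {f | f ∈ M ∧ IsSelfAdjoint f}
  have hsa_smul : ∀ (c : ℝ) (f : H →L[ℂ] H), IsSelfAdjoint f → IsSelfAdjoint (c • f) := by
    intro c f hf
    rw [IsSelfAdjoint, star_smul, hf.star_eq, star_trivial]
  have hΦs : ∀ (c : ℝ) (f : H →L[ℂ] H), Φ (c • f) = c • Φ f := by
    intro c f
    refine Prod.ext ?_ ?_
    · ext k; rfl
    · show J (c • f) = c • J f
      rw [← Complex.coe_smul, map_smul, Complex.coe_smul]
  have hΦa : ∀ f g : H →L[ℂ] H, Φ (f + g) = Φ f + Φ g := by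
    intro f g
    refine Prod.ext ?_ ?_
    · ext k; rfl
    · exact map_add J f g
  have hconv : Convex ℝ s := by
    rintro _ ⟨f, hf, rfl⟩ _ ⟨g, hg, rfl⟩ a b _ _ _
    exact ⟨a • f + b • g, ⟨add_mem (rsmul_mem_vN _ hf.1) (rsmul_mem_vN _ hg.1),
      (hsa_smul a f hf.2).add (hsa_smul b g hg.2)⟩, by rw [hΦa, hΦs, hΦs]⟩
  have hnot : ((ξ, 0) : (κ → H) × K) ∉ closure s := by
    intro h
    obtain ⟨_, ⟨f, hf, rfl⟩, hd⟩ := Metric.mem_closure_iff.mp h η hη
    rw [Prod.dist_eq, max_lt_iff] at hd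
    refine hcon ⟨f, hf.1, hf.2, fun k => ?_, ?_⟩
    · rw [← dist_eq_norm]
      exact (dist_le_pi_dist ξ (fun k => f (ξ k)) k).trans_lt hd.1
    · simpa [Φ] using hd.2
  obtain ⟨Λ, u, hu1, hu2⟩ := RCLike.geometric_hahn_banach_point_closed (𝕜 := ℂ)
    hconv.closure isClosed_closure hnot
  have hu0 : u < 0 := by
    have := hu2 (Φ 0) (subset_closure ⟨0, ⟨zero_mem _, IsSelfAdjoint.zero _⟩, rfl⟩)
    have h0 : Φ 0 = 0 := by simpa using hΦs 0 0
    simpa [h0] using this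
  have hΛ0 : ∀ f ∈ M, IsSelfAdjoint f → (Λ (Φ f)).re = 0 := by
    intro f hf hfs
    by_contra hne
    have := hu2 (Φ ((u / (Λ (Φ f)).re) • f))
      (subset_closure ⟨_, ⟨rsmul_mem_vN _ hf, hsa_smul _ f hfs⟩, rfl⟩)
    rw [hΦs, ← Complex.coe_smul, map_smul, smul_eq_mul, RCLike.re_to_complex,
      Complex.re_ofReal_mul, div_mul_cancel₀ _ hne] at this
    exact lt_irrefl _ this
  set α : κ → H := fun k => (InnerProductSpace.toDual ℂ H).symm
    (Λ.comp ((ContinuousLinearMap.inl ℂ (κ → H) K).comp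
      (ContinuousLinearMap.single ℂ (fun _ : κ => H) k))) with hα
  set β : K := (InnerProductSpace.toDual ℂ K).symm
    (Λ.comp (ContinuousLinearMap.inr ℂ (κ → H) K)) with hβ
  have hΛ : ∀ (v : κ → H) (w : K), Λ (v, w) = ∑ k, ⟪α k, v k⟫_ℂ + ⟪β, w⟫_ℂ := by
    intro v w
    simp only [hα, hβ, InnerProductSpace.toDual_symm_apply, ContinuousLinearMap.comp_apply,
      ← map_sum, ← map_add]
    congr 1
    simp [Finset.univ_sum_single]
  set ψ := vecFn (Sum.elim α ξ) (Sum.elim ξ α) with hψ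
  have hψsa : ∀ f : H →L[ℂ] H, IsSelfAdjoint f →
      ψ f = ((2 * (∑ k, ⟪α k, f (ξ k)⟫_ℂ).re : ℝ) : ℂ) := by
    intro f hf
    rw [hψ, vecFn_apply, Fintype.sum_sum_type, ← Complex.add_conj, map_sum]
    congr 1
    refine Finset.sum_congr rfl fun k _ => ?_
    simp only [Sum.elim_inr]
    rw [inner_conj_symm, inner_sa hf]
  have hψJ : ∀ f ∈ M, IsSelfAdjoint f → ψ f = ((-2 * (⟪β, J f⟫_ℂ).re : ℝ) : ℂ) := by
    intro f hf hfs
    have := hΛ0 f hf hfs
    rw [hΛ, Complex.add_re] at this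
    rw [hψsa f hfs]
    congr 1
    linarith
  have hψ1 : ψ 1 ≠ 0 := by
    rw [hψsa 1 (IsSelfAdjoint.one _)]
    rw [hΛ, inner_zero_right, add_zero, RCLike.re_to_complex] at hu1
    simp only [one_apply_eq_self]
    intro h
    have := Complex.ofReal_eq_zero.mp h
    linarith
  -- uniform approximation
  have happ_sa : ∀ ε : ℝ, 0 < ε → ∃ P0 : Part A, ∀ g ∈ M, IsSelfAdjoint g →
      ‖ψ (condE hA g) - ψ (pinch P0.q g)‖ ≤ ε * ‖g‖ := by
    intro ε hε
    set ε1 : ℝ := ε / (6 * (C + 1)) with hε1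
    have hε1p : 0 < ε1 := by positivity
    obtain ⟨y, hy⟩ := hJd.exists_dist_lt β hε1p
    rw [dist_eq_norm] at hy
    let N : Part A → ℝ := fun P => ‖J (pinch P.q y)‖ ^ 2
    have hbdd : BddBelow (Set.range N) := ⟨0, by rintro _ ⟨P, rfl⟩; positivity⟩
    have : Nonempty (Part A) := ⟨netPart hA ∅⟩
    obtain ⟨P0, hP0⟩ := exists_lt_of_ciInf_lt
      (show ⨅ P, N P < (⨅ P, N P) + ε1 ^ 2 by linarith [pow_pos hε1p 2])
    refine ⟨P0, fun g hg hgs => ?_⟩
    have hlim := (((wlim_condE hA g).vecFn (Sum.elim α ξ) (Sum.elim ξ α)).sub_const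
      (ψ (pinch P0.q g))).norm
    refine le_of_tendsto hlim ?_
    filter_upwards [eventually_refines hA P0.hq] with T hT
    set Q := netPart hA T with hQ
    have hclose : ‖J (pinch Q.q y) - J (pinch P0.q y)‖ ≤ ε1 := by
      have h1 : ⟪J (pinch Q.q y), J (pinch P0.q y)⟫_ℂ = ⟪J (pinch Q.q y), J (pinch Q.q y)⟫_ℂ := by
        conv_lhs => rw [← pinch_pinch_of_adapted Q.hq Q.hq Q.hq.adapted_self y, hJp,
          pinch_pinch_of_adapted P0.hq Q.hq hT]
      have h2 : ‖J (pinch Q.q y) - J (pinch P0.q y)‖ ^ 2 = N P0 - N Q := by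
        rw [@norm_sub_sq ℂ, h1, inner_self_eq_norm_sq]
        simp only [N]
        ring
      have h3 := ciInf_le hbdd Q
      apply abs_le_of_sq_le_sq' _ hε1p.le |>.2
      linarith
    rw [← hψ, hψJ _ (Q.hq.pinch_mem hA hg) (Q.hq.pinch_sa hgs),
      hψJ _ (P0.hq.pinch_mem hA hg) (P0.hq.pinch_sa hgs), ← Complex.ofReal_sub, Complex.norm_real,
      ← mul_sub, ← Complex.sub_re, ← inner_sub_right, norm_mul]
    have h4 : ⟪β, J (pinch Q.q g) - J (pinch P0.q g)⟫_ℂ =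
        ⟪β - J y, J (pinch Q.q g) - J (pinch P0.q g)⟫_ℂ +
          ⟪J (pinch Q.q y) - J (pinch P0.q y), J g⟫_ℂ := by
      rw [inner_sub_left β, inner_sub_left (J (pinch Q.q y)), hJp, hJp,
        inner_sub_right (J y)]
      ring
    have h5 : ‖J (pinch Q.q g) - J (pinch P0.q g)‖ ≤ C * ‖g‖ + C * ‖g‖ := by
      refine (norm_sub_le _ _).trans (add_le_add ((hJC _).trans ?_) ((hJC _).trans ?_))
      · gcongr; exact Q.hq.norm_pinch_le g
      · gcongr; exact P0.hq.norm_pinch_le g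
    have h6 : ‖⟪β, J (pinch Q.q g) - J (pinch P0.q g)⟫_ℂ‖ ≤
        ε1 * (C * ‖g‖ + C * ‖g‖) + ε1 * (C * ‖g‖) := by
      rw [h4]
      refine (norm_add_le _ _).trans (add_le_add ((norm_inner_le_norm _ _).trans ?_)
        ((norm_inner_le_norm _ _).trans ?_))
      · gcongr
      · gcongr; exact hJC g
    have h7 := (Complex.abs_re_le_norm _).trans h6
    rw [Real.norm_eq_abs, Real.norm_eq_abs]
    have h8 : ε1 * (6 * (C + 1)) = ε := by rw [hε1]; field_simp
    have h9 : |(-2 : ℝ)| = 2 := by norm_num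
    rw [h9]
    nlinarith [norm_nonneg g, mul_nonneg hε1p.le (norm_nonneg g)]
  have happ : ∀ ε : ℝ, 0 < ε → ∃ P0 : Part A, ∀ g ∈ M,
      ‖ψ (condE hA g) - ψ (pinch P0.q g)‖ ≤ ε * ‖g‖ := by
    intro ε hε
    obtain ⟨P0, hP0⟩ := happ_sa (ε / 2) (by positivity)
    refine ⟨P0, fun g hg => ?_⟩
    have hr : (realPart g : H →L[ℂ] H) ∈ M := by
      rw [realPart_apply_coe]; exact rsmul_mem_vN _ (add_mem hg (star_mem hg))
    have hi : (imaginaryPart g : H →L[ℂ] H) ∈ M := by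
      rw [imaginaryPart_apply_coe]
      exact smul_mem_vN _ (rsmul_mem_vN _ (sub_mem hg (star_mem hg)))
    have h1 := hP0 _ hr (realPart g).2
    have h2 := hP0 _ hi (imaginaryPart g).2
    have h3 : ‖(realPart g : H →L[ℂ] H)‖ ≤ ‖g‖ := realPart.norm_le g
    have h4 : ‖(imaginaryPart g : H →L[ℂ] H)‖ ≤ ‖g‖ := imaginaryPart.norm_le g
    have h5 : ψ (condE hA g) - ψ (pinch P0.q g) =
        (ψ (condE hA (realPart g)) - ψ (pinch P0.q (realPart g))) +
          Complex.I * (ψ (condE hA (imaginaryPart g)) - ψ (pinch P0.q (imaginaryPart g))) := by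
      conv_lhs => rw [← realPart_add_I_smul_imaginaryPart g]
      simp only [map_add, map_smul, pinch_add, pinch_smul, smul_eq_mul]
      ring
    rw [h5]
    refine (norm_add_le _ _).trans ?_
    rw [norm_mul, Complex.norm_I, one_mul]
    nlinarith
  have hnormal : ∀ a ∈ A, NormalFn M fun y => ψ (a * condE hA y) := by
    intro a ha
    refine NormalFn.of_approx fun ε hε => ?_
    obtain ⟨P0, hP0⟩ := happ (ε / (‖a‖ + 1)) (by positivity)
    refine ⟨fun y => ψ (pinch P0.q (a * y)), fun l y0 C _ _ _ h3 => ?_, fun y hy => ?_⟩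
    · exact ((h3.mul_left a).pinch P0.q).vecFn _ _
    · have h1 := condE_bimod hA ha (one_mem A) y
      rw [mul_one, mul_one] at h1
      rw [← h1]
      calc _ ≤ ε / (‖a‖ + 1) * ‖a * y‖ := hP0 _ (mul_mem (hA.1 a ha) hy)
        _ ≤ ε / (‖a‖ + 1) * ((‖a‖ + 1) * ‖y‖) := by
            gcongr
            exact (norm_mul_le _ _).trans (by gcongr; linarith)
        _ = ε * ‖y‖ := by field_simp
  obtain ⟨p, hpA, hp, h1, h2, h3⟩ := exists_support hA (Sum.elim α ξ) (Sum.elim ξ α)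
  have hgood := goodProj_of_normal hA _ _ hnormal hpA hp h3
  have h4 : p * z = 0 := h2 z hzA hzp fun a ha => by
    rw [vecFn_apply, Fintype.sum_sum_type]
    simp only [Sum.elim_inl, Sum.elim_inr]
    rw [Finset.sum_eq_zero, Finset.sum_eq_zero, add_zero]
    · intro k _
      rw [hA.2.1 a ha z hzA, mul_apply_eq_comp, ← inner_sa hzp.isSelfAdjoint, hξ, inner_zero_left]
    · intro k _
      rw [mul_apply_eq_comp, hξ, map_zero, inner_zero_right]
  have h5 : p = 0 := by rw [← hz p hgood, hA.2.1 z hzA p hpA, h4]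
  have h6 := h1 1 (one_mem _)
  rw [h5, mul_zero, map_zero] at h6
  exact hψ1 h6.symm

lemma singular_core (hA : IsMASA M A) {z : H →L[ℂ] H} (hzA : z ∈ A) (hzp : IsStarProjection z)
    (hz : ∀ p, GoodProj hA p → z * p = p) {κ : Type} [Fintype κ] (ξ : κ → H)
    (hξ : ∀ k, z (ξ k) = 0) {η : ℝ} (hη : 0 < η) {C : ℝ} (hC : 0 ≤ C) {α : Type*}
    (U : Ultrafilter α) (K : α → Type) [∀ a, Fintype (K a)] (v : ∀ a, K a → H)
    (hv1 : ∀ e ∈ A, IsStarProjection e →
      ∀ᶠ a in (U : Filter α), ∀ k, e (v a k) = v a k ∨ e (v a k) = 0)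
    (hv2 : ∀ a, ∑ k, ‖v a k‖ ^ 2 ≤ C) :
    ∃ f ∈ M, IsSelfAdjoint f ∧ (∀ k, ‖ξ k - f (ξ k)‖ < η) ∧
        ∀ᶠ a in (U : Filter α), ∑ k, ‖f (v a k)‖ ^ 2 < η := by
  have hb : ∀ T (y : H →L[ℂ] H), ‖vecFn (v T) (v T) y‖ ≤ C * ‖y‖ := by
    intro T y
    rw [vecFn_apply]
    calc _ ≤ ∑ k, ‖v T k‖ ^ 2 * ‖y‖ := by
          refine (norm_sum_le _ _).trans (Finset.sum_le_sum fun k _ => ?_)
          calc _ ≤ ‖v T k‖ * ‖y (v T k)‖ := norm_inner_le_norm _ _
            _ ≤ ‖v T k‖ * (‖y‖ * ‖v T k‖) := by gcongr; exact y.le_opNorm _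
            _ = _ := by ring
      _ ≤ C * ‖y‖ := by rw [← Finset.sum_mul]; gcongr; exact hv2 T
  choose L hL using fun y : H →L[ℂ] H => exists_ultra_lim U
    (fun T => vecFn (v T) (v T) y) _ (Eventually.of_forall fun T => hb T y)
  let θ0 : (H →L[ℂ] H) →ₗ[ℂ] ℂ :=
    { toFun := L
      map_add' := fun x y => tendsto_nhds_unique (hL (x + y))
        (by simpa only [map_add] using (hL x).add (hL y))
      map_smul' := fun c x => tendsto_nhds_unique (hL (c • x))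
        (by simpa only [map_smul, smul_eq_mul, RingHom.id_apply] using (hL x).const_mul c) }
  let θ : (H →L[ℂ] H) →ₚ[ℂ] ℂ := PositiveLinearMap.mk₀ θ0 fun x hx => by
    refine ge_of_tendsto' (hL x) fun T => ?_
    rw [vecFn_apply]
    exact Finset.sum_nonneg fun k _ =>
      ((ContinuousLinearMap.nonneg_iff_isPositive x).mp hx).inner_nonneg_right _
  have hθ : ∀ y, θ y = L y := fun y => rfl
  have hcentral : ∀ e ∈ A, IsStarProjection e → ∀ y, θ (e * y) = θ (y * e) := by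
    intro e heA he y
    refine tendsto_nhds_unique_of_eventuallyEq (hL (e * y)) (hL (y * e)) ?_
    filter_upwards [hv1 e heA he] with T hT
    rw [vecFn_apply, vecFn_apply]
    refine Finset.sum_congr rfl fun k _ => ?_
    rw [mul_apply_eq_comp, mul_apply_eq_comp, ← inner_sa he.isSelfAdjoint]
    rcases hT k with h | h
    · rw [h]
    · simp [h]
  let J : (H →L[ℂ] H) →ₗ[ℂ] θ.GNS :=
    (UniformSpace.Completion.toComplₗᵢ (𝕜 := ℂ) (E := θ.PreGNS)).toLinearMap ∘ₗ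
      θ.toPreGNS.toLinearMap
  have hJ : ∀ y, J y = ((θ.toPreGNS y : θ.PreGNS) : θ.GNS) := fun y => rfl
  have hJi : ∀ a b, ⟪J a, J b⟫_ℂ = θ (star a * b) := by
    intro a b
    rw [hJ, hJ, UniformSpace.Completion.inner_coe]
    rfl
  have hJn : ∀ g, Tendsto (fun T => ∑ k, ‖g (v T k)‖ ^ 2) U (𝓝 (‖J g‖ ^ 2)) := by
    intro g
    have h1 := (Complex.continuous_re.tendsto _).comp (hL (star g * g))
    rw [← hθ, ← hJi] at h1
    have h2 : (⟪J g, J g⟫_ℂ).re = ‖J g‖ ^ 2 := by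
      rw [inner_self_eq_norm_sq_to_K]; norm_cast
    rw [h2] at h1
    refine h1.congr fun T => ?_
    exact re_vecFn_star_mul_self (v T) g
  have hJC : ∀ g, ‖J g‖ ≤ √C * ‖g‖ := by
    intro g
    apply abs_le_of_sq_le_sq' _ (by positivity) |>.2
    rw [mul_pow, Real.sq_sqrt hC]
    refine le_of_tendsto' (hJn g) fun T => ?_
    calc _ ≤ ∑ k, ‖v T k‖ ^ 2 * ‖g‖ ^ 2 := by
          refine Finset.sum_le_sum fun k _ => ?_
          rw [← mul_pow, mul_comm]
          gcongr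
          exact g.le_opNorm _
      _ ≤ _ := by rw [← Finset.sum_mul]; gcongr; exact hv2 T
  have hJp : ∀ (P : Part A) (g y : H →L[ℂ] H),
      ⟪J (pinch P.q g), J y⟫_ℂ = ⟪J g, J (pinch P.q y)⟫_ℂ := by
    intro P g y
    rw [hJi, hJi, P.hq.star_pinch]
    simp only [pinch, Finset.sum_mul, Finset.mul_sum, map_sum]
    refine Finset.sum_congr rfl fun i _ => ?_
    have := hcentral _ (P.hq.mem i) (P.hq.proj i) (star g * P.q i * y)
    simpa only [mul_assoc] using this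
  have hJd : DenseRange J :=
    UniformSpace.Completion.denseRange_coe.comp θ.toPreGNS.surjective.denseRange
      (UniformSpace.Completion.continuous_coe _)
  obtain ⟨f, hfM, hfs, hf1, hf2⟩ := singular_of_gns hA J hJd (Real.sqrt_nonneg C) hJC hJp
    hzA hzp hz ξ hξ (lt_min hη (Real.sqrt_pos.mpr hη))
  have h1 : ‖J f‖ ^ 2 < η := by
    have := (lt_min_iff.mp hf2).2
    calc ‖J f‖ ^ 2 < √η ^ 2 := by gcongr
      _ = η := Real.sq_sqrt hη.le
  exact ⟨f, hfM, hfs, fun k => (lt_min_iff.mp (hf1 k)).1, (hJn f).eventually (gt_mem_nhds h1)⟩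

lemma Adapted.apply_blocked {ι : Type} [Fintype ι] {q : ι → H →L[ℂ] H} {e : H →L[ℂ] H}
    (h : Adapted q e) {v : H} (hv : ∃ i, q i v = v) : e v = v ∨ e v = 0 := by
  obtain ⟨i, hi⟩ := hv
  have h1 : e v = (e * q i) v := by rw [mul_apply_eq_comp, hi]
  rcases h i with h | h
  · left; rw [h1, h, hi]
  · right; rw [h1, h, zero_apply]

lemma singular (hA : IsMASA M A) {z : H →L[ℂ] H} (hzA : z ∈ A) (hzp : IsStarProjection z)
    (hz : ∀ p, GoodProj hA p → z * p = p) {κ : Type} [Fintype κ] (ξ : κ → H)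
    (hξ : ∀ k, z (ξ k) = 0) {η : ℝ} (hη : 0 < η) {C : ℝ} (hC : 0 ≤ C) :
    ∃ P : Part A, ∀ (K : Type) [Fintype K] (v : K → H), (∀ k, ∃ i, P.q i (v k) = v k) →
      ∑ k, ‖v k‖ ^ 2 ≤ C → ∃ f ∈ M, IsSelfAdjoint f ∧ (∀ k, ‖ξ k - f (ξ k)‖ < η) ∧
        ∑ k, ‖f (v k)‖ ^ 2 < η := by
  by_contra hcon
  push Not at hcon
  choose K inst v hv1 hv2 hv3 using fun T => hcon (netPart hA T)
  obtain ⟨f, hfM, hfs, hf1, hf2⟩ := singular_core hA hzA hzp hz ξ hξ hη hC (netU A) K v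
    (fun e heA he => (eventually_adapted hA heA he).mono fun T hT k =>
      hT.apply_blocked (hv1 T k)) hv2
  obtain ⟨T, hT⟩ := hf2.exists
  exact absurd (hv3 T f hfM hfs hf1) (not_le.mpr hT)

end Vale.Agent.P078
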