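import Vale.Agent.P078.Defs

open scoped InnerProductSpace

set_option linter.unusedSectionVars false

namespace Vale.Agent.P078

variable {H : Type*} [NormedAddCommGroup H] [InnerProductSpace ℂ H] [CompleteSpace H]

lemma commute_starProjection_of_invt (U : Submodule ℂ H) [U.HasOrthogonalProjection]
    (y : H →L[ℂ] H) (h1 : ∀ v ∈ U, y v ∈ U) (h2 : ∀ v ∈ U, (star y) v ∈ U) :
    Commute y U.starProjection := by
  have hk : IsStarProjection U.starProjection := isStarProjection_starProjection
  have key : ∀ z : H →L[ℂ] H, (∀ v ∈ U, z v ∈ U) →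
      U.starProjection * z * U.starProjection = z * U.starProjection := by
    intro z hz
    ext v
    simp only [mul_apply_eq_comp]
    exact Submodule.starProjection_eq_self_iff.mpr (hz _ (U.starProjection_apply_mem v))
  have e1 := key y h1
  have e2 := congrArg star (key (star y) h2)
  simp only [star_mul, star_star, hk.isSelfAdjoint.star_eq] at e2
  rw [← mul_assoc] at e2
  exact e1.symm.trans e2

/-- Spectral projection of a self-adjoint operator onto the positive half line. -/
lemma exists_sign_proj (b : H →L[ℂ] H) (hb : IsSelfAdjoint b) :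
    ∃ e : H →L[ℂ] H, IsStarProjection e ∧ (∀ y : H →L[ℂ] H, Commute y b → Commute y e) ∧
      e * b = b⁺ ∧ (1 - e) * b = -b⁻ := by
  set U : Submodule ℂ H := (b⁺ : H →L[ℂ] H).ker with hU
  have : CompleteSpace U := ContinuousLinearMap.completeSpace_ker _
  have hk : IsStarProjection U.starProjection := isStarProjection_starProjection
  have hcomm : ∀ y : H →L[ℂ] H, Commute y b → Commute y (b⁺) := by
    intro y hy
    rw [CFC.posPart_def]
    exact (hy.symm.cfcₙ_real _).symm
  have hinv : ∀ y : H →L[ℂ] H, Commute y b → ∀ v ∈ U, y v ∈ U := by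
    intro y hy v hv
    have hv' : (b⁺ : H →L[ℂ] H) v = 0 := hv
    have := congrArg (fun T : H →L[ℂ] H => T v) (hcomm y hy).eq
    simp only [mul_apply_eq_comp, hv', map_zero] at this
    exact this.symm
  have hpos : IsSelfAdjoint (b⁺ : H →L[ℂ] H) := (CFC.posPart_nonneg b).isSelfAdjoint
  have h1 : (b⁺ : H →L[ℂ] H) * U.starProjection = 0 := by
    ext v
    exact U.starProjection_apply_mem v
  have h2 : U.starProjection * (b⁺ : H →L[ℂ] H) = 0 := by
    have := congrArg star h1
    simpa [star_mul, hk.isSelfAdjoint.star_eq, hpos.star_eq] using this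
  have h3 : U.starProjection * (b⁻ : H →L[ℂ] H) = b⁻ := by
    ext v
    simp only [mul_apply_eq_comp]
    refine Submodule.starProjection_eq_self_iff.mpr ?_
    have := congrArg (fun T : H →L[ℂ] H => T v) (CFC.posPart_mul_negPart b)
    exact this
  have h4 : U.starProjection * b = -b⁻ := by
    conv_lhs => rw [← CFC.posPart_sub_negPart b hb]
    rw [mul_sub, h2, h3, zero_sub]
  refine ⟨1 - U.starProjection, hk.one_sub, ?_, ?_, ?_⟩
  · intro y hy
    have hy' : Commute (star y) b := by
      have := congrArg star hy.eq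
      simp only [star_mul, hb.star_eq] at this
      exact this.symm
    exact (Commute.one_right y).sub_right
      (commute_starProjection_of_invt U y (hinv y hy) (hinv _ hy'))
  · rw [sub_mul, one_mul, h4, sub_neg_eq_add]
    exact (sub_eq_iff_eq_add.mp (CFC.posPart_sub_negPart b hb)).symm
  · rw [sub_sub_cancel, h4]

lemma mem_of_commute_commutant (M : VonNeumannAlgebra H) (z : H →L[ℂ] H)
    (h : ∀ y ∈ M.commutant, Commute y z) : z ∈ M := by
  rw [← M.commutant_commutant, VonNeumannAlgebra.mem_commutant_iff]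
  exact fun g hg => (h g hg).eq

lemma commute_of_mem_commutant {M : VonNeumannAlgebra H} {y z : H →L[ℂ] H}
    (hy : y ∈ M.commutant) (hz : z ∈ M) : Commute y z :=
  (VonNeumannAlgebra.mem_commutant_iff.mp hy z hz).symm

lemma smul_mem_vN {M : VonNeumannAlgebra H} (c : ℂ) {z : H →L[ℂ] H} (hz : z ∈ M) :
    c • z ∈ M :=
  show c • z ∈ M.toStarSubalgebra from M.toStarSubalgebra.smul_mem hz c

lemma rsmul_mem_vN {M : VonNeumannAlgebra H} (c : ℝ) {z : H →L[ℂ] H} (hz : z ∈ M) :
    c • z ∈ M := by
  have := smul_mem_vN (c : ℂ) hz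
  rwa [Complex.coe_smul] at this

lemma rsmul_mem_sub {A : StarSubalgebra ℂ (H →L[ℂ] H)} (c : ℝ) {z : H →L[ℂ] H} (hz : z ∈ A) :
    c • z ∈ A := by
  have := A.smul_mem hz (c : ℂ)
  rwa [Complex.coe_smul] at this

variable {M : VonNeumannAlgebra H} {A : StarSubalgebra ℂ (H →L[ℂ] H)}

lemma IsMASA.mem_of_commute_sa (hA : IsMASA M A) {y : H →L[ℂ] H} (hy : y ∈ M)
    (hsa : IsSelfAdjoint y) (hc : ∀ a ∈ A, Commute a y) : y ∈ A := by
  obtain ⟨h1, h2, h3⟩ := hA
  set s : Set (H →L[ℂ] H) := insert y (A : Set (H →L[ℂ] H)) with hs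
  have hstar : ∀ a ∈ s, star a ∈ s := by
    rintro a (rfl | ha)
    · left; exact hsa.star_eq
    · right; exact star_mem ha
  have hcs : ∀ a ∈ s, ∀ b ∈ s, a * b = b * a := by
    rintro a (rfl | ha) b (rfl | hb)
    · rfl
    · exact (hc b hb).symm.eq
    · exact (hc a ha).eq
    · exact h2 a ha b hb
  have hB := h3 (StarAlgebra.adjoin ℂ s) ?_ ?_ ?_
  · rw [← hB]; exact StarAlgebra.subset_adjoin ℂ s (Or.inl rfl)
  · have : StarAlgebra.adjoin ℂ s ≤ M.toStarSubalgebra := by
      apply StarAlgebra.adjoin_le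
      rintro a (rfl | ha)
      · exact hy
      · exact h1 a ha
    exact fun b hb => this hb
  · intro a ha b hb
    have step : ∀ c ∈ s, ∀ b ∈ StarAlgebra.adjoin ℂ s, c * b = b * c := by
      intro c hc b hb
      have : StarAlgebra.adjoin ℂ s ≤ StarSubalgebra.centralizer ℂ s := by
        apply StarAlgebra.adjoin_le
        intro d hd
        rw [SetLike.mem_coe, StarSubalgebra.mem_centralizer_iff]
        exact fun g hg => ⟨hcs g hg d hd, hcs _ (hstar g hg) d hd⟩
      exact ((StarSubalgebra.mem_centralizer_iff ℂ).mp (this hb) c hc).1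
    have : StarAlgebra.adjoin ℂ s ≤
        StarSubalgebra.centralizer ℂ (StarAlgebra.adjoin ℂ s : Set (H →L[ℂ] H)) := by
      apply StarAlgebra.adjoin_le
      intro d hd
      rw [SetLike.mem_coe, StarSubalgebra.mem_centralizer_iff]
      exact fun g hg => ⟨(step d hd g hg).symm, (step d hd _ (star_mem hg)).symm⟩
    exact ((StarSubalgebra.mem_centralizer_iff ℂ).mp (this hb) a ha).1
  · intro a ha
    exact StarAlgebra.subset_adjoin ℂ s (Or.inr ha)

lemma IsMASA.mem_of_commute (hA : IsMASA M A) {y : H →L[ℂ] H} (hy : y ∈ M)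
    (hc : ∀ a ∈ A, Commute a y) : y ∈ A := by
  have hc' : ∀ a ∈ A, Commute a (star y) := by
    intro a ha
    have := congrArg star (hc _ (star_mem ha)).eq
    simp only [star_mul, star_star] at this
    exact this.symm
  have hr : y + star y ∈ A := by
    refine hA.mem_of_commute_sa (add_mem hy (star_mem hy)) (IsSelfAdjoint.add_star_self y) ?_
    exact fun a ha => (hc a ha).add_right (hc' a ha)
  have hi : Complex.I • (y - star y) ∈ A := by
    refine hA.mem_of_commute_sa (smul_mem_vN _ (sub_mem hy (star_mem hy))) ?_ ?_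
    · rw [IsSelfAdjoint, star_smul, star_sub, star_star]
      simp [smul_sub]
      abel
    · exact fun a ha => ((hc a ha).sub_right (hc' a ha)).smul_right _
  have : y = (1 / 2 : ℂ) • ((y + star y) - Complex.I • (Complex.I • (y - star y))) := by
    rw [smul_smul, Complex.I_mul_I]
    module
  rw [this]
  exact A.smul_mem (sub_mem hr (A.smul_mem hi _)) _

lemma IsMASA.exists_sign_proj (hA : IsMASA M A) {b : H →L[ℂ] H} (hbA : b ∈ A)
    (hb : IsSelfAdjoint b) :
    ∃ e ∈ A, IsStarProjection e ∧ e * b = b⁺ ∧ (1 - e) * b = -b⁻ := by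
  obtain ⟨e, he, hc, h1, h2⟩ := Vale.Agent.P078.exists_sign_proj b hb
  refine ⟨e, ?_, he, h1, h2⟩
  refine hA.mem_of_commute (mem_of_commute_commutant M e fun y hy => hc y ?_) ?_
  · exact commute_of_mem_commutant hy (hA.1 b hbA)
  · exact fun a ha => hc a (hA.2.1 a ha b hbA)

lemma re_inner_nonneg_of_nonneg {b : H →L[ℂ] H} (hb : 0 ≤ b) (v : H) :
    0 ≤ (⟪v, b v⟫_ℂ).re :=
  ((ContinuousLinearMap.nonneg_iff_isPositive b).mp hb).re_inner_nonneg_right v

lemma proj_apply_apply {e : H →L[ℂ] H} (he : IsStarProjection e) (v : H) : e (e v) = e v := by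
  have := congrArg (fun T : H →L[ℂ] H => T v) he.isIdempotentElem.eq
  exact this

lemma inner_sa {e : H →L[ℂ] H} (he : IsSelfAdjoint e) (v w : H) : ⟪e v, w⟫_ℂ = ⟪v, e w⟫_ℂ :=
  (ContinuousLinearMap.isSelfAdjoint_iff_isSymmetric.mp he) v w

lemma inner_star_left (y : H →L[ℂ] H) (v w : H) : ⟪star y v, w⟫_ℂ = ⟪v, y w⟫_ℂ :=
  ContinuousLinearMap.adjoint_inner_left y w v

lemma inner_star_right (y : H →L[ℂ] H) (v w : H) : ⟪v, star y w⟫_ℂ = ⟪y v, w⟫_ℂ :=
  ContinuousLinearMap.adjoint_inner_right y v w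

lemma re_inner_star_mul_self (y : H →L[ℂ] H) (v : H) : (⟪v, (star y * y) v⟫_ℂ).re = ‖y v‖ ^ 2 := by
  rw [mul_apply_eq_comp, inner_star_right, inner_self_eq_norm_sq_to_K]
  norm_cast

lemma re_inner_self (v : H) : (⟪v, v⟫_ℂ).re = ‖v‖ ^ 2 := by
  rw [inner_self_eq_norm_sq_to_K]
  norm_cast

lemma norm_proj_apply_le {e : H →L[ℂ] H} (he : IsStarProjection e) (v : H) : ‖e v‖ ≤ ‖v‖ := by
  calc ‖e v‖ ≤ ‖e‖ * ‖v‖ := e.le_opNorm v
    _ ≤ 1 * ‖v‖ := by gcongr; exact he.norm_le
    _ = ‖v‖ := one_mul _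

/-- Cutting off: an operator that is small on a vector is small on a large projection. -/
lemma exists_cut_proj (M : VonNeumannAlgebra H) {d : H →L[ℂ] H} (hd : d ∈ M) {t : ℝ}
    (ht : 0 < t) :
    ∃ q ∈ M, IsStarProjection q ∧ (∀ y : H →L[ℂ] H, Commute y (star d * d) → Commute y q) ∧
      ‖d * q‖ ≤ t ∧ ∀ v, t * ‖(1 - q) v‖ ≤ ‖d v‖ := by
  set b : H →L[ℂ] H := star d * d - (t ^ 2 : ℝ) • (1 : H →L[ℂ] H) with hbdef
  have hb : IsSelfAdjoint b := by
    refine (IsSelfAdjoint.star_mul_self d).sub ?_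
    rw [IsSelfAdjoint, star_smul, star_one, star_trivial]
  obtain ⟨e, he, hc, h1, h2⟩ := exists_sign_proj b hb
  have hc' : ∀ y : H →L[ℂ] H, Commute y (star d * d) → Commute y e := fun y hy =>
    hc y (hy.sub_right ((Commute.one_right y).smul_right _))
  have hbe : Commute b e := hc b (Commute.refl b)
  have hq := he.one_sub
  have hinner : ∀ w, (⟪w, b w⟫_ℂ).re = ‖d w‖ ^ 2 - t ^ 2 * ‖w‖ ^ 2 := by
    intro w
    rw [hbdef, sub_apply, inner_sub_right, Complex.sub_re,
      re_inner_star_mul_self, smul_apply, one_apply_eq_self,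
      ← Complex.coe_smul, inner_smul_right, Complex.re_ofReal_mul, re_inner_self]
  refine ⟨1 - e, ?_, hq, fun y hy => (Commute.one_right y).sub_right (hc' y hy), ?_, ?_⟩
  · refine sub_mem (one_mem _) (mem_of_commute_commutant M e fun y hy => hc' y ?_)
    exact commute_of_mem_commutant hy (mul_mem (star_mem hd) hd)
  · refine ContinuousLinearMap.opNorm_le_bound _ ht.le fun v => ?_
    set w := (1 - e) v with hw
    have hww : (1 - e) w = w := proj_apply_apply hq v
    have h3 : (⟪w, b w⟫_ℂ).re ≤ 0 := by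
      have h4 : ⟪w, b w⟫_ℂ = -⟪w, (b⁻ : H →L[ℂ] H) w⟫_ℂ := by
        rw [← inner_neg_right, ← neg_apply, ← h2, mul_apply_eq_comp,
          ← inner_sa hq.isSelfAdjoint, hww]
      rw [h4, Complex.neg_re, neg_nonpos]
      exact re_inner_nonneg_of_nonneg (CFC.negPart_nonneg b) w
    rw [hinner] at h3
    have h5 : ‖w‖ ≤ ‖v‖ := norm_proj_apply_le hq v
    have h6 : ‖d w‖ ≤ t * ‖w‖ := by
      apply abs_le_of_sq_le_sq' _ (by positivity) |>.2
      nlinarith
    calc ‖(d * (1 - e)) v‖ = ‖d w‖ := rfl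
      _ ≤ t * ‖w‖ := h6
      _ ≤ t * ‖v‖ := by gcongr
  · intro v
    rw [sub_sub_cancel]
    have hdd : Commute (star d * d) e := hc' _ (Commute.refl _)
    have h3 : 0 ≤ (⟪e v, b (e v)⟫_ℂ).re := by
      have h4 : ⟪e v, b (e v)⟫_ℂ = ⟪e v, (b⁺ : H →L[ℂ] H) (e v)⟫_ℂ := by
        rw [← h1, mul_apply_eq_comp, ← inner_sa he.isSelfAdjoint, proj_apply_apply he]
      rw [h4]
      exact re_inner_nonneg_of_nonneg (CFC.posPart_nonneg b) _
    rw [hinner] at h3
    have h5 : ‖d v‖ ^ 2 = ‖d (e v)‖ ^ 2 + ‖d ((1 - e) v)‖ ^ 2 := by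
      have h6 : d v = d (e v) + d ((1 - e) v) := by
        rw [← map_add]; simp
      have h7 : ⟪d (e v), d ((1 - e) v)⟫_ℂ = 0 := by
        rw [← inner_star_right, inner_sa he.isSelfAdjoint]
        have h8 : e * (star d * d) * (1 - e) = 0 := by
          rw [← hdd.eq, mul_assoc, he.mul_one_sub_self, mul_zero]
        have h9 := congrArg (fun T : H →L[ℂ] H => T v) h8
        simp only [mul_apply_eq_comp, zero_apply] at h9
        rw [h9, inner_zero_right]
      rw [h6, sq, sq, sq]
      exact norm_add_sq_eq_norm_sq_add_norm_sq_of_inner_eq_zero _ _ h7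
    apply abs_le_of_sq_le_sq' _ (by positivity) |>.2
    nlinarith [sq_nonneg ‖d ((1 - e) v)‖]

/-- An operator commuting with all projections of a MASA commutes with the MASA. -/
lemma IsMASA.commute_of_proj (hA : IsMASA M A) {y : H →L[ℂ] H}
    (hy : ∀ e ∈ A, IsStarProjection e → Commute e y) : ∀ a ∈ A, Commute a y := by
  have step : ∀ n : ℕ, ∀ a ∈ A, IsSelfAdjoint a → ∀ c : ℝ, 0 ≤ c → ‖a‖ ≤ c →
      ‖a * y - y * a‖ ≤ 2 * c * ‖y‖ / 2 ^ n := by
    intro n
    induction n with
    | zero =>
      intro a _ _ c _ hc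
      calc ‖a * y - y * a‖ ≤ ‖a‖ * ‖y‖ + ‖y‖ * ‖a‖ :=
            (norm_sub_le _ _).trans (add_le_add (norm_mul_le _ _) (norm_mul_le _ _))
        _ ≤ c * ‖y‖ + ‖y‖ * c := by gcongr
        _ = _ := by ring
    | succ n ih =>
      intro a haA ha c hc0 hc
      obtain ⟨e, heA, he, h1, h2⟩ := hA.exists_sign_proj haA ha
      set s : H →L[ℂ] H := e - (1 - e) with hs
      have hsA : s ∈ A := sub_mem heA (sub_mem (one_mem _) heA)
      have hssa : IsSelfAdjoint s := he.isSelfAdjoint.sub he.one_sub.isSelfAdjoint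
      have hss : s * s = 1 := by
        rw [hs, sub_mul, mul_sub e e, mul_sub (1 - e) e, he.isIdempotentElem.eq,
          he.mul_one_sub_self, he.one_sub_mul_self, he.one_sub.isIdempotentElem.eq]
        abel
      have hsa : 0 ≤ s * a := by
        rw [hs, sub_mul, h1, h2, sub_neg_eq_add]
        exact add_nonneg (CFC.posPart_nonneg a) (CFC.negPart_nonneg a)
      have hcomm : a * s = s * a := hA.2.1 a haA s hsA
      set a' : H →L[ℂ] H := a - (c / 2 : ℝ) • s with ha'
      have ha'A : a' ∈ A := sub_mem haA (rsmul_mem_sub _ hsA)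
      have ha'sa : IsSelfAdjoint a' := by
        refine ha.sub ?_
        rw [IsSelfAdjoint, star_smul, hssa.star_eq, star_trivial]
      have hnorm : ‖a'‖ ≤ c / 2 := by
        refine ContinuousLinearMap.opNorm_le_bound _ (by positivity) fun v => ?_
        have hsn : ‖s v‖ = ‖v‖ := by
          have h3 : ‖s v‖ ^ 2 = ‖v‖ ^ 2 := by
            rw [← re_inner_star_mul_self, hssa.star_eq, hss, one_apply_eq_self,
              re_inner_self]
          exact (sq_eq_sq₀ (norm_nonneg _) (norm_nonneg _)).mp h3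
        have hpos : ‖(s * a) v‖ ^ 2 ≤ c * (⟪v, (s * a) v⟫_ℂ).re := by
          have h4 : ‖s * a‖ ≤ c := by
            refine ContinuousLinearMap.opNorm_le_bound _ hc0 fun w => ?_
            have h5 : ‖s (a w)‖ ^ 2 = ‖a w‖ ^ 2 := by
              rw [← re_inner_star_mul_self, hssa.star_eq, hss, one_apply_eq_self,
                re_inner_self]
            have h6 := (sq_eq_sq₀ (norm_nonneg _) (norm_nonneg _)).mp h5
            calc ‖(s * a) w‖ = ‖a w‖ := h6
              _ ≤ ‖a‖ * ‖w‖ := a.le_opNorm w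
              _ ≤ c * ‖w‖ := by gcongr
          have h7 : (s * a) * (s * a) ≤ c • (s * a) := by
            have h8 : s * a ≤ algebraMap ℝ (H →L[ℂ] H) c :=
              (IsSelfAdjoint.le_algebraMap_norm_self hsa.isSelfAdjoint).trans
                (by
                  rw [Algebra.algebraMap_eq_smul_one, Algebra.algebraMap_eq_smul_one]
                  exact smul_le_smul_of_nonneg_right h4 zero_le_one)
            have h9 : 0 ≤ (s * a) * (algebraMap ℝ (H →L[ℂ] H) c - s * a) :=
              Commute.mul_nonneg hsa (sub_nonneg.mpr h8)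
                ((Algebra.commutes c (s * a)).symm |> fun h => Commute.sub_right h (Commute.refl _))
            rw [mul_sub, ← Algebra.commutes, ← Algebra.smul_def] at h9
            exact sub_nonneg.mp h9
          have h10 := re_inner_nonneg_of_nonneg (sub_nonneg.mpr h7) v
          rw [sub_apply, inner_sub_right, Complex.sub_re,
            smul_apply, ← Complex.coe_smul, inner_smul_right,
            Complex.re_ofReal_mul] at h10
          have h11 := re_inner_star_mul_self (s * a) v
          rw [hsa.isSelfAdjoint.star_eq] at h11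
          linarith
        have h12 : ‖a v‖ = ‖(s * a) v‖ := by
          have h5 : ‖s (a v)‖ ^ 2 = ‖a v‖ ^ 2 := by
            rw [← re_inner_star_mul_self, hssa.star_eq, hss, one_apply_eq_self,
              re_inner_self]
          exact ((sq_eq_sq₀ (norm_nonneg _) (norm_nonneg _)).mp h5).symm
        have h13 : ‖a' v‖ ^ 2 = ‖a v‖ ^ 2 - c * (⟪v, (s * a) v⟫_ℂ).re + (c / 2) ^ 2 * ‖v‖ ^ 2 := by
          rw [ha', sub_apply, @norm_sub_sq ℂ, smul_apply,
            norm_smul, hsn, ← Complex.coe_smul, inner_smul_right, ← inner_conj_symm,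
            inner_sa hssa]
          simp only [mul_apply_eq_comp, RCLike.re_to_complex, Complex.re_ofReal_mul,
            Complex.conj_re, Real.norm_eq_abs, mul_pow, sq_abs]
          ring
        apply abs_le_of_sq_le_sq' _ (by positivity) |>.2
        rw [h13, h12]
        nlinarith
      have hsy : Commute s y := (hy e heA he).sub_left
        ((Commute.one_left y).sub_left (hy e heA he))
      have heq : a * y - y * a = a' * y - y * a' := by
        rw [ha', sub_mul, mul_sub, smul_mul_assoc, mul_smul_comm, hsy.eq]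
        abel
      rw [heq]
      calc _ ≤ 2 * (c / 2) * ‖y‖ / 2 ^ n := ih a' ha'A ha'sa (c / 2) (by positivity) hnorm
        _ = _ := by ring
  have hsa : ∀ a ∈ A, IsSelfAdjoint a → Commute a y := by
    intro a haA ha
    have hlim : Filter.Tendsto (fun n : ℕ => 2 * ‖a‖ * ‖y‖ / 2 ^ n) Filter.atTop (nhds 0) :=
      tendsto_const_nhds.div_atTop (tendsto_pow_atTop_atTop_of_one_lt one_lt_two)
    have := ge_of_tendsto' hlim fun n => step n a haA ha ‖a‖ (norm_nonneg _) le_rfl
    exact sub_eq_zero.mp (norm_le_zero_iff.mp this)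
  intro a ha
  have hr : Commute (a + star a) y :=
    hsa _ (add_mem ha (star_mem ha)) (IsSelfAdjoint.add_star_self a)
  have hi : Commute (Complex.I • (a - star a)) y := by
    refine hsa _ (A.smul_mem (sub_mem ha (star_mem ha)) _) ?_
    rw [IsSelfAdjoint, star_smul, star_sub, star_star]
    simp [smul_sub]
    abel
  have : a = (1 / 2 : ℂ) • ((a + star a) - Complex.I • (Complex.I • (a - star a))) := by
    rw [smul_smul, Complex.I_mul_I]
    module
  rw [this]
  exact (hr.sub_left (hi.smul_left _)).smul_left _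

end Vale.Agent.P078
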