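import Vale.Agent.P078.Pinch

open scoped InnerProductSpace
open Filter Topology

set_option linter.unusedSectionVars false

namespace Vale.Agent.P078

variable {H : Type*} [NormedAddCommGroup H] [InnerProductSpace ℂ H] [CompleteSpace H]
variable {M : VonNeumannAlgebra H} {A : StarSubalgebra ℂ (H →L[ℂ] H)}

lemma exists_ultra_lim {α : Type*} (U : Ultrafilter α) (f : α → ℂ) (C : ℝ)
    (hC : ∀ᶠ a in (U : Filter α), ‖f a‖ ≤ C) : ∃ z, Tendsto f U (𝓝 z) := by
  have h := (isCompact_closedBall (0 : ℂ) C).ultrafilter_le_nhds (U.map f) (by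
    rw [Ultrafilter.coe_map, le_principal_iff, mem_map]
    filter_upwards [hC] with a ha
    simpa using ha)
  obtain ⟨z, _, hz⟩ := h
  exact ⟨z, hz⟩

/-- Convergence in the weak operator topology along a filter. -/
def WLim {α : Type*} (l : Filter α) (y : α → H →L[ℂ] H) (z : H →L[ℂ] H) : Prop :=
  ∀ w v : H, Tendsto (fun a => ⟪w, y a v⟫_ℂ) l (𝓝 ⟪w, z v⟫_ℂ)

section
variable {α : Type*} {l : Filter α} {y y' : α → H →L[ℂ] H} {z z' : H →L[ℂ] H}

lemma WLim.unique [l.NeBot] (h : WLim l y z) (h' : WLim l y z') : z = z' := by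
  ext v
  exact ext_inner_left ℂ fun w => tendsto_nhds_unique (h w v) (h' w v)

lemma WLim.const (z : H →L[ℂ] H) : WLim l (fun _ => z) z := fun _ _ => tendsto_const_nhds

lemma WLim.congr' (h : WLim l y z) (hy : ∀ᶠ a in l, y a = y' a) : WLim l y' z := fun w v =>
  (h w v).congr' (hy.mono fun a ha => by simp only [ha])

lemma WLim.mono {l' : Filter α} (h : WLim l y z) (hl : l' ≤ l) : WLim l' y z := fun w v =>
  (h w v).mono_left hl

lemma WLim.add (h : WLim l y z) (h' : WLim l y' z') : WLim l (fun a => y a + y' a) (z + z') := by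
  intro w v
  simpa [inner_add_right] using (h w v).add (h' w v)

lemma WLim.sub (h : WLim l y z) (h' : WLim l y' z') : WLim l (fun a => y a - y' a) (z - z') := by
  intro w v
  simpa [inner_sub_right] using (h w v).sub (h' w v)

lemma WLim.smul (h : WLim l y z) (c : ℂ) : WLim l (fun a => c • y a) (c • z) := by
  intro w v
  simpa [inner_smul_right] using (h w v).const_mul c

lemma WLim.mul_left (h : WLim l y z) (b : H →L[ℂ] H) : WLim l (fun a => b * y a) (b * z) := by
  intro w v
  simpa [mul_apply_eq_comp, inner_star_left] using h (star b w) v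

lemma WLim.mul_right (h : WLim l y z) (b : H →L[ℂ] H) : WLim l (fun a => y a * b) (z * b) :=
  fun w v => h w (b v)

lemma WLim.star (h : WLim l y z) : WLim l (fun a => star (y a)) (star z) := by
  intro w v
  simp only [inner_star_right]
  have := (Complex.continuous_conj.tendsto _).comp (h v w)
  simpa [Function.comp_def, inner_conj_symm] using this

lemma WLim.norm_le [l.NeBot] (h : WLim l y z) {C : ℝ} (hC0 : 0 ≤ C) (hC : ∀ᶠ a in l, ‖y a‖ ≤ C) :
    ‖z‖ ≤ C := by
  refine ContinuousLinearMap.opNorm_le_bound _ hC0 fun v => ?_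
  have h1 : ‖⟪z v, z v⟫_ℂ‖ ≤ ‖z v‖ * (C * ‖v‖) := by
    refine le_of_tendsto (h (z v) v).norm ?_
    filter_upwards [hC] with a ha
    calc ‖⟪z v, y a v⟫_ℂ‖ ≤ ‖z v‖ * ‖y a v‖ := norm_inner_le_norm _ _
      _ ≤ ‖z v‖ * (‖y a‖ * ‖v‖) := by gcongr; exact (y a).le_opNorm v
      _ ≤ _ := by gcongr
  rw [inner_self_eq_norm_sq_to_K] at h1
  simp only [norm_pow, Complex.coe_algebraMap, Complex.norm_real, norm_norm] at h1
  rcases (norm_nonneg (z v)).eq_or_lt with h0 | h0
  · rw [← h0]; positivity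
  · nlinarith

lemma WLim.commute [l.NeBot] (h : WLim l y z) {b : H →L[ℂ] H}
    (hb : ∀ᶠ a in l, Commute b (y a)) : Commute b z :=
  ((h.mul_left b).congr' (hb.mono fun _ ha => ha.eq)).unique (h.mul_right b)

lemma WLim.mem [l.NeBot] (h : WLim l y z) (hy : ∀ᶠ a in l, y a ∈ M) : z ∈ M :=
  mem_of_commute_commutant M z fun _ hb =>
    h.commute (hy.mono fun _ ha => commute_of_mem_commutant hb ha)

lemma WLim.isPositive [l.NeBot] (h : WLim l y z) (hy : ∀ᶠ a in l, (y a).IsPositive) :
    z.IsPositive := by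
  have hsa : IsSelfAdjoint z :=
    (h.star.congr' (hy.mono fun a ha => ha.isSelfAdjoint.star_eq)).unique h
  refine ContinuousLinearMap.isPositive_def'.mpr ⟨hsa, fun v => ?_⟩
  have h1 : Tendsto (fun a => (⟪v, y a v⟫_ℂ).re) l (𝓝 (⟪v, z v⟫_ℂ).re) :=
    (Complex.continuous_re.tendsto _).comp (h v v)
  have h2 : 0 ≤ (⟪v, z v⟫_ℂ).re :=
    ge_of_tendsto h1 (hy.mono fun a ha => ha.re_inner_nonneg_right v)
  rw [ContinuousLinearMap.reApplyInnerSelf_apply, inner_sa hsa]
  exact h2

lemma exists_wlim (U : Ultrafilter α) (y : α → H →L[ℂ] H) (C : ℝ)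
    (hC : ∀ᶠ a in (U : Filter α), ‖y a‖ ≤ C) : ∃ z, WLim U y z := by
  have hb : ∀ w v : H, ∀ᶠ a in (U : Filter α), ‖⟪w, y a v⟫_ℂ‖ ≤ C * ‖w‖ * ‖v‖ := by
    intro w v
    filter_upwards [hC] with a ha
    calc ‖⟪w, y a v⟫_ℂ‖ ≤ ‖w‖ * ‖y a v‖ := norm_inner_le_norm _ _
      _ ≤ ‖w‖ * (‖y a‖ * ‖v‖) := by gcongr; exact (y a).le_opNorm v
      _ ≤ ‖w‖ * (C * ‖v‖) := by gcongr
      _ = _ := by ring
  choose L hL using fun w v : H => exists_ultra_lim U (fun a => ⟪w, y a v⟫_ℂ) _ (hb w v)
  let B0 : H →ₗ⋆[ℂ] H →ₗ[ℂ] ℂ := LinearMap.mk₂'ₛₗ (starRingEnd ℂ) (RingHom.id ℂ) L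
    (fun w w' v => tendsto_nhds_unique (hL (w + w') v)
      (by simpa [inner_add_left] using (hL w v).add (hL w' v)))
    (fun c w v => tendsto_nhds_unique (hL (c • w) v)
      (by simpa only [inner_smul_left, smul_eq_mul] using (hL w v).const_mul (starRingEnd ℂ c)))
    (fun w v v' => tendsto_nhds_unique (hL w (v + v'))
      (by simpa [inner_add_right] using (hL w v).add (hL w v')))
    (fun c w v => tendsto_nhds_unique (hL w (c • v))
      (by simpa [inner_smul_right] using (hL w v).const_mul c))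
  let B : H →L⋆[ℂ] H →L[ℂ] ℂ := B0.mkContinuous₂ C fun w v =>
    le_of_tendsto (hL w v).norm (hb w v)
  refine ⟨star (InnerProductSpace.continuousLinearMapOfBilin B), fun w v => ?_⟩
  rw [inner_star_right, InnerProductSpace.continuousLinearMapOfBilin_apply]
  exact hL w v

end

/-- The ultralimit of the pinchings. -/
noncomputable def condE0 (hA : IsMASA M A) (y : H →L[ℂ] H) : H →L[ℂ] H :=
  (exists_wlim (netU A) (fun T => pinch (netPart hA T).q y) ‖y‖
    (Eventually.of_forall fun T => (netPart hA T).hq.norm_pinch_le y)).choose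

lemma wlim_condE0 (hA : IsMASA M A) (y : H →L[ℂ] H) :
    WLim (netU A : Filter _) (fun T => pinch (netPart hA T).q y) (condE0 hA y) :=
  (exists_wlim (netU A) (fun T => pinch (netPart hA T).q y) ‖y‖
    (Eventually.of_forall fun T => (netPart hA T).hq.norm_pinch_le y)).choose_spec

/-- The ultralimit of the pinchings as a linear map. -/
noncomputable def condE (hA : IsMASA M A) : (H →L[ℂ] H) →ₗ[ℂ] (H →L[ℂ] H) where
  toFun := condE0 hA
  map_add' x y := (wlim_condE0 hA (x + y)).unique
    (((wlim_condE0 hA x).add (wlim_condE0 hA y)).congr'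
      (Eventually.of_forall fun _ => (pinch_add x y).symm))
  map_smul' c x := (wlim_condE0 hA (c • x)).unique
    (((wlim_condE0 hA x).smul c).congr' (Eventually.of_forall fun _ => (pinch_smul c x).symm))

lemma wlim_condE (hA : IsMASA M A) (y : H →L[ℂ] H) :
    WLim (netU A : Filter _) (fun T => pinch (netPart hA T).q y) (condE hA y) :=
  wlim_condE0 hA y

lemma norm_condE_le (hA : IsMASA M A) (y : H →L[ℂ] H) : ‖condE hA y‖ ≤ ‖y‖ :=
  (wlim_condE hA y).norm_le (norm_nonneg _)
    (Eventually.of_forall fun T => (netPart hA T).hq.norm_pinch_le y)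

lemma condE_mem (hA : IsMASA M A) {y : H →L[ℂ] H} (hy : y ∈ M) : condE hA y ∈ A := by
  refine hA.mem_of_commute ((wlim_condE hA y).mem
    (Eventually.of_forall fun T => (netPart hA T).hq.pinch_mem hA hy)) ?_
  refine hA.commute_of_proj fun e heA he => (wlim_condE hA y).commute ?_
  exact (eventually_adapted hA heA he).mono fun T hT =>
    hT.commute_pinch (netPart hA T).hq he.isSelfAdjoint y

lemma condE_bimod (hA : IsMASA M A) {a b : H →L[ℂ] H} (ha : a ∈ A) (hb : b ∈ A)
    (y : H →L[ℂ] H) : condE hA (a * y * b) = a * condE hA y * b :=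
  (wlim_condE hA _).unique ((((wlim_condE hA y).mul_left a).mul_right b).congr'
    (Eventually.of_forall fun T => ((netPart hA T).hq.pinch_bimod hA ha hb y).symm))

lemma condE_of_mem (hA : IsMASA M A) {a : H →L[ℂ] H} (ha : a ∈ A) : condE hA a = a :=
  (wlim_condE hA _).unique ((WLim.const a).congr'
    (Eventually.of_forall fun T => ((netPart hA T).hq.pinch_of_mem hA ha).symm))

lemma condE_star (hA : IsMASA M A) (y : H →L[ℂ] H) : star (condE hA y) = condE hA (star y) :=
  ((wlim_condE hA y).star.congr'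
    (Eventually.of_forall fun T => (netPart hA T).hq.star_pinch y)).unique (wlim_condE hA _)

lemma condE_pos (hA : IsMASA M A) {y : H →L[ℂ] H} (hy : y.IsPositive) :
    (condE hA y).IsPositive :=
  (wlim_condE hA y).isPositive (Eventually.of_forall fun T => (netPart hA T).hq.pinch_pos hy)

lemma condE_pinch (hA : IsMASA M A) {ι : Type} [Fintype ι] {p : ι → H →L[ℂ] H}
    (hp : IsPartition A p) (y : H →L[ℂ] H) : condE hA (pinch p y) = condE hA y :=
  ((wlim_condE hA _).congr' ((eventually_refines hA hp).mono fun T hT =>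
    pinch_pinch_of_adapted hp (netPart hA T).hq hT y)).unique (wlim_condE hA y)

end Vale.Agent.P078
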